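import Mathlib

/-! The limit model of QAOA on the SK model: one qubit and coherent states of a Bose field. -/

open scoped InnerProductSpace Topology
open Filter Asymptotics

noncomputable section

namespace Vale.Agent.P367S

/-- the eigenvalue of `Z` -/
def sg (a : Bool) : ℝ := if a then 1 else -1

abbrev M2 : Type := Matrix Bool Bool ℂ

def Zm : M2 := Matrix.diagonal fun a => (sg a : ℂ)

def Xm : M2 := Matrix.of fun a b => if a = b then 0 else 1

/-- `Zm * Xm = I • Ym` -/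
def Ym : M2 := Matrix.of fun a b => if a = b then 0 else -(Complex.I * sg a)

/-- `exp (-i θ X)` -/
def bM (θ : ℝ) : M2 := (Real.cos θ : ℂ) • (1 : M2) - (Complex.I * Real.sin θ) • Xm

/-- gates: mixer, cost, random field -/
inductive Gate : Type
  | b (θ : ℝ)
  | c (γ : ℝ)
  | r (t : ℝ)

/-- the gates of QAOA -/
def Gate.Plain : Gate → Prop
  | .b _ => True
  | .c _ => True
  | .r _ => False

/-- `co a h` is the vector `|a⟩ ⊗ W(h) Ω`, `cw f = exp (-i Z φ(f))`, `ann f` is the annihilation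
operator -/
structure Mdl (H K : Type) [NormedAddCommGroup H] [InnerProductSpace ℂ H]
    [SeminormedAddCommGroup K] [InnerProductSpace ℂ K] where
  co : Bool → H → K
  inner_co : ∀ a h b k, ⟪co a h, co b k⟫_ℂ =
    if a = b then Complex.exp (⟪h, k⟫_ℂ - (‖h‖ ^ 2 / 2 : ℝ) - (‖k‖ ^ 2 / 2 : ℝ)) else 0
  span_co : Submodule.span ℂ (Set.range fun p : Bool × H => co p.1 p.2) = ⊤
  mat : M2 → K →ₗ[ℂ] K
  mat_co : ∀ A a h, mat A (co a h) = ∑ b, A b a • co b h
  bx : ℝ → K ≃ₗᵢ[ℂ] K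
  bx_eq : ∀ θ x, bx θ x = mat (bM θ) x
  cw : H → K ≃ₗᵢ[ℂ] K
  cw_co : ∀ f a h, cw f (co a h) =
    Complex.exp (Complex.I * (sg a * (⟪f, h⟫_ℂ).im : ℝ)) • co a (h - (sg a : ℂ) • f)
  ann : H → K →ₗ[ℂ] K
  ann_co : ∀ f a h, ann f (co a h) = (Complex.I * ⟪f, h⟫_ℂ) • co a h
  io : K →ₗᵢ[ℂ] H
  e : H
  norm_e : ‖e‖ = 1
  orth : ∀ x, ⟪e, io x⟫_ℂ = 0

namespace Mdl

variable {H K : Type} [NormedAddCommGroup H] [InnerProductSpace ℂ H]
  [SeminormedAddCommGroup K] [InnerProductSpace ℂ K] (M : Mdl H K)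

/-- the initial state `|+⟩ ⊗ Ω` -/
def vac : K := (((√2)⁻¹ : ℝ) : ℂ) • (M.co true 0 + M.co false 0)

/-- the vector `U⁻¹ Z U vac` -/
def zed (U : K ≃ₗᵢ[ℂ] K) : K := U.symm (M.mat Zm (U M.vac))

/-- one gate -/
def step (U : K ≃ₗᵢ[ℂ] K) : Gate → K ≃ₗᵢ[ℂ] K
  | .b θ => U.trans (M.bx θ)
  | .c γ => U.trans (M.cw ((γ : ℂ) • M.io (M.zed U)))
  | .r t => U.trans (M.cw ((t : ℂ) • M.e))

/-- a circuit; the head of the list is applied first -/
def run (U : K ≃ₗᵢ[ℂ] K) (L : List Gate) : K ≃ₗᵢ[ℂ] K := L.foldl M.step U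

/-- the energy -/
def en (U : K ≃ₗᵢ[ℂ] K) : ℝ := (⟪M.ann (M.io (M.zed U)) (M.zed U), M.vac⟫_ℂ).re

/-- the limit energy per spin of a circuit -/
def val (L : List Gate) : ℝ := M.en (M.run (LinearIsometryEquiv.refl ℂ K) L)

/-- the angles of the cost gates together with the vectors `zed` at these times -/
def hist (U : K ≃ₗᵢ[ℂ] K) : List Gate → List (ℝ × K)
  | [] => []
  | .c γ :: L => (γ, M.zed U) :: hist (M.step U (.c γ)) L
  | g :: L => hist (M.step U g) L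

end Mdl

end Vale.Agent.P367S
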