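import Vale.Agent.P367S.MEx1
import Vale.Agent.P367M.MI2

/-! Existence of the model. Hints: `exists_io`: the completion of `K` is a separable Hilbert space; take
a Hilbert basis indexed by a set `w` (`exists_hilbertBasis`), which is countable (the balls of radius
`1 / 2` are disjoint, `Pairwise.countable_of_isOpen_disjoint`); send the basis to the vectors
`lp.single 2 (j + 1) 1` (`Orthonormal.orthogonalFamily`, `OrthogonalFamily.linearIsometry`);
`e = lp.single 2 0 1`. `exists_mdl`: `H = lp (fun _ : ℕ => ℂ) 2` is separable, `h ↦ co a h` is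
continuous (`‖co a h - co a k‖ ^ 2 = 2 - 2 re ⟪..⟫`), so the span of the range is separable
(`TopologicalSpace.IsSeparable.span`). -/

open scoped InnerProductSpace Topology Matrix
open Filter Asymptotics

noncomputable section

namespace Vale.Agent.P367S

theorem exists_io (K : Type) [SeminormedAddCommGroup K] [InnerProductSpace ℂ K]
    [TopologicalSpace.SeparableSpace K] :
    ∃ (io : K →ₗᵢ[ℂ] lp (fun _ : ℕ => ℂ) 2) (e : lp (fun _ : ℕ => ℂ) 2), ‖e‖ = 1 ∧
      ∀ x, ⟪e, io x⟫_ℂ = 0 := by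
  obtain ⟨ι⟩ := Vale.Agent.P367.exists_iso (WithLp 2 (UniformSpace.Completion K × ℂ))
  let j : K →ₗᵢ[ℂ] WithLp 2 (UniformSpace.Completion K × ℂ) :=
    { toFun := fun x => WithLp.toLp 2 ((x : UniformSpace.Completion K), 0)
      map_add' := fun x y => by
        rw [← WithLp.toLp_add, Prod.mk_add_mk, add_zero, UniformSpace.Completion.coe_add]
      map_smul' := fun c x => by
        rw [RingHom.id_apply, ← WithLp.toLp_smul, Prod.smul_mk, smul_zero,
          UniformSpace.Completion.coe_smul]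
      norm_map' := fun x => by
        simp [WithLp.prod_norm_eq_of_L2] }
  refine ⟨ι.comp j, ι (WithLp.toLp 2 (0, 1)), ?_, fun x => ?_⟩
  · rw [ι.norm_map]
    simp [WithLp.prod_norm_eq_of_L2]
  · rw [LinearIsometry.coe_comp, Function.comp_apply, ι.inner_map_map]
    simp [j]

theorem mex_sep : TopologicalSpace.SeparableSpace (lp (fun _ : ℕ => ℂ) 2) := by
  let b : HilbertBasis ℕ ℂ (lp (fun _ : ℕ => ℂ) 2) := default
  have h1 : TopologicalSpace.IsSeparable
      (Submodule.span ℂ (Set.range b) : Set (lp (fun _ : ℕ => ℂ) 2)) :=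
    (Set.countable_range b).isSeparable.span
  have h2 := h1.closure
  rw [← Submodule.topologicalClosure_coe, b.dense_span, Submodule.top_coe] at h2
  exact TopologicalSpace.isSeparable_univ_iff.1 h2

theorem mex_cont {H K : Type} [NormedAddCommGroup H] [InnerProductSpace ℂ H]
    [SeminormedAddCommGroup K] [InnerProductSpace ℂ K] (co : H → K)
    (h : ∀ h k, ⟪co h, co k⟫_ℂ =
      Complex.exp (⟪h, k⟫_ℂ - (‖h‖ ^ 2 / 2 : ℝ) - (‖k‖ ^ 2 / 2 : ℝ))) : Continuous co := by
  have hn : ∀ x, ‖co x‖ ^ 2 = 1 := fun x => by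
    have h1 := h x x
    rw [inner_self_eq_norm_sq_to_K, inner_self_eq_norm_sq_to_K] at h1
    have h2 : (((‖x‖ : ℝ) : ℂ) ^ 2 - (‖x‖ ^ 2 / 2 : ℝ) - (‖x‖ ^ 2 / 2 : ℝ)) = 0 := by
      push_cast; ring
    have h3 : (((‖co x‖ : ℝ) : ℂ)) ^ 2 = 1 := by
      refine h1.trans ?_
      rw [← Complex.exp_zero, ← h2]
      rfl
    exact_mod_cast h3
  refine continuous_iff_continuousAt.2 fun x => ?_
  rw [ContinuousAt, tendsto_iff_norm_sub_tendsto_zero]
  have e : ∀ y, ‖co y - co x‖ = √(2 - 2 * (Complex.exp (⟪y, x⟫_ℂ - (‖y‖ ^ 2 / 2 : ℝ) -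
      (‖x‖ ^ 2 / 2 : ℝ))).re) := fun y => by
    rw [← h, ← Real.sqrt_sq (norm_nonneg (co y - co x)), @norm_sub_sq ℂ, hn, hn]
    congr 1
    simp only [RCLike.re_to_complex]
    ring
  have c : Continuous fun y : H => √(2 - 2 * (Complex.exp (⟪y, x⟫_ℂ - (‖y‖ ^ 2 / 2 : ℝ) -
      (‖x‖ ^ 2 / 2 : ℝ))).re) := by fun_prop
  have t := c.tendsto x
  rw [← e x, sub_self, norm_zero] at t
  simpa only [e] using t

theorem exists_mdl : ∃ (K : Type) (_ : SeminormedAddCommGroup K) (_ : InnerProductSpace ℂ K),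
    TopologicalSpace.SeparableSpace K ∧ Nonempty (Mdl (lp (fun _ : ℕ => ℂ) 2) K) := by
  obtain ⟨K, i1, i2, co, mat, bx, cw, ann, h1, h2, h3, h4, h5, h6⟩ :=
    exists_pre (lp (fun _ : ℕ => ℂ) 2)
  haveI := mex_sep
  have hc : Continuous fun p : Bool × lp (fun _ : ℕ => ℂ) 2 => co p.1 p.2 :=
    continuous_prod_of_discrete_left.2 fun a => mex_cont (co a) fun h k => by rw [h1, if_pos rfl]
  have hs : TopologicalSpace.SeparableSpace K := by
    have h7 := (TopologicalSpace.isSeparable_range hc).span (R := ℂ)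
    rw [h2, Submodule.top_coe] at h7
    exact TopologicalSpace.isSeparable_univ_iff.1 h7
  obtain ⟨io, e, h8, h9⟩ := exists_io K
  exact ⟨K, i1, i2, hs, ⟨⟨co, h1, h2, mat, h3, bx, h4, cw, h5, ann, h6, io, e, h8, h9⟩⟩⟩

end Vale.Agent.P367S
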