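import Vale.Agent.P367S.MBas
import Vale.Agent.P367.PS

/-! Words of path sums are represented by vectors of the model. -/

open scoped InnerProductSpace Topology Matrix
open Filter MeasureTheory ProbabilityTheory Finset
open Vale.Agent.P367 (Lt Bf ampl vamp fw zw IsGram val3 RX RZ PZ)

noncomputable section

namespace Vale.Agent.P367S

theorem spin_eq : Vale.Agent.P146.spin = sg := rfl

theorem RX_eq (t : ℝ) : RX t = bM t := by
  ext a b
  cases a <;> cases b <;> simp [RX, bM, Xm]

theorem PZ_eq : PZ = Zm := rfl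

theorem RZ_star (t : ℝ) : (RZ t)ᴴ = RZ (-t) := by
  unfold RZ
  rw [Matrix.diagonal_conjTranspose]
  congr 1
  funext a
  simp only [Pi.star_apply, RCLike.star_def, ← Complex.exp_conj, map_neg, map_mul, Complex.conj_I,
    Complex.conj_ofReal]
  congr 1
  push_cast
  ring

theorem RZ_zero : RZ 0 = 1 := by
  unfold RZ
  simp

theorem int_char (η : ℝ) : ∫ l, Complex.exp (Complex.I * (η * l : ℝ)) ∂(gaussianReal 0 1) =
    Complex.exp (-(η ^ 2 : ℝ) / 2) := by
  have h := charFun_gaussianReal (μ := 0) (v := 1) η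
  rw [charFun_apply_real] at h
  simp only [Complex.ofReal_zero, mul_zero, zero_mul, NNReal.coe_one, Complex.ofReal_one, one_mul,
    zero_sub] at h
  convert h using 2
  · funext l
    congr 1
    push_cast
    ring
  · push_cast
    ring

theorem integrable_char (η : ℝ) :
    Integrable (fun l : ℝ => Complex.exp (Complex.I * (η * l : ℝ))) (gaussianReal 0 1) := by
  refine Integrable.of_bound (by fun_prop) 1 (Eventually.of_forall fun l => ?_)
  rw [mul_comm, Complex.norm_exp_ofReal_mul_I]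

namespace Mdl

variable {H K : Type} [NormedAddCommGroup H] [InnerProductSpace ℂ H]
  [SeminormedAddCommGroup K] [InnerProductSpace ℂ K] (M : Mdl H K)

/-- the displacement `∑ h i f_i + η e` -/
def dsp (N : ℕ) (z : ℕ → K) (h : ℕ → ℝ) (η : ℝ) : H :=
  M.io (∑ i ∈ range N, (h i : ℂ) • z i) + (η : ℂ) • M.e

/-- the vector `y` represents the word `w l`, `l` standard Gaussian -/
def Rep (N : ℕ) (z : ℕ → K) (w : ℝ → List Lt) (y : K) : Prop :=
  ∀ a h η, Integrable (fun l : ℝ => Complex.exp (Complex.I * (η * l : ℝ)) *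
      ampl N (fun i j => ⟪z i, z j⟫_ℂ) (w l) a h) (gaussianReal 0 1) ∧
    ⟪y, M.co a (M.dsp N z h η)⟫_ℂ = ∫ l, Complex.exp (Complex.I * (η * l : ℝ)) *
      ampl N (fun i j => ⟪z i, z j⟫_ℂ) (w l) a h ∂(gaussianReal 0 1)

theorem Bf_eq (N : ℕ) (z : ℕ → K) (h k : ℕ → ℝ) : Bf N (fun i j => ⟪z i, z j⟫_ℂ) h k =
    ⟪∑ i ∈ range N, (h i : ℂ) • z i, ∑ i ∈ range N, (k i : ℂ) • z i⟫_ℂ := by
  unfold Bf
  rw [sum_inner]
  refine sum_congr rfl fun i _ => ?_
  rw [inner_sum]
  refine sum_congr rfl fun j _ => ?_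
  rw [inner_smul_left, inner_smul_right, Complex.conj_ofReal]
  push_cast
  ring

theorem sum_single {N j : ℕ} (hj : j < N) (z : ℕ → K) (c : ℝ) :
    ∑ i ∈ range N, (((Pi.single j c : ℕ → ℝ) i : ℝ) : ℂ) • z i = (c : ℂ) • z j := by
  rw [sum_eq_single j]
  · simp
  · intro i _ hi
    simp [hi]
  · intro h
    exact absurd (mem_range.2 hj) h

theorem inner_ee : ⟪M.e, M.e⟫_ℂ = 1 := by
  rw [inner_self_eq_norm_sq_to_K, M.norm_e]
  simp

theorem orth' (x : K) : ⟪M.io x, M.e⟫_ℂ = 0 := by
  rw [← inner_conj_symm, M.orth, map_zero]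

theorem inner_vac_co (a : Bool) (u : H) :
    ⟪M.vac, M.co a u⟫_ℂ = ((1 / √2 : ℝ) : ℂ) * Complex.exp (-⟪u, u⟫_ℂ / 2) := by
  have h1 : ⟪u, u⟫_ℂ = ((‖u‖ ^ 2 : ℝ) : ℂ) := by
    rw [inner_self_eq_norm_sq_to_K]
    simp
  unfold vac
  rw [inner_smul_left, inner_add_left, M.inner_co, M.inner_co, Complex.conj_ofReal, h1, one_div]
  congr 1
  cases a <;> simp <;> congr 1 <;> ring

variable {M} {N : ℕ} {z : ℕ → K} {w : ℝ → List Lt} {y : K}

theorem rep_nil : M.Rep N z (fun _ => []) M.vac := by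
  intro a h η
  refine ⟨(integrable_char η).mul_const _, ?_⟩
  rw [integral_mul_const, int_char, inner_vac_co]
  simp only [ampl, dsp, Bf_eq, inner_add_left, inner_add_right, inner_smul_left, inner_smul_right,
    M.orth, M.orth', M.inner_ee, LinearIsometry.inner_map_map, Complex.conj_ofReal]
  rw [mul_left_comm, ← Complex.exp_add]
  congr 2
  push_cast
  ring

theorem Rep.wl (hr : M.Rep N z w y) {j : ℕ} (hj : j < N) (g : ℝ) :
    M.Rep N z (fun l => .w j g :: w l) ((M.cw ((g : ℂ) • M.io (z j))).symm y) := by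
  intro a h η
  obtain ⟨h1, h2⟩ := hr a (h - Pi.single j (sg a * g)) η
  simp only [ampl, spin_eq]
  simp_rw [mul_left_comm (Complex.exp (Complex.I * (η * _ : ℝ)))]
  refine ⟨h1.const_mul _, ?_⟩
  rw [integral_const_mul, ← h2, LinearIsometryEquiv.inner_map_eq_flip,
    LinearIsometryEquiv.symm_symm, M.cw_co, inner_smul_right]
  congr 3
  · rw [Bf_eq, sum_single hj]
    simp only [dsp, inner_add_right, inner_smul_left, inner_smul_right, M.orth',
      LinearIsometry.inner_map_map, Complex.conj_ofReal, mul_zero, add_zero, Complex.ofReal_one,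
      one_smul, Complex.im_ofReal_mul, mul_assoc]
  · simp only [dsp, Pi.sub_apply, Complex.ofReal_sub, sub_smul, sum_sub_distrib, sum_single hj,
      map_sub, map_smul, Complex.ofReal_mul, mul_smul]
    abel

theorem cw_e (t : ℝ) (a : Bool) (h : ℕ → ℝ) (η : ℝ) :
    M.cw ((t : ℂ) • M.e) (M.co a (M.dsp N z h η)) = M.co a (M.dsp N z h (η - sg a * t)) := by
  rw [M.cw_co]
  have h1 : (⟪(t : ℂ) • M.e, M.dsp N z h η⟫_ℂ).im = 0 := by
    simp only [dsp, inner_add_right, inner_smul_left, inner_smul_right, M.orth, M.inner_ee,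
      Complex.conj_ofReal]
    simp
  rw [h1]
  simp only [mul_zero, Complex.ofReal_zero, Complex.exp_zero, one_smul]
  congr 1
  simp only [dsp, Complex.ofReal_sub, sub_smul, Complex.ofReal_mul, mul_smul]
  abel

theorem Rep.ml (hr : M.Rep N z w y) (A B : M2) (t : ℝ) :
    M.Rep N z (fun l => .m (A * RZ (t * l) * B) :: w l)
      (M.mat Bᴴ ((M.cw ((t : ℂ) • M.e)).symm (M.mat Aᴴ y))) := by
  intro a h η
  have key : ∀ l : ℝ, Complex.exp (Complex.I * (η * l : ℝ)) *
      ampl N (fun i j => ⟪z i, z j⟫_ℂ) (.m (A * RZ (t * l) * B) :: w l) a h =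
      ∑ c, ∑ b, (B c a * A b c) * (Complex.exp (Complex.I * ((η - sg c * t) * l : ℝ)) *
        ampl N (fun i j => ⟪z i, z j⟫_ℂ) (w l) b h) := by
    intro l
    have h1 : ∀ c, Complex.exp (Complex.I * ((η - sg c * t) * l : ℝ)) =
        Complex.exp (Complex.I * (η * l : ℝ)) *
          Complex.exp (-(Complex.I * (t * l * sg c : ℝ))) := by
      intro c
      rw [← Complex.exp_add]
      congr 1
      push_cast
      ring
    simp only [ampl, RZ, spin_eq, Matrix.mul_apply (M := A * _), Matrix.mul_diagonal, h1,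
      Fintype.sum_bool]
    ring
  simp_rw [key]
  refine ⟨integrable_finsetSum _ fun c _ => integrable_finsetSum _ fun b _ =>
    (hr b h _).1.const_mul _, ?_⟩
  rw [integral_finsetSum _ fun c _ => integrable_finsetSum _ fun b _ => (hr b h _).1.const_mul _,
    M.inner_mat, Matrix.conjTranspose_conjTranspose, M.mat_co, inner_sum]
  refine sum_congr rfl fun c _ => ?_
  rw [integral_finsetSum _ fun b _ => (hr b h _).1.const_mul _, inner_smul_right,
    LinearIsometryEquiv.inner_map_eq_flip, LinearIsometryEquiv.symm_symm, cw_e, M.inner_mat,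
    Matrix.conjTranspose_conjTranspose, M.mat_co, inner_sum, mul_sum]
  refine sum_congr rfl fun b _ => ?_
  rw [integral_const_mul, ← (hr b h _).2, inner_smul_right, mul_assoc]

theorem Rep.vamp (hr : M.Rep N z w y) :
    ⟪y, M.vac⟫_ℂ = ∫ l, vamp N (fun i j => ⟪z i, z j⟫_ℂ) (w l) ∂(gaussianReal 0 1) := by
  have h0 : M.dsp N z 0 0 = 0 := by simp [dsp]
  have h1 := fun a => hr a 0 0
  simp only [h0, zero_mul, Complex.ofReal_zero, mul_zero, Complex.exp_zero, one_mul] at h1
  simp only [Vale.Agent.P367.vamp]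
  rw [integral_finsetSum _ fun a _ => (h1 a).1.const_mul _]
  simp only [integral_const_mul, ← (h1 _).2, vac, inner_smul_right, inner_add_right,
    Fintype.sum_bool, one_div]
  ring

end Mdl

end Vale.Agent.P367S
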