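import Vale.Agent.P367S.MMat
import Vale.Agent.P367M.MA2

/-! Basic algebra in the model. Hints: linear identities are checked on the vectors `co a h`
(`ext_co`); sesquilinear ones by `ind` in both variables. `norm_mat_le`: write `A` as a sum of
matrix units `E a b`; `‖E a b x‖ ^ 2 = ⟪x, E b b x⟫ ≤ ‖x‖ ^ 2` since `E b b` and `1 - E b b` are
orthogonal projections. `ann_bound`: `⟪ann f x, co a 0⟫` is `-i` times the derivative at `t = 0` of
`⟪x, co a (t f)⟫` (check on `co`, the condition is linear in `x`), and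
`‖co a (t f) - co a 0‖ ≤ |t| ‖f‖`; the two components are orthogonal. -/

open scoped InnerProductSpace Topology Matrix
open Filter Asymptotics

noncomputable section

namespace Vale.Agent.P367S

namespace Mdl

variable {H K : Type} [NormedAddCommGroup H] [InnerProductSpace ℂ H]
  [SeminormedAddCommGroup K] [InnerProductSpace ℂ K] (M : Mdl H K)

theorem ind {P : K → Prop} (hco : ∀ a h, P (M.co a h)) (h0 : P 0) (hadd : ∀ x y, P x → P y → P (x + y))
    (hsm : ∀ (c : ℂ) x, P x → P (c • x)) (x : K) : P x :=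
  P367.MA1_ind M hco h0 hadd hsm x

theorem ext_co {E : Type} [AddCommGroup E] [Module ℂ E] {f g : K →ₗ[ℂ] E}
    (h : ∀ a k, f (M.co a k) = g (M.co a k)) (x : K) : f x = g x :=
  LinearMap.congr_fun (P367.ext_co M h) x

theorem norm_co (a : Bool) (h : H) : ‖M.co a h‖ = 1 := by
  have h1 := inner_self_eq_norm_sq (𝕜 := ℂ) (M.co a h)
  rw [M.inner_co, if_pos rfl, inner_self_eq_norm_sq_to_K] at h1
  have h2 : ((‖h‖ : ℝ) : ℂ) ^ 2 - (‖h‖ ^ 2 / 2 : ℝ) - (‖h‖ ^ 2 / 2 : ℝ) = 0 := by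
    push_cast
    ring
  erw [h2] at h1
  exact (pow_eq_one_iff_of_nonneg (norm_nonneg _) two_ne_zero).1 (by simpa using h1.symm)

theorem mat_one (x : K) : M.mat 1 x = x :=
  LinearMap.congr_fun (P367.mat_one M) x

theorem mat_mul (A B : M2) (x : K) : M.mat (A * B) x = M.mat A (M.mat B x) :=
  LinearMap.congr_fun (P367.mat_mul M A B) x

theorem mat_add (A B : M2) (x : K) : M.mat (A + B) x = M.mat A x + M.mat B x :=
  LinearMap.congr_fun (P367.mat_add M A B) x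

theorem mat_sub (A B : M2) (x : K) : M.mat (A - B) x = M.mat A x - M.mat B x :=
  LinearMap.congr_fun (P367.mat_sub M A B) x

theorem mat_smul (c : ℂ) (A : M2) (x : K) : M.mat (c • A) x = c • M.mat A x :=
  LinearMap.congr_fun (P367.mat_smul M c A) x

theorem inner_mat (A : M2) (x y : K) : ⟪M.mat A x, y⟫_ℂ = ⟪x, M.mat Aᴴ y⟫_ℂ := by
  rw [P367.inner_mat, Matrix.conjTranspose_conjTranspose]

theorem norm_mat_of {A : M2} (h : Aᴴ * A = 1) (x : K) : ‖M.mat A x‖ = ‖x‖ :=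
  P367.norm_mat_uni M (Matrix.mem_unitaryGroup_iff'.2 h) x

theorem norm_Z (x : K) : ‖M.mat Zm x‖ = ‖x‖ :=
  M.norm_mat_of (by rw [Zm_star, Zm_sq]) x

theorem norm_X (x : K) : ‖M.mat Xm x‖ = ‖x‖ :=
  M.norm_mat_of (by rw [Xm_star, Xm_sq]) x

theorem norm_Y (x : K) : ‖M.mat Ym x‖ = ‖x‖ :=
  M.norm_mat_of (by rw [Ym_star, Ym_sq]) x

theorem Z_co (a : Bool) (h : H) : M.mat Zm (M.co a h) = (sg a : ℂ) • M.co a h :=
  P367.mat_diag_co M _ a h

theorem X_co (a : Bool) (h : H) : M.mat Xm (M.co a h) = M.co (!a) h :=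
  P367.ma2_PX M a h

theorem Y_co (a : Bool) (h : H) : M.mat Ym (M.co a h) = (Complex.I * sg a) • M.co (!a) h := by
  rw [M.mat_co]
  cases a <;> simp [Ym, sg]

theorem bx_symm (θ : ℝ) (x : K) : (M.bx θ).symm x = M.bx (-θ) x := by
  rw [LinearIsometryEquiv.symm_apply_eq, M.bx_eq, M.bx_eq, ← mat_mul, bM_add, add_neg_cancel,
    bM_zero, mat_one]

theorem bx_bx (θ θ' : ℝ) (x : K) : M.bx θ (M.bx θ' x) = M.bx (θ + θ') x := by
  rw [M.bx_eq, M.bx_eq, M.bx_eq, ← mat_mul, bM_add]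

theorem bx_zero (x : K) : M.bx 0 x = x := by
  rw [M.bx_eq, bM_zero, mat_one]

theorem cw_cw (u v : H) (x : K) : M.cw u (M.cw v x) =
    Complex.exp (-(Complex.I * ((⟪u, v⟫_ℂ).im : ℝ))) • M.cw (u + v) x := by
  refine M.ext_co (f := (M.cw u).toLinearEquiv.toLinearMap ∘ₗ (M.cw v).toLinearEquiv.toLinearMap)
    (g := Complex.exp (-(Complex.I * ((⟪u, v⟫_ℂ).im : ℝ))) • (M.cw (u + v)).toLinearEquiv.toLinearMap)
    (fun a k => ?_) x
  show M.cw u (M.cw v (M.co a k)) = (_ : ℂ) • M.cw (u + v) (M.co a k)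
  rw [M.cw_co, map_smul, M.cw_co, M.cw_co, ← mul_neg, ← Complex.ofReal_neg, P367.ma2_ee,
    P367.ma2_ee, P367.ma2_im_r, inner_add_left, Complex.add_im]
  refine P367.ma2_eq M ?_ (by module)
  linear_combination (-(⟪u, v⟫_ℂ).im) * sg_sq a

theorem cw_zero (x : K) : M.cw 0 x = x := by
  refine M.ext_co (f := (M.cw 0).toLinearEquiv.toLinearMap) (g := LinearMap.id) (fun a k => ?_) x
  show M.cw 0 (M.co a k) = M.co a k
  simp [M.cw_co]

theorem cw_symm (u : H) (x : K) : (M.cw u).symm x = M.cw (-u) x := by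
  rw [LinearIsometryEquiv.symm_apply_eq, cw_cw, add_neg_cancel, cw_zero, inner_neg_right,
    Complex.neg_im, P367.ma2_im_self]
  simp

theorem cw_Z (u : H) (x : K) : M.cw u (M.mat Zm x) = M.mat Zm (M.cw u x) := by
  refine M.ext_co (f := (M.cw u).toLinearEquiv.toLinearMap ∘ₗ M.mat Zm)
    (g := M.mat Zm ∘ₗ (M.cw u).toLinearEquiv.toLinearMap) (fun a k => ?_) x
  show M.cw u (M.mat Zm (M.co a k)) = M.mat Zm (M.cw u (M.co a k))
  rw [Z_co, map_smul, M.cw_co, map_smul, Z_co, smul_comm]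

theorem cw_X (u : H) (x : K) : M.cw u (M.mat Xm x) = M.mat Xm (M.cw (-u) x) := by
  refine M.ext_co (f := (M.cw u).toLinearEquiv.toLinearMap ∘ₗ M.mat Xm)
    (g := M.mat Xm ∘ₗ (M.cw (-u)).toLinearEquiv.toLinearMap) (fun a k => ?_) x
  show M.cw u (M.mat Xm (M.co a k)) = M.mat Xm (M.cw (-u) (M.co a k))
  rw [X_co, M.cw_co, M.cw_co, map_smul, X_co, sg_not]
  simp

theorem cw_Y (u : H) (x : K) : M.cw u (M.mat Ym x) = M.mat Ym (M.cw (-u) x) := by
  have h : Ym = -Complex.I • (Zm * Xm) := by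
    rw [Zm_Xm, smul_smul]
    simp
  rw [h, mat_smul, mat_smul, mat_mul, mat_mul, map_smul, cw_Z, cw_X]

theorem norm_vac : ‖M.vac‖ = 1 :=
  P367.norm_vac M

theorem X_vac : M.mat Xm M.vac = M.vac := by
  rw [vac, map_smul, map_add, X_co, X_co, add_comm]
  rfl

theorem norm_zed (U : K ≃ₗᵢ[ℂ] K) : ‖M.zed U‖ = 1 := by
  rw [zed, LinearIsometryEquiv.norm_map, norm_Z, LinearIsometryEquiv.norm_map, norm_vac]

theorem zed_cw (U : K ≃ₗᵢ[ℂ] K) (u : H) : M.zed (U.trans (M.cw u)) = M.zed U := by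
  show U.symm ((M.cw u).symm (M.mat Zm (M.cw u (U M.vac)))) = _
  rw [← cw_Z, LinearIsometryEquiv.symm_apply_apply, zed]

theorem zed_bx (U : K ≃ₗᵢ[ℂ] K) (θ : ℝ) : M.zed (U.trans (M.bx θ)) =
    (Real.cos (2 * θ) : ℂ) • M.zed U + (Real.sin (2 * θ) : ℂ) • U.symm (M.mat Ym (U M.vac)) := by
  show U.symm ((M.bx θ).symm (M.mat Zm (M.bx θ (U M.vac)))) = _
  rw [bx_symm, M.bx_eq, M.bx_eq, ← mat_mul, ← mat_mul, bM_conj, mat_add, mat_smul, mat_smul,
    map_add, map_smul, map_smul, zed]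

theorem step_b_zero (U : K ≃ₗᵢ[ℂ] K) : M.step U (.b 0) = U :=
  LinearIsometryEquiv.ext fun x => M.bx_zero (U x)

theorem step_r_zero (U : K ≃ₗᵢ[ℂ] K) : M.step U (.r 0) = U := by
  refine LinearIsometryEquiv.ext fun x => ?_
  show M.cw (((0 : ℝ) : ℂ) • M.e) (U x) = U x
  rw [Complex.ofReal_zero, zero_smul, cw_zero]

theorem step_c_zero (U : K ≃ₗᵢ[ℂ] K) : M.step U (.c 0) = U := by
  refine LinearIsometryEquiv.ext fun x => ?_
  show M.cw (((0 : ℝ) : ℂ) • M.io (M.zed U)) (U x) = U x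
  rw [Complex.ofReal_zero, zero_smul, cw_zero]

theorem step_b_b (U : K ≃ₗᵢ[ℂ] K) (θ θ' : ℝ) : M.step (M.step U (.b θ)) (.b θ') = M.step U (.b (θ + θ')) :=
  LinearIsometryEquiv.ext fun x => (M.bx_bx θ' θ (U x)).trans (by rw [add_comm]; rfl)

theorem run_cons (U : K ≃ₗᵢ[ℂ] K) (g : Gate) (L : List Gate) : M.run U (g :: L) = M.run (M.step U g) L :=
  rfl

theorem run_append (U : K ≃ₗᵢ[ℂ] K) (L L' : List Gate) : M.run U (L ++ L') = M.run (M.run U L) L' :=
  List.foldl_append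

end Mdl

end Vale.Agent.P367S
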