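import Vale.Agent.P367S.MBas

/-! Basic algebra in the model. Hints: linear identities are checked on the vectors `co a h`
(`ext_co`); sesquilinear ones by `ind` in both variables. `norm_mat_le`: write `A` as a sum of
matrix units `E a b`; `‖E a b x‖ ^ 2 = ⟪x, E b b x⟫ ≤ ‖x‖ ^ 2` since `E b b` and `1 - E b b` are
orthogonal projections. `ann_bound`: `⟪ann f x, co a 0⟫` is `-i` times the derivative at `t = 0` of
`⟪x, co a (t f)⟫` (check on `co`, the condition is linear in `x`), and
`‖co a (t f) - co a 0‖ ≤ |t| ‖f‖`; the two components are orthogonal. -/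

open scoped InnerProductSpace Topology Matrix
open Filter Asymptotics

noncomputable section

namespace Vale.Agent.P367S

namespace Mdl

variable {H K : Type} [NormedAddCommGroup H] [InnerProductSpace ℂ H]
  [SeminormedAddCommGroup K] [InnerProductSpace ℂ K] (M : Mdl H K)

theorem norm_mat_le (A : M2) (x : K) : ‖M.mat A x‖ ≤ (∑ a, ∑ b, ‖A a b‖) * ‖x‖ :=
  P367.norm_mat_le M A x

theorem ann_bound (f : H) (x : K) : ‖⟪M.ann f x, M.vac⟫_ℂ‖ ≤ ‖f‖ * ‖x‖ := by
  rw [norm_inner_symm]
  exact P367.ann_bound M f x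

end Mdl

end Vale.Agent.P367S
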