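import Vale.Agent.P367S.MMat

/-! The space of coherent vectors over an inner product space. Hints: `K` is a type synonym of
`Bool × H →₀ ℂ` with `⟪x, y⟫ = ∑ conj (x p) * y q * ker p q` (`PreInnerProductSpace.Core`,
`InnerProductSpace.ofCore`). Positivity: for a finite family the Gram matrix `⟪h i, h j⟫` is
positive semidefinite, so are its Hadamard powers (`Matrix.PosSemidef.hadamard`), hence the matrix of
the exponentials (power series, limit of nonnegative numbers). The operators are given by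
`Finsupp.lift` or `Finsupp.linearCombination`; `bx θ` and `cw f` preserve inner products (check on
generators) and have the inverses `bx (-θ)`, `cw (-f)` (`LinearEquiv.isometryOfInner`). -/

open scoped InnerProductSpace Topology Matrix
open Filter Asymptotics

noncomputable section

namespace Vale.Agent.P367S

open scoped ComplexOrder in
theorem MEx1_gram {ι E : Type} [SeminormedAddCommGroup E] [InnerProductSpace ℂ E] (v : ι → E) :
    (Matrix.of fun i j => ⟪v i, v j⟫_ℂ).PosSemidef := by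
  refine ⟨Matrix.isHermitian_gram ℂ v, fun x => ?_⟩
  have h : (x.sum fun i xi => x.sum fun j xj => star xi * (Matrix.of fun i j => ⟪v i, v j⟫_ℂ) i j * xj)
      = ⟪x.sum fun i xi => xi • v i, x.sum fun i xi => xi • v i⟫_ℂ := by
    simp only [Finsupp.sum, sum_inner, inner_sum, inner_smul_left, inner_smul_right,
      Matrix.of_apply, Finset.mul_sum]
    rw [Finset.sum_comm]
    refine Finset.sum_congr rfl fun i _ => Finset.sum_congr rfl fun j _ => ?_
    simp only [RCLike.star_def]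
    ring
  rw [h, RCLike.le_iff_re_im]
  exact ⟨by rw [map_zero]; exact inner_self_nonneg, by rw [map_zero, inner_self_im]⟩

open scoped ComplexOrder in
theorem MEx1_pow {ι : Type} {G : Matrix ι ι ℂ} (hG : G.PosSemidef) (n : ℕ) :
    (Matrix.of fun i j => G i j ^ n).PosSemidef := by
  induction n with
  | zero =>
    have h := MEx1_gram (fun _ : ι => (1 : ℂ))
    simpa using h
  | succ n ih =>
    have h := ih.hadamard hG
    have e : (Matrix.of fun i j => G i j ^ (n + 1)) = (Matrix.of fun i j => G i j ^ n) ⊙ G := by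
      ext i j
      simp [pow_succ]
    rw [e]
    exact h

open scoped ComplexOrder in
theorem MEx1_exp {ι : Type} {G : Matrix ι ι ℂ} (hG : G.PosSemidef) :
    (Matrix.of fun i j => Complex.exp (G i j)).PosSemidef := by
  refine ⟨?_, fun x => ?_⟩
  · ext i j
    have h := hG.1.apply i j
    simp only [Matrix.conjTranspose_apply, Matrix.of_apply, RCLike.star_def] at h ⊢
    rw [← Complex.exp_conj, h]
  · have hs : HasSum (fun n : ℕ => ∑ i ∈ x.support, ∑ j ∈ x.support,
        star (x i) * (G i j ^ n / (n.factorial : ℂ)) * x j)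
        (∑ i ∈ x.support, ∑ j ∈ x.support, star (x i) * Complex.exp (G i j) * x j) := by
      refine hasSum_sum fun i _ => hasSum_sum fun j _ => ?_
      refine HasSum.mul_right _ (HasSum.mul_left _ ?_)
      rw [Complex.exp_eq_exp_ℂ]
      exact NormedSpace.expSeries_div_hasSum_exp (G i j)
    refine hs.nonneg fun n => ?_
    have h := (MEx1_pow hG n).2 x
    have e : (∑ i ∈ x.support, ∑ j ∈ x.support,
        star (x i) * (G i j ^ n / (n.factorial : ℂ)) * x j) =
        (((n.factorial : ℝ)⁻¹ : ℝ) : ℂ) * (x.sum fun i xi => x.sum fun j xj =>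
          star xi * (Matrix.of fun i j => G i j ^ n) i j * xj) := by
      simp only [Finsupp.sum, Finset.mul_sum, Matrix.of_apply]
      refine Finset.sum_congr rfl fun i _ => Finset.sum_congr rfl fun j _ => ?_
      push_cast
      ring
    rw [e]
    exact mul_nonneg (Complex.zero_le_real.mpr (by positivity)) h

open scoped ComplexOrder in
theorem MEx1_space {ι : Type} {G : Matrix ι ι ℂ} (hG : G.PosSemidef) :
    ∃ (K : Type) (_ : SeminormedAddCommGroup K) (_ : InnerProductSpace ℂ K)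
      (b : Module.Basis ι ℂ K), ∀ i j, ⟪b i, b j⟫_ℂ = G i j := by
  let c : PreInnerProductSpace.Core ℂ (ι →₀ ℂ) :=
    { inner := fun x y => x.sum fun i xi => y.sum fun j yj => star xi * G i j * yj
      conj_inner_symm := fun x y => by
        simp only [Finsupp.sum, map_sum]
        rw [Finset.sum_comm]
        refine Finset.sum_congr rfl fun i _ => Finset.sum_congr rfl fun j _ => ?_
        have h := hG.1.apply i j
        simp only [RCLike.star_def] at h ⊢
        simp only [map_mul, Complex.conj_conj, h]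
        ring
      re_inner_nonneg := fun x => by
        have h := hG.2 x
        rw [RCLike.le_iff_re_im] at h
        simpa using h.1
      add_left := fun x y z => by
        rw [Finsupp.sum_add_index']
        · intro i
          simp
        · intro i a b
          simp only [star_add, add_mul, Finsupp.sum_add]
      smul_left := fun x y r => by
        rw [Finsupp.sum_smul_index']
        · simp only [Finsupp.sum, Finset.mul_sum, smul_eq_mul, star_mul', RCLike.star_def]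
          refine Finset.sum_congr rfl fun i _ => Finset.sum_congr rfl fun j _ => ?_
          ring
        · intro i
          simp }
  refine ⟨ι →₀ ℂ, InnerProductSpace.Core.toSeminormedAddCommGroup (𝕜 := ℂ) (c := c),
    InnerProductSpace.ofCore c, Finsupp.basisSingleOne, fun i j => ?_⟩
  change (Finsupp.single i (1 : ℂ)).sum (fun i xi => (Finsupp.single j (1 : ℂ)).sum
    fun j yj => star xi * G i j * yj) = G i j
  simp

/-- the kernel of the coherent vectors -/
def MEx1_ker (H : Type) [NormedAddCommGroup H] [InnerProductSpace ℂ H] :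
    Matrix (Bool × H) (Bool × H) ℂ := Matrix.of fun p q =>
  if p.1 = q.1 then
    Complex.exp (⟪p.2, q.2⟫_ℂ - (‖p.2‖ ^ 2 / 2 : ℝ) - (‖q.2‖ ^ 2 / 2 : ℝ)) else 0

open scoped ComplexOrder in
theorem MEx1_ker_psd (H : Type) [NormedAddCommGroup H] [InnerProductSpace ℂ H] :
    (MEx1_ker H).PosSemidef := by
  have h1 : ((1 : Matrix Bool Bool ℂ).submatrix (Prod.fst : Bool × H → Bool)
      Prod.fst).PosSemidef := Matrix.PosSemidef.one.submatrix _
  have h2 := MEx1_exp (MEx1_gram fun p : Bool × H => p.2)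
  have h3 := MEx1_gram fun p : Bool × H => Complex.exp (-(‖p.2‖ ^ 2 / 2 : ℝ))
  have h := (h1.hadamard h2).hadamard h3
  refine (congrArg Matrix.PosSemidef ?_).mp h
  symm
  ext p q
  simp only [MEx1_ker, Matrix.of_apply, Matrix.hadamard_apply, Matrix.submatrix_apply,
    Matrix.one_apply, RCLike.inner_apply, ← Complex.exp_conj, map_neg, Complex.conj_ofReal]
  split_ifs
  · rw [one_mul, ← Complex.exp_add, ← Complex.exp_add]
    congr 1
    ring
  · simp

theorem MEx1_inner_ext {ι K : Type} [SeminormedAddCommGroup K] [InnerProductSpace ℂ K]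
    (b : Module.Basis ι ℂ K) (f : K →ₗ[ℂ] K) (h : ∀ i j, ⟪f (b i), f (b j)⟫_ℂ = ⟪b i, b j⟫_ℂ)
    (x y : K) : ⟪f x, f y⟫_ℂ = ⟪x, y⟫_ℂ := by
  have h1 : ∀ i y, ⟪f (b i), f y⟫_ℂ = ⟪b i, y⟫_ℂ := by
    intro i y
    have e : (innerₛₗ ℂ (f (b i))) ∘ₗ f = innerₛₗ ℂ (b i) := b.ext fun j => h i j
    exact LinearMap.congr_fun e y
  have e : (innerₛₗ ℂ (f y)) ∘ₗ f = innerₛₗ ℂ y := b.ext fun j => by
    change ⟪f y, f (b j)⟫_ℂ = ⟪y, b j⟫_ℂ
    rw [← inner_conj_symm, h1, inner_conj_symm]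
  have e2 : ⟪f y, f x⟫_ℂ = ⟪y, x⟫_ℂ := LinearMap.congr_fun e x
  rw [← inner_conj_symm, e2, inner_conj_symm]

theorem MEx1_phase {H : Type} [NormedAddCommGroup H] [InnerProductSpace ℂ H] (s : ℝ) (f h k : H) :
    (starRingEnd ℂ) (Complex.exp (Complex.I * (s * (⟪f, h⟫_ℂ).im : ℝ))) *
      (Complex.exp (Complex.I * (s * (⟪f, k⟫_ℂ).im : ℝ)) *
        Complex.exp (⟪h - (s : ℂ) • f, k - (s : ℂ) • f⟫_ℂ - (‖h - (s : ℂ) • f‖ ^ 2 / 2 : ℝ) -
          (‖k - (s : ℂ) • f‖ ^ 2 / 2 : ℝ))) =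
      Complex.exp (⟪h, k⟫_ℂ - (‖h‖ ^ 2 / 2 : ℝ) - (‖k‖ ^ 2 / 2 : ℝ)) := by
  rw [← Complex.exp_conj, ← Complex.exp_add, ← Complex.exp_add]
  congr 1
  have n1 : ∀ u : H, ((‖u‖ ^ 2 / 2 : ℝ) : ℂ) = ⟪u, u⟫_ℂ / 2 := fun u => by
    rw [inner_self_eq_norm_sq_to_K]
    push_cast
    rfl
  have n2 : ∀ u : H, Complex.I * ((s * (⟪f, u⟫_ℂ).im : ℝ) : ℂ) =
      (s : ℂ) * (⟪f, u⟫_ℂ - ⟪u, f⟫_ℂ) / 2 := fun u => by
    rw [← inner_conj_symm u f, Complex.sub_conj]
    push_cast
    ring
  rw [n1, n1, n1, n1, n2, n2]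
  simp only [inner_sub_left, inner_sub_right, inner_smul_left, inner_smul_right, map_div₀, map_mul,
    map_sub, inner_conj_symm, Complex.conj_ofReal, map_ofNat]
  ring

theorem exists_pre (H : Type) [NormedAddCommGroup H] [InnerProductSpace ℂ H] :
    ∃ (K : Type) (_ : SeminormedAddCommGroup K) (_ : InnerProductSpace ℂ K) (co : Bool → H → K)
      (mat : M2 → K →ₗ[ℂ] K) (bx : ℝ → K ≃ₗᵢ[ℂ] K) (cw : H → K ≃ₗᵢ[ℂ] K) (ann : H → K →ₗ[ℂ] K),
      (∀ a h b k, ⟪co a h, co b k⟫_ℂ =
        if a = b then Complex.exp (⟪h, k⟫_ℂ - (‖h‖ ^ 2 / 2 : ℝ) - (‖k‖ ^ 2 / 2 : ℝ)) else 0) ∧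
      Submodule.span ℂ (Set.range fun p : Bool × H => co p.1 p.2) = ⊤ ∧
      (∀ A a h, mat A (co a h) = ∑ b, A b a • co b h) ∧ (∀ θ x, bx θ x = mat (bM θ) x) ∧
      (∀ f a h, cw f (co a h) =
        Complex.exp (Complex.I * (sg a * (⟪f, h⟫_ℂ).im : ℝ)) • co a (h - (sg a : ℂ) • f)) ∧
      ∀ f a h, ann f (co a h) = (Complex.I * ⟪f, h⟫_ℂ) • co a h := by
  obtain ⟨K, i1, i2, b, hb⟩ := MEx1_space (MEx1_ker_psd H)
  have hb' : ∀ a h c k, ⟪b (a, h), b (c, k)⟫_ℂ =
      if a = c then Complex.exp (⟪h, k⟫_ℂ - (‖h‖ ^ 2 / 2 : ℝ) - (‖k‖ ^ 2 / 2 : ℝ)) else 0 :=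
    fun a h c k => hb (a, h) (c, k)
  obtain ⟨mat, hmat⟩ : ∃ mat : M2 → K →ₗ[ℂ] K,
      ∀ A a h, mat A (b (a, h)) = ∑ c, A c a • b (c, h) :=
    ⟨fun A => b.constr ℂ fun p => ∑ c, A c p.1 • b (c, p.2), fun A a h => by simp⟩
  obtain ⟨w, hw⟩ : ∃ w : H → K →ₗ[ℂ] K, ∀ f a h, w f (b (a, h)) =
      Complex.exp (Complex.I * (sg a * (⟪f, h⟫_ℂ).im : ℝ)) • b (a, h - (sg a : ℂ) • f) :=
    ⟨fun f => b.constr ℂ fun p => Complex.exp (Complex.I * (sg p.1 * (⟪f, p.2⟫_ℂ).im : ℝ)) •
      b (p.1, p.2 - (sg p.1 : ℂ) • f), fun f a h => by rw [Module.Basis.constr_basis]⟩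
  have mmul : ∀ A B : M2, mat A ∘ₗ mat B = mat (A * B) := fun A B => b.ext fun p => by
    obtain ⟨a, h⟩ := p
    simp only [LinearMap.comp_apply, hmat, map_sum, map_smul, Matrix.mul_apply, Finset.smul_sum,
      Finset.sum_smul, smul_smul]
    rw [Finset.sum_comm]
    refine Finset.sum_congr rfl fun i _ => Finset.sum_congr rfl fun j _ => ?_
    rw [mul_comm]
  have mone : mat 1 = LinearMap.id := b.ext fun p => by
    obtain ⟨a, h⟩ := p
    rw [hmat]
    cases a <;> simp [Matrix.one_apply]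
  have minner : ∀ A : M2, Aᴴ * A = 1 → ∀ x y, ⟪mat A x, mat A y⟫_ℂ = ⟪x, y⟫_ℂ := fun A hA => by
    refine MEx1_inner_ext b _ ?_
    rintro ⟨a, h⟩ ⟨c, k⟩
    have e := congrFun (congrFun hA a) c
    simp only [Matrix.mul_apply, Matrix.conjTranspose_apply, Matrix.one_apply, RCLike.star_def,
      Fintype.sum_bool] at e
    simp only [hmat, Fintype.sum_bool, inner_add_left, inner_add_right, inner_smul_left,
      inner_smul_right, hb', if_true, Bool.true_eq_false, Bool.false_eq_true, if_false]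
    split_ifs at e ⊢
    · linear_combination e * Complex.exp (⟪h, k⟫_ℂ - (‖h‖ ^ 2 / 2 : ℝ) - (‖k‖ ^ 2 / 2 : ℝ))
    · linear_combination e * Complex.exp (⟪h, k⟫_ℂ - (‖h‖ ^ 2 / 2 : ℝ) - (‖k‖ ^ 2 / 2 : ℝ))
  have wmul : ∀ f : H, w f ∘ₗ w (-f) = LinearMap.id := fun f => b.ext fun p => by
    obtain ⟨a, h⟩ := p
    simp only [LinearMap.comp_apply, hw, map_smul, smul_smul, LinearMap.id_apply, smul_neg,
      sub_neg_eq_add, add_sub_cancel_right]
    rw [← Complex.exp_add]
    have e : (⟪f, h + (sg a : ℂ) • f⟫_ℂ).im = (⟪f, h⟫_ℂ).im := by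
      have e1 : (⟪f, f⟫_ℂ).im = 0 := inner_self_im (𝕜 := ℂ) f
      rw [inner_add_right, inner_smul_right, Complex.add_im, Complex.im_ofReal_mul, e1]
      ring
    rw [e, inner_neg_left, Complex.neg_im]
    simp
  have winner : ∀ f x y, ⟪w f x, w f y⟫_ℂ = ⟪x, y⟫_ℂ := fun f => by
    refine MEx1_inner_ext b _ ?_
    rintro ⟨a, h⟩ ⟨c, k⟩
    simp only [hw, inner_smul_left, inner_smul_right, hb']
    split_ifs with hac
    · subst hac
      rw [mul_left_comm]
      exact MEx1_phase (sg a) f h k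
    · simp
  refine ⟨K, i1, i2, fun a h => b (a, h), mat,
    fun θ => (LinearEquiv.ofLinearMap (mat (bM θ)) (mat (bM (-θ))) ?_ ?_).isometryOfInner
      (minner _ ?_),
    fun f => (LinearEquiv.ofLinearMap (w f) (w (-f)) (wmul f) ?_).isometryOfInner (winner f),
    fun f => b.constr ℂ fun p => (Complex.I * ⟪f, p.2⟫_ℂ) • b p,
    hb', b.span_eq, hmat, fun θ x => rfl, hw, fun f a h => by rw [Module.Basis.constr_basis]⟩
  · rw [mmul, bM_add, add_neg_cancel, bM_zero, mone]
  · rw [mmul, bM_add, neg_add_cancel, bM_zero, mone]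
  · rw [bM_star, bM_add, neg_add_cancel, bM_zero]
  · have h := wmul (-f)
    rwa [neg_neg] at h

end Vale.Agent.P367S
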