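import Vale.Agent.P367S.SDefs

/-! Two by two matrices. Hints: `ext a b; cases a <;> cases b <;> simp [...]`, trigonometric addition
formulas, `Complex.I_sq`. -/

open scoped InnerProductSpace Topology Matrix
open Filter Asymptotics

noncomputable section

namespace Vale.Agent.P367S

theorem sg_sq (a : Bool) : sg a * sg a = 1 := by
  cases a <;> simp [sg]

theorem sg_not (a : Bool) : sg (!a) = -sg a := by
  cases a <;> simp [sg]

theorem abs_sg (a : Bool) : |sg a| = 1 := by
  cases a <;> simp [sg]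

theorem Zm_sq : Zm * Zm = 1 := by
  ext a b
  cases a <;> cases b <;> simp [Zm, Xm, Ym, sg, Matrix.mul_apply, Matrix.diagonal_apply]

theorem Xm_sq : Xm * Xm = 1 := by
  ext a b
  cases a <;> cases b <;> simp [Zm, Xm, Ym, sg, Matrix.mul_apply, Matrix.diagonal_apply]

theorem Ym_sq : Ym * Ym = 1 := by
  ext a b
  cases a <;> cases b <;> simp [Zm, Xm, Ym, sg, Matrix.mul_apply, Matrix.diagonal_apply]

theorem Zm_star : Zmᴴ = Zm := by
  ext a b
  cases a <;> cases b <;> simp [Zm, Xm, Ym, sg, Matrix.diagonal_apply]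

theorem Xm_star : Xmᴴ = Xm := by
  ext a b
  cases a <;> cases b <;> simp [Zm, Xm, Ym, sg, Matrix.diagonal_apply]

theorem Ym_star : Ymᴴ = Ym := by
  ext a b
  cases a <;> cases b <;> simp [Zm, Xm, Ym, sg, Matrix.diagonal_apply]

theorem Zm_Xm : Zm * Xm = Complex.I • Ym := by
  ext a b
  cases a <;> cases b <;> simp [Zm, Xm, Ym, sg, Matrix.mul_apply, Matrix.diagonal_apply]

theorem Zm_Ym : Zm * Ym = -Complex.I • Xm := by
  ext a b
  cases a <;> cases b <;> simp [Zm, Xm, Ym, sg, Matrix.mul_apply, Matrix.diagonal_apply]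

theorem Ym_Zm : Ym * Zm = Complex.I • Xm := by
  ext a b
  cases a <;> cases b <;> simp [Zm, Xm, Ym, sg, Matrix.mul_apply, Matrix.diagonal_apply]

theorem bM_zero : bM 0 = 1 := by
  simp [bM]

theorem bM_add (θ θ' : ℝ) : bM θ * bM θ' = bM (θ + θ') := by
  ext a b
  cases a <;> cases b <;>
    simp [bM, Xm, Matrix.mul_apply, Matrix.one_apply, Complex.cos_add, Complex.sin_add] <;>
    first
      | linear_combination (Complex.sin θ * Complex.sin θ') * Complex.I_sq
      | ring

theorem bM_star (θ : ℝ) : (bM θ)ᴴ = bM (-θ) := by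
  ext a b
  cases a <;> cases b <;>
    simp [bM, Xm, Matrix.one_apply, ← Complex.ofReal_cos, ← Complex.ofReal_sin, Complex.conj_ofReal]

theorem bM_conj (θ : ℝ) : bM (-θ) * Zm * bM θ =
    (Real.cos (2 * θ) : ℂ) • Zm + (Real.sin (2 * θ) : ℂ) • Ym := by
  ext a b
  cases a <;> cases b <;>
    simp [bM, Xm, Ym, Zm, sg, Matrix.mul_apply, Matrix.one_apply, Matrix.diagonal_apply,
      Complex.cos_two_mul', Complex.sin_two_mul] <;>
    first
      | linear_combination (Complex.sin θ ^ 2) * Complex.I_sq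
      | linear_combination (-Complex.sin θ ^ 2) * Complex.I_sq
      | ring

theorem bM_Z_bM (θ : ℝ) : bM θ * Zm * bM θ = Zm := by
  have h := Complex.cos_sq_add_sin_sq (θ : ℂ)
  ext a b
  cases a <;> cases b <;>
    simp [bM, Xm, Zm, sg, Matrix.mul_apply, Matrix.one_apply, Matrix.diagonal_apply] <;>
    first
      | linear_combination h - (Complex.sin θ ^ 2) * Complex.I_sq
      | linear_combination -h + (Complex.sin θ ^ 2) * Complex.I_sq
      | ring

theorem bM_axis : bM (-(Real.pi / 8)) * Zm * bM (Real.pi / 8) = (((√2)⁻¹ : ℝ) : ℂ) • (Zm + Ym) := by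
  have h : (√2)⁻¹ = √2 / 2 := by
    have h2 : √2 * √2 = 2 := Real.mul_self_sqrt (by norm_num)
    have h0 : √2 ≠ 0 := by positivity
    field_simp
    linarith
  rw [bM_conj, show 2 * (Real.pi / 8) = Real.pi / 4 by ring, Real.cos_pi_div_four,
    Real.sin_pi_div_four, h, smul_add]

theorem axis_flip : bM (-(Real.pi / 8)) * Zm * bM (Real.pi / 8) * Zm *
    (bM (-(Real.pi / 8)) * Zm * bM (Real.pi / 8)) = Ym := by
  have h2 : (((√2)⁻¹ : ℝ) : ℂ) * (((√2)⁻¹ : ℝ) : ℂ) = 1 / 2 := by
    rw [← Complex.ofReal_mul, ← mul_inv, Real.mul_self_sqrt (by norm_num)]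
    norm_num
  have h3 : (Zm + Ym) * Zm * (Zm + Ym) = (2 : ℂ) • Ym := by
    ext a b
    cases a <;> cases b <;>
      simp [Zm, Ym, sg, Matrix.mul_apply, Matrix.diagonal_apply] <;>
      first
        | linear_combination Complex.I_sq
        | linear_combination -Complex.I_sq
        | ring
  rw [bM_axis, smul_mul_assoc, smul_mul_smul_comm, h2, h3, smul_smul]
  norm_num

end Vale.Agent.P367S
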