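import Vale.Agent.P367S.MBas

/-! The energy as a sum over the cost gates. Hints: `ann f` commutes with `mat A` and
`ann f (cw g x) = cw g (ann f x - (I * ⟪f, g⟫) • Z x)`, `ann f vac = 0`. For `f` orthogonal to `e`
show by induction on `L` (for a general initial `U` with `ann f (U x) = U (ann f x + δ x)`) that
`ann f (run U L x) = run U L (ann f x + δ' x)`, where `δ'` is `δ` plus the sum over the cost gates
of `-(I * ⟪f, γ_j • io z_j⟫) • U_j⁻¹ Z U_j`. Then `ann f z = U⁻¹ Z U (δ vac) - δ z`, so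
`⟪ann f z, vac⟫ = ∑ I * conj ⟪f, g_j⟫ * (⟪z_j, z⟫ - ⟪z, z_j⟫) = -2 ∑ γ_j ⟪z_j, z⟫ im ⟪z_j, z⟫`. -/

open scoped InnerProductSpace Topology Matrix
open Filter Asymptotics

noncomputable section

namespace Vale.Agent.P367S

namespace Mdl

variable {H K : Type} [NormedAddCommGroup H] [InnerProductSpace ℂ H]
  [SeminormedAddCommGroup K] [InnerProductSpace ℂ K] (M : Mdl H K)

theorem mval_mat (f : H) (A : M2) (x : K) : M.ann f (M.mat A x) = M.mat A (M.ann f x) := by
  refine M.ext_co (f := M.ann f ∘ₗ M.mat A) (g := M.mat A ∘ₗ M.ann f) (fun a k => ?_) x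
  simp only [LinearMap.comp_apply, M.mat_co, M.ann_co, map_sum, map_smul, Finset.smul_sum]
  exact Finset.sum_congr rfl fun b _ => smul_comm _ _ _

theorem mval_cw (f g : H) (x : K) : M.ann f (M.cw g x) =
    M.cw g (M.ann f x - (Complex.I * ⟪f, g⟫_ℂ) • M.mat Zm x) := by
  refine M.ext_co (f := M.ann f ∘ₗ (M.cw g).toLinearEquiv.toLinearMap)
    (g := (M.cw g).toLinearEquiv.toLinearMap ∘ₗ (M.ann f - (Complex.I * ⟪f, g⟫_ℂ) • M.mat Zm))
    (fun a k => ?_) x
  change M.ann f (M.cw g (M.co a k)) =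
    M.cw g (M.ann f (M.co a k) - (Complex.I * ⟪f, g⟫_ℂ) • M.mat Zm (M.co a k))
  rw [M.ann_co, M.Z_co, smul_smul, ← sub_smul, map_smul, M.cw_co, map_smul, M.ann_co, smul_comm,
    inner_sub_right, inner_smul_right]
  congr 1
  ring

theorem mval_vac (f : H) : M.ann f M.vac = 0 := by
  simp [vac, M.ann_co]

theorem mval_sa (U : K ≃ₗᵢ[ℂ] K) (x y : K) :
    ⟪U.symm (M.mat Zm (U x)), y⟫_ℂ = ⟪x, U.symm (M.mat Zm (U y))⟫_ℂ := by
  rw [← U.inner_map_map, U.apply_symm_apply, M.inner_mat, Zm_star, ← U.inner_map_map x,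
    U.apply_symm_apply]

theorem mval_ind (w : K) (L : List Gate) : ∀ (U : K ≃ₗᵢ[ℂ] K) (δ : K → K),
    (∀ x, M.ann (M.io w) (U x) = U (M.ann (M.io w) x + δ x)) → ∃ δ' : K → K,
      (∀ x, M.ann (M.io w) (M.run U L x) = M.run U L (M.ann (M.io w) x + δ' x)) ∧
      (⟪δ' M.vac, w⟫_ℂ - ⟪δ' w, M.vac⟫_ℂ).re = (⟪δ M.vac, w⟫_ℂ - ⟪δ w, M.vac⟫_ℂ).re -
        ((M.hist U L).map fun p => p.1 * (⟪p.2, w⟫_ℂ ^ 2).im).sum := by
  induction L with
  | nil => exact fun U δ h => ⟨δ, h, by simp [hist]⟩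
  | cons g L ih =>
    intro U δ h
    rw [M.run_cons]
    cases g with
    | b θ =>
      refine ih _ δ fun x => ?_
      change M.ann _ (M.bx θ (U x)) = M.bx θ (U _)
      rw [M.bx_eq, M.bx_eq, M.mval_mat, h]
    | r t =>
      refine ih _ δ fun x => ?_
      change M.ann _ (M.cw _ (U x)) = M.cw _ (U _)
      rw [M.mval_cw, h, inner_smul_right, ← inner_conj_symm, M.orth]
      simp
    | c γ =>
      obtain ⟨δ', h1, h2⟩ := ih (M.step U (.c γ)) (fun x => δ x -
          (Complex.I * (γ * ⟪w, M.zed U⟫_ℂ)) • U.symm (M.mat Zm (U x))) fun x => by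
        change M.ann _ (M.cw _ (U x)) = M.cw _ (U _)
        rw [M.mval_cw, h, inner_smul_right, M.io.inner_map_map, ← add_sub_assoc, map_sub U,
          map_smul, U.apply_symm_apply]
      refine ⟨δ', h1, h2.trans ?_⟩
      have e : ⟪U.symm (M.mat Zm (U w)), M.vac⟫_ℂ = ⟪w, M.zed U⟫_ℂ := M.mval_sa U w M.vac
      have e' : U.symm (M.mat Zm (U M.vac)) = M.zed U := rfl
      simp only [hist, List.map_cons, List.sum_cons, inner_sub_left, inner_smul_left, e, e']
      rw [← inner_conj_symm w (M.zed U)]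
      generalize ⟪M.zed U, w⟫_ℂ = p
      simp [pow_two]
      ring

theorem val_eq_sum (L : List Gate) : M.val L =
    -((M.hist (LinearIsometryEquiv.refl ℂ K) L).map fun p =>
      p.1 * (⟪p.2, M.zed (M.run (LinearIsometryEquiv.refl ℂ K) L)⟫_ℂ ^ 2).im).sum := by
  set U := M.run (LinearIsometryEquiv.refl ℂ K) L with hU
  obtain ⟨δ, h1, h2⟩ := M.mval_ind (M.zed U) L (LinearIsometryEquiv.refl ℂ K) (fun _ => 0)
    fun x => by simp
  rw [← hU] at h1
  have e : M.ann (M.io (M.zed U)) (M.zed U) = U.symm (M.mat Zm (U (δ M.vac))) - δ (M.zed U) := by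
    have h3 := h1 (M.zed U)
    have h4 : U (M.zed U) = M.mat Zm (U M.vac) := U.apply_symm_apply _
    rw [h4, M.mval_mat, h1, M.mval_vac, zero_add] at h3
    rw [h3, U.symm_apply_apply, add_sub_cancel_right]
  change (⟪M.ann (M.io (M.zed U)) (M.zed U), M.vac⟫_ℂ).re = _
  rw [e, inner_sub_left, mval_sa]
  change (⟪δ M.vac, M.zed U⟫_ℂ - _).re = _
  simpa using h2

end Mdl

end Vale.Agent.P367S
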