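import Vale.Agent.P367S.SB0

/-! The gates `c` and `b`. Hints: `inv_c`: `W β = V β = cw (γ • io (zed (U β)))`, exact on seeds with
`h' = h - (sg σ * γ) • f`. `inv_b`: `W β = bx (θ / 2) ∘ cw (α • f) ∘ bx (θ / 2)`, where `f` is the mode
after the first `bx (θ / 2)` and `α = π / (4 im ⟪f, h⟫)` for `β ≠ 0`, `α = 0` for `β = 0`;
`β im ⟪f, h⟫` tends to `-im ⟪z, x₀⟫ ≠ 0` (`zed_bx`, `Pres.conj`, `TC.tendsto`, `disp`), so `α = O(β)`;
`V β = bx θ`; on seeds `seed_cw` and `bM_Z_bM`: `W (sd σ h a) ≈ (I * sg σ) • sd σ h a`. -/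

open scoped InnerProductSpace Topology Matrix
open Filter Asymptotics

noncomputable section

namespace Vale.Agent.P367S

namespace Mdl

variable {H K : Type} [NormedAddCommGroup H] [InnerProductSpace ℂ H]
  [SeminormedAddCommGroup K] [InnerProductSpace ℂ K] {M : Mdl H K}

variable {τ : ℝ} {T : Set (ℝ → K)} (hT : M.TC Ac (Nc K) (M.dm τ) T) {U₀ : K ≃ₗᵢ[ℂ] K} {x₀ : K}

include hT

omit hT in
theorem SB_im_left (r : ℝ) (a b : H) : (⟪(r : ℂ) • a, b⟫_ℂ).im = r * (⟪a, b⟫_ℂ).im := by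
  rw [inner_smul_left, Complex.conj_ofReal, Complex.im_ofReal_mul]

omit hT in
theorem SB_sg (σ a : Bool) : sg σ * sg a = sg (σ == a) := by
  cases σ <;> cases a <;> simp [sg]

theorem inv_b (h : M.Inv τ T U₀ x₀) {θ : ℝ}
    (hr : (⟪M.zed (M.step U₀ (.b (θ / 2))), x₀⟫_ℂ).im ≠ 0) : M.Inv τ T (M.step U₀ (.b θ)) x₀ := by
  obtain ⟨U, x, σ, h, ω, G, μ, hD, rfl, rfl⟩ := h
  obtain ⟨z, hz⟩ : ∃ z : ℝ → K, ∀ β, z β = M.zed ((U β).trans (M.bx (θ / 2))) := ⟨_, fun _ => rfl⟩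
  have hzT : z ∈ T := by
    have h1 := hT.add _ (hT.smul _ (sstep0_const (Real.cos (2 * (θ / 2)) : ℂ)) _ (Pres.zed hT hD.pres))
      _ (hT.smul _ (sstep0_const (Real.sin (2 * (θ / 2)) : ℂ)) _ (Pres.conj hT hD.pres Ym))
    have h2 : z = fun β => (Real.cos (2 * (θ / 2)) : ℂ) • M.zed (U β) +
        (Real.sin (2 * (θ / 2)) : ℂ) • (U β).symm (M.mat Ym (U β M.vac)) :=
      funext fun β => by rw [hz, M.zed_bx]
    rw [h2]
    exact h1
  have hz1 : ∀ β, ‖M.io (z β)‖ = 1 := fun β => by rw [LinearIsometry.norm_map, hz, M.norm_zed]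
  have hr' : -(⟪z 0, x 0⟫_ℂ).im ≠ 0 := by
    rw [hz]
    exact neg_ne_zero.2 hr
  have hpos : ∀ᶠ β in l0, 0 < β := self_mem_nhdsWithin
  have hm : Tendsto (fun β => β * (⟪M.io (z β), h β⟫_ℂ).im) l0 (𝓝 (-(⟪z 0, x 0⟫_ℂ).im)) := by
    have h1 : Sm fun β => ⟪M.io (z β), (β : ℂ) • h β + M.io (x β)⟫_ℂ := by
      refine IsBigO.trans_isLittleO (IsBigO.of_bound 1 (Eventually.of_forall fun β => ?_)) hD.disp
      have h2 := norm_inner_le_norm (𝕜 := ℂ) (M.io (z β)) ((β : ℂ) • h β + M.io (x β))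
      rwa [hz1] at h2
    have h2 := (Complex.continuous_im.tendsto _).comp
      (((isLittleO_one_iff ℝ).1 h1).sub (hT.tendsto hzT hD.mem))
    rw [zero_sub, Complex.neg_im] at h2
    refine h2.congr fun β => ?_
    rw [Function.comp_apply, inner_add_right, LinearIsometry.inner_map_map, add_sub_cancel_right,
      inner_smul_right, Complex.im_ofReal_mul]
  obtain ⟨α, hα0, hα⟩ : ∃ α : ℝ → ℝ, α 0 = 0 ∧
      ∀ β, 0 < β → α β = Real.pi / (4 * (⟪M.io (z β), h β⟫_ℂ).im) :=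
    ⟨fun β => if β = 0 then 0 else Real.pi / (4 * (⟪M.io (z β), h β⟫_ℂ).im), if_pos rfl,
      fun β hβ => if_neg hβ.ne'⟩
  have ha : Tendsto α l0 (𝓝 0) := by
    have h1 : Tendsto (fun β : ℝ => β) l0 (𝓝 0) := tendsto_id.mono_left nhdsWithin_le_nhds
    have h2 := h1.mul ((tendsto_const_nhds (x := Real.pi)).div (hm.const_mul 4)
      (mul_ne_zero four_ne_zero hr'))
    rw [zero_mul] at h2
    refine h2.congr' ?_
    filter_upwards [hpos] with β hβ
    rw [hα β hβ, Pi.div_apply]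
    field_simp
  obtain ⟨u, hu⟩ : ∃ u : ℝ → H, ∀ β, u β = (α β : ℂ) • M.io (z β) := ⟨_, fun _ => rfl⟩
  have hus : Sm u := by
    refine IsBigO.trans_isLittleO (IsBigO.of_bound 1 (Eventually.of_forall fun β => ?_))
      ((isLittleO_one_iff ℝ).2 ha)
    rw [hu, norm_smul, hz1, Complex.norm_real, mul_one, one_mul]
  have huh : Tendsto (fun β => (⟪u β, h β⟫_ℂ).im) l0 (𝓝 (Real.pi / 4)) := by
    refine tendsto_const_nhds.congr' ?_
    filter_upwards [hm.eventually_ne hr', hpos] with β hβ hβ'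
    have h1 := right_ne_zero_of_mul hβ
    rw [hu, SB_im_left, hα β hβ']
    field_simp
  obtain ⟨W, hW⟩ : ∃ W : ℝ → K ≃ₗᵢ[ℂ] K,
      W = fun β => ((M.bx (θ / 2)).trans (M.cw (u β))).trans (M.bx (θ / 2)) := ⟨_, rfl⟩
  have hW0 : W 0 = M.bx θ := by
    refine LinearIsometryEquiv.ext fun y => ?_
    rw [hW]
    simp only [LinearIsometryEquiv.trans_apply, hu, hα0, Complex.ofReal_zero, zero_smul, M.cw_zero,
      M.bx_bx, add_halves]
  have hP : Pres T (fun β => (fun _ => (1 : ℂ)) β * ω β) fun β => (U β).trans (W β) := by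
    refine Pres.step hT (V := fun _ => M.bx θ) hD.pres (fun y hy => hT.bx θ hy) (fun y hy => ?_)
      (fun _ => norm_one) rfl hW0 (fun G hG => ?_)
    · simp only [bx_symm]
      exact hT.bx (-θ) hy
    · have h1 := sstep_iso (fun _ => M.bx (θ / 2)) (Gd.cw_sm (Fm.bx hG fun _ => θ / 2) hus)
      refine h1.congr_left fun β => ?_
      rw [hW]
      simp only [LinearIsometryEquiv.trans_apply, one_smul, map_sub, M.bx_bx, add_halves]
  obtain ⟨G', μ', hD'⟩ := hD.step (W := W) (x' := x) (h' := h)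
    (fun β _ => ⟨[.b (θ / 2), .c (α β), .b (θ / 2)], by simp [Gate.Plain], by
      rw [hW]
      simp only [hu, hz]
      rfl⟩) hP
    (fun G hG => ⟨fun β => W β (G β), by
      rw [hW]
      exact Fm.bx (Gd.cw (Fm.bx hG fun _ => θ / 2) hus.isBigO) fun _ => θ / 2, by
      simp only [sub_self]
      exact isLittleO_zero _ _⟩) false
    (ν := fun a _ => Complex.I * sg (σ == a) * sg a)
    (fun a => isBigO_const_const _ one_ne_zero _)
    (fun a => by
      have key := SFl0_trans (SFl0_trans (SFl0_bx (M := M) _ (θ / 2)) (SFl0_cw hus huh (σ == a)))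
        (SFl0_bx _ (θ / 2)) a
      rw [smul_mul_assoc, mul_smul_comm, ← mul_assoc, bM_Z_bM] at key
      simp only [M.mat_smul, M.Z_co, smul_smul] at key
      simp only [Bool.xor_false, sd, SB_sg, hW]
      exact key) hD.mem hD.disp
  exact ⟨_, x, _, _, _, G', μ', hD', by rw [hW0]; rfl, rfl⟩

end Mdl

end Vale.Agent.P367S
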