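import Vale.Agent.P367S.SGen0

/-! Admissible circuits are dense. Hints: take `T` from `cls_a.exists_TC`. For `s : ℝ` and a small
`θ₀ > 0` replace each gate `g` by the two gates `b ((1 - s) * θ₀)`, `g s`, where `b θ ↦ b (s * θ)`,
`c γ ↦ c (s * γ)`, `r t ↦ r (s * (t + 1 - s))`, and start with `r (1 - s)`; at `s = 1` the run is that
of `L`. Induction on `L` for a family `U s` which preserves `T` together with its inverse,
`x ∈ T`, `U 0 = step (step refl (r 1)) (b Θ)`, `x 0 = zed refl`, `0 ≤ Θ`,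
`Θ + L.length * θ₀ < π / 2`: eventually in `𝓝[≠] 1` the list is admissible, and the energy is
analytic. Each condition is an analytic function which is not zero at `s = 0` (`im_base`), so not zero
near `1` (`an_ne`). -/

open scoped InnerProductSpace Topology Matrix
open Filter Asymptotics

noncomputable section

namespace Vale.Agent.P367S

namespace Mdl

variable {H K : Type} [NormedAddCommGroup H] [InnerProductSpace ℂ H]
  [SeminormedAddCommGroup K] [InnerProductSpace ℂ K] (M : Mdl H K)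

/-- deformation of one gate -/
def SGenG (s : ℝ) : Gate → Gate
  | .b θ => .b (s * θ)
  | .c γ => .c (s * γ)
  | .r t => .r (s * (t + 1 - s))

/-- deformation of a circuit -/
def SGenL (θ₀ s : ℝ) : List Gate → List Gate
  | [] => []
  | g :: L => .b ((1 - s) * θ₀) :: SGenG s g :: SGenL θ₀ s L

theorem SGen_one (θ₀ : ℝ) (L : List Gate) : ∀ U, M.run U (SGenL θ₀ 1 L) = M.run U L := by
  induction L with
  | nil => exact fun _ => rfl
  | cons g L ih =>
    intro U
    have e : SGenG 1 g = g := by cases g <;> simp [SGenG]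
    rw [SGenL, run_cons, run_cons, run_cons, sub_self, zero_mul, step_b_zero, e, ih]

theorem SGen_re {a : ℝ → ℝ} (ha : ∀ s, AnalyticAt ℝ a s) : (fun s => (a s : ℂ)) ∈ Aa := fun s =>
  (Complex.ofRealCLM.analyticAt _).comp (ha s)

theorem SGen_ne (a : ℝ) : ∀ᶠ s in 𝓝[≠] (1 : ℝ), s ≠ a := by
  by_cases h : a = 1
  · subst h
    exact self_mem_nhdsWithin
  · exact (eventually_ne_nhds (Ne.symm h)).filter_mono nhdsWithin_le_nhds

/-- the family and its inverse preserve `T` -/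
def SGenP (T : Set (ℝ → K)) (U : ℝ → K ≃ₗᵢ[ℂ] K) : Prop :=
  (∀ y ∈ T, (fun s => U s (y s)) ∈ T) ∧ ∀ y ∈ T, (fun s => (U s).symm (y s)) ∈ T

section

variable {M} {T : Set (ℝ → K)} (hT : M.TC Aa {fun _ => 0} (fun _ => M.e) T)
  {U : ℝ → K ≃ₗᵢ[ℂ] K} {a : ℝ → ℝ} {x y : ℝ → K}

include hT

theorem SGen_bx (ha : ∀ s, AnalyticAt ℝ a s) (hy : y ∈ T) : (fun s => M.bx (a s) (y s)) ∈ T := by
  have h1 := SGen_re (a := fun s => Real.cos (a s)) fun s => Real.analyticAt_cos.comp (ha s)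
  have h2 := SGen_re (a := fun s => Real.sin (a s)) fun s => Real.analyticAt_sin.comp (ha s)
  refine STc_eq (hT.add _ (hT.smul _ h1 _ hy) _ (hT.smul _
    (M.cls_a.mul _ (M.cls_a.const (-Complex.I)) _ h2) _ (hT.mat Xm _ hy))) fun s => ?_
  rw [M.bx_eq, bM, mat_sub, mat_smul, mat_smul, mat_one, neg_mul, neg_smul, sub_eq_add_neg]

theorem SGen_cw (ha : ∀ s, AnalyticAt ℝ a s) (hx : x ∈ T) (hy : y ∈ T) :
    (fun s => M.cw ((a s : ℂ) • M.io (x s)) (y s)) ∈ T :=
  STc_eq (hT.cw _ (hT.smul _ (SGen_re ha) _ hx) _ (M.cls_a.const 0) _ hy) fun s => by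
    rw [zero_smul, add_zero, map_smul]

theorem SGen_ce (ha : ∀ s, AnalyticAt ℝ a s) (hy : y ∈ T) :
    (fun s => M.cw ((a s : ℂ) • M.e) (y s)) ∈ T :=
  STc_eq (hT.cw _ (hT.smul _ (M.cls_a.const 0) _ hT.vac) _ (SGen_re ha) _ hy) fun s => by
    rw [zero_smul, map_zero, zero_add]

theorem SGen_zed (hU : SGenP T U) : (fun s => M.zed (U s)) ∈ T :=
  hU.2 _ (hT.mat Zm _ (hU.1 _ hT.vac))

theorem SGen_b (hU : SGenP T U) (ha : ∀ s, AnalyticAt ℝ a s) :
    SGenP T fun s => M.step (U s) (.b (a s)) :=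
  ⟨fun y hy => SGen_bx hT ha (hU.1 y hy), fun y hy =>
    STc_eq (hU.2 _ (SGen_bx hT (a := fun s => -a s) (fun s => (ha s).neg) hy)) fun s => by
      rw [← bx_symm]
      rfl⟩

theorem SGen_c (hU : SGenP T U) (ha : ∀ s, AnalyticAt ℝ a s) :
    SGenP T fun s => M.step (U s) (.c (a s)) :=
  ⟨fun y hy => SGen_cw hT ha (SGen_zed hT hU) (hU.1 y hy), fun y hy =>
    STc_eq (hU.2 _ (SGen_cw hT (a := fun s => -a s) (fun s => (ha s).neg) (SGen_zed hT hU) hy))
      fun s => by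
        rw [Complex.ofReal_neg, neg_smul, ← cw_symm]
        rfl⟩

theorem SGen_r (hU : SGenP T U) (ha : ∀ s, AnalyticAt ℝ a s) :
    SGenP T fun s => M.step (U s) (.r (a s)) :=
  ⟨fun y hy => SGen_ce hT ha (hU.1 y hy), fun y hy =>
    STc_eq (hU.2 _ (SGen_ce hT (a := fun s => -a s) (fun s => (ha s).neg) hy)) fun s => by
      rw [Complex.ofReal_neg, neg_smul, ← cw_symm]
      rfl⟩

theorem SGen_key (hU : SGenP T U) (hx : x ∈ T) {Θ : ℝ}
    (h0 : U 0 = M.step (M.step (LinearIsometryEquiv.refl ℂ K) (.r 1)) (.b Θ))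
    (hx0 : x 0 = M.zed (LinearIsometryEquiv.refl ℂ K)) (h1 : 0 < Θ) (h2 : Θ < Real.pi / 2) :
    ∀ᶠ s in 𝓝[≠] (1 : ℝ), (⟪M.zed (U s), x s⟫_ℂ).im ≠ 0 := by
  refine an_ne (hT.inner _ (SGen_zed hT hU) _ hx) ?_
  rw [h0, hx0, im_base]
  exact (mul_pos (Real.sin_pos_of_pos_of_lt_pi (by linarith) (by linarith)) (Real.exp_pos _)).ne'

theorem SGen_main {θ₀ : ℝ} (hθ : 0 < θ₀) (L : List Gate) : ∀ (U : ℝ → K ≃ₗᵢ[ℂ] K) (x : ℝ → K)
    (Θ : ℝ), SGenP T U → x ∈ T →
    U 0 = M.step (M.step (LinearIsometryEquiv.refl ℂ K) (.r 1)) (.b Θ) →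
    x 0 = M.zed (LinearIsometryEquiv.refl ℂ K) → 0 ≤ Θ → Θ + L.length * θ₀ < Real.pi / 2 →
    (∀ᶠ s in 𝓝[≠] (1 : ℝ), M.Adm (U s) (x s) (SGenL θ₀ s L)) ∧
      SGenP T fun s => M.run (U s) (SGenL θ₀ s L) := by
  induction L with
  | nil => exact fun U x Θ hU _ _ _ _ _ => ⟨Eventually.of_forall fun _ => trivial, hU⟩
  | cons g L ih =>
    intro U x Θ hU hx h0 hx0 h1 h2
    rw [List.length_cons, Nat.cast_succ, add_mul, one_mul] at h2
    have h3 : 0 ≤ L.length * θ₀ := by positivity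
    have c1 := SGen_key hT (SGen_b hT hU (a := fun s => (1 - s) * θ₀ / 2) fun s => by fun_prop) hx
      (Θ := Θ + θ₀ / 2) (by rw [h0, step_b_b, sub_zero, one_mul]) hx0 (by linarith) (by linarith)
    have hU' := SGen_b hT hU (a := fun s => (1 - s) * θ₀) fun s => by fun_prop
    have h0' : M.step (U 0) (.b ((1 - 0) * θ₀)) =
        M.step (M.step (LinearIsometryEquiv.refl ℂ K) (.r 1)) (.b (Θ + θ₀)) := by
      rw [h0, step_b_b, sub_zero, one_mul]
    cases g with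
    | b θ =>
      have c2 := SGen_key hT (SGen_b hT hU' (a := fun s => s * θ / 2) fun s => by fun_prop) hx
        (Θ := Θ + θ₀) (by rw [zero_mul, zero_div, step_b_zero, h0']) hx0 (by linarith) (by linarith)
      obtain ⟨c3, c4⟩ := ih _ x (Θ + θ₀) (SGen_b hT hU' (a := fun s => s * θ) fun s => by fun_prop)
        hx (by rw [zero_mul, step_b_zero, h0']) hx0 (by linarith) (by linarith)
      refine ⟨?_, c4⟩
      filter_upwards [c1, c2, c3] with s s1 s2 s3
      exact ⟨s1, s2, s3⟩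
    | c γ =>
      obtain ⟨c3, c4⟩ := ih _ x (Θ + θ₀) (SGen_c hT hU' (a := fun s => s * γ) fun s => by fun_prop)
        hx (by rw [zero_mul, step_c_zero, h0']) hx0 (by linarith) (by linarith)
      refine ⟨?_, c4⟩
      filter_upwards [c1, c3] with s s1 s3
      exact ⟨s1, s3⟩
    | r t =>
      have ha : ∀ s, AnalyticAt ℝ (fun s : ℝ => s * (t + 1 - s)) s := fun s => by fun_prop
      have c2 := SGen_key hT hU' hx h0' hx0 (by linarith) (by linarith)
      obtain ⟨c3, c4⟩ := ih _ _ (Θ + θ₀) (SGen_r hT hU' ha)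
        (hT.add _ hx _ (hT.smul _ (SGen_re ha) _ (SGen_zed hT hU')))
        (by rw [zero_mul, step_r_zero, h0'])
        (by rw [zero_mul, Complex.ofReal_zero, zero_smul, add_zero, hx0]) (by linarith) (by linarith)
      refine ⟨?_, c4⟩
      filter_upwards [c1, c2, c3, SGen_ne 0, SGen_ne (t + 1)] with s s1 s2 s3 s4 s5
      exact ⟨s1, mul_ne_zero s4 (sub_ne_zero.2 s5.symm), s2, s3⟩

end

theorem gen (L : List Gate) {ε : ℝ} (hε : 0 < ε) : ∃ (τ : ℝ) (L' : List Gate), τ ≠ 0 ∧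
    M.Adm (M.step (LinearIsometryEquiv.refl ℂ K) (.r τ))
      ((τ : ℂ) • M.zed (LinearIsometryEquiv.refl ℂ K)) L' ∧ |M.val (.r τ :: L') - M.val L| < ε := by
  obtain ⟨T, hT⟩ := M.cls_a.exists_TC
  have ha : ∀ s, AnalyticAt ℝ (fun s : ℝ => 1 - s) s := fun s => by fun_prop
  have h0 : SGenP T fun _ => LinearIsometryEquiv.refl ℂ K := ⟨fun _ h => h, fun _ h => h⟩
  have hθ : (0 : ℝ) < 1 / (L.length + 1) := by positivity
  obtain ⟨h1, h2⟩ := SGen_main hT hθ L _ _ 0 (SGen_r hT h0 ha)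
    (hT.smul _ (SGen_re ha) _ (SGen_zed hT h0)) (by rw [step_b_zero, sub_zero])
    (by rw [sub_zero, Complex.ofReal_one, one_smul]) le_rfl (by
      have h3 : (L.length : ℝ) * (1 / (L.length + 1)) < 1 := by
        rw [mul_one_div, div_lt_one (by positivity)]
        linarith
      linarith [Real.pi_gt_three])
  have h3 : ContinuousAt (fun s => M.val (.r (1 - s) :: SGenL (1 / (L.length + 1)) s L)) 1 :=
    Complex.continuous_re.continuousAt.comp
      (hT.ann _ (SGen_zed hT h2) _ (SGen_zed hT h2) 1).continuousAt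
  have h4 : M.val (.r (1 - 1) :: SGenL (1 / (L.length + 1)) 1 L) = M.val L := by
    rw [val, val, run_cons, sub_self, step_r_zero, SGen_one]
  have h5 := Metric.tendsto_nhds.1 h3.tendsto ε hε
  rw [h4] at h5
  obtain ⟨s, s1, s2, s3⟩ := (h1.and ((h5.filter_mono nhdsWithin_le_nhds).and (SGen_ne 1))).exists
  exact ⟨1 - s, _, sub_ne_zero.2 s3.symm, s1, s2⟩

end Mdl

end Vale.Agent.P367S
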