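import Vale.Agent.P367S.SR3a

/-! The echo. Hints: `mode_change`: `z - z₄ = U⁻¹ c⁻¹ (Z - F⁻¹ Z F) c ψ` with `F = efl`; on `c G` this is
`o(β)` (`fl_good` for `c G` and `Z c G`, `cw_Z`), on the seeds `c (sd σ h a) = phase • co a (s • hin)`
and `F Z = -Z F` up to `o(1)` (`fl_seed`); use `hD.dec`, `hD.mode`. `inv_r`: `k = ek t σ`,
`W β = eW` for `β ≠ 0`, `W 0 = cw (t • e)`, `V β = cw (t • dm τ β)`. On a good `G`:
`W G = cw (-k f₄) (cw u₂ (cw (k f) G)) + o(β) = phase β • cw (k • (f - f₄) + u₂) G + o(β)`, the phase does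
not depend on `G`, and `k • (f - f₄) + u₂ - t • dm → 0`. Seeds: `fl = true`,
`h' = hin - (sg σ * k) • f₄`, `x' = x + t • z`. `Pres.step`, `Dat.step`, `echo_run`. -/

open scoped InnerProductSpace Topology Matrix
open Filter Asymptotics

noncomputable section

namespace Vale.Agent.P367S

namespace Mdl

variable {H K : Type} [NormedAddCommGroup H] [InnerProductSpace ℂ H]
  [SeminormedAddCommGroup K] [InnerProductSpace ℂ K] {M : Mdl H K}

variable {τ : ℝ} {T : Set (ℝ → K)} {U : ℝ → K ≃ₗᵢ[ℂ] K} {x G : ℝ → K} {σ : Bool} {h : ℝ → H}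
  {ω : ℝ → ℂ} {μ : Bool → ℝ → ℂ} {k : ℝ → ℝ}

theorem sr3_bd {E : Type} [SeminormedAddCommGroup E] {f : ℝ → E} (C : ℝ) (hf : ∀ β, ‖f β‖ ≤ C) :
    Bd f :=
  IsBigO.of_bound C (Eventually.of_forall fun β => by simpa using hf β)

theorem sr3_id : (fun β : ℝ => β) =o[l0] fun _ => (1 : ℝ) :=
  (isLittleO_one_iff ℝ).2 (tendsto_id.mono_left nhdsWithin_le_nhds)

theorem sr3_ne : ∀ᶠ β in l0, β ≠ 0 :=
  eventually_mem_nhdsWithin.mono fun _ h => ne_of_gt h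

theorem sr3_norm {E E' : Type} [SeminormedAddCommGroup E] [SeminormedAddCommGroup E'] {f : ℝ → E}
    {f' : ℝ → E'} {g : ℝ → ℝ} (h : f =o[l0] g) (e : ∀ᶠ β in l0, ‖f' β‖ = ‖f β‖) : f' =o[l0] g :=
  (IsBigO.of_bound' (e.mono fun _ e => e.le)).trans_isLittleO h

theorem sr3_exp (r : ℝ) : ‖Complex.exp (-(Complex.I * r))‖ = 1 := by
  rw [Complex.exp_neg, norm_inv, Complex.norm_exp_I_mul_ofReal, inv_one]

theorem sr3_sg (σ a : Bool) : sg (σ == a) = sg σ * sg a := by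
  cases σ <;> cases a <;> simp [sg]

theorem sr3_k (t : ℝ) (σ : Bool) {β : ℝ} (h : β ≠ 0) : β * (sg σ * ek t σ β) = t / 2 := by
  rw [ek, mul_div_assoc', mul_left_comm (sg σ), sg_sq]
  field_simp

/-- the total displacement of the echo -/
def sr3P (M : Mdl H K) (U : K ≃ₗᵢ[ℂ] K) (h : H) (σ : Bool) (k : ℝ) : H :=
  ((-k : ℝ) : ℂ) • M.io (M.ez4 U h σ k) + (M.eu2 U h σ k + M.eg U k)

theorem sr3_good (h1 : M.E1 U h σ k) (h2 : M.E2 U h σ k) (h3 : M.E3 U h σ k) :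
    ∃ φ : ℝ → ℂ, (∀ β, ‖φ β‖ = 1) ∧ ∀ G, M.Gd G → Sm1 fun β => M.eW (U β) (h β) σ (k β) (G β) -
      φ β • M.cw (M.sr3P (U β) (h β) σ (k β)) (G β) := by
  refine ⟨fun β => Complex.exp (-(Complex.I *
      ((⟪M.eu2 (U β) (h β) σ (k β), M.eg (U β) (k β)⟫_ℂ).im : ℝ))) * Complex.exp (-(Complex.I *
      ((⟪((-k β : ℝ) : ℂ) • M.io (M.ez4 (U β) (h β) σ (k β)),
        M.eu2 (U β) (h β) σ (k β) + M.eg (U β) (k β)⟫_ℂ).im : ℝ))),
    fun β => by rw [norm_mul, sr3_exp, sr3_exp, one_mul], fun G hG => ?_⟩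
  refine sr3_norm (fl_good (hG.gk fun β => M.eg (U β) (k β)) h1.u1 h2.u2 h3.u3 h1.g1 h2.g2 h3.u13
    h3.g13) (Eventually.of_forall fun β => ?_)
  refine Eq.trans ?_ ((M.cw (((-k β : ℝ) : ℂ) • M.io (M.ez4 (U β) (h β) σ (k β)))).norm_map _)
  rw [map_sub, M.cw_cw (M.eu2 _ _ _ _), map_smul, M.cw_cw, smul_smul]
  rfl

theorem sr3_disp {t : ℝ} (h2 : M.E2 U h σ (ek t σ))
    (hm : Sm1 fun β => M.zed (U β) - M.ez4 (U β) (h β) σ (ek t σ β) -
      ((2 * β * sg σ : ℝ) : ℂ) • M.y0 τ β) :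
    Sm fun β => M.sr3P (U β) (h β) σ (ek t σ β) - (t : ℂ) • M.dm τ β := by
  have a1 : (fun β : ℝ => ek t σ β) =O[l0] fun β => β⁻¹ :=
    (isBigO_const_mul_self (t * sg σ / 2) _ _).congr_left fun β => by
      rw [ek, ← div_div, div_eq_mul_inv _ β]
  have a2 := (a1.mul_isLittleO hm.norm_left).congr' EventuallyEq.rfl
    (sr3_ne.mono fun β hβ => inv_mul_cancel₀ hβ)
  have a3 : Sm fun β => (ek t σ β : ℂ) • M.io (M.zed (U β) - M.ez4 (U β) (h β) σ (ek t σ β) -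
      ((2 * β * sg σ : ℝ) : ℂ) • M.y0 τ β) :=
    sr3_norm a2 (Eventually.of_forall fun β => by
      rw [norm_smul, M.io.norm_map, norm_mul, norm_norm, Complex.norm_real])
  refine (a3.add (h2.u2.trans_isLittleO sr3_id)).congr' (sr3_ne.mono fun β hβ => ?_)
    EventuallyEq.rfl
  have e : (ek t σ β : ℂ) * ((2 * β * sg σ : ℝ) : ℂ) = t := by
    rw [← Complex.ofReal_mul]
    congr 1
    linarith [sr3_k t σ hβ]
  simp only [sr3P, eg, dm, if_neg hβ, map_sub, map_smul, smul_sub, smul_smul, e,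
    Complex.ofReal_neg, neg_smul]
  abel

theorem sr3_seed (h1 : M.E1 U h σ k) (h2 : M.E2 U h σ k) (h3 : M.E3 U h σ k) (a : Bool) :
    ∃ ν : ℝ → ℂ, Bd ν ∧ Sm fun β => M.eW (U β) (h β) σ (k β) (M.sd σ (h β) a) -
      ν β • M.sd (σ ^^ true) (M.hin (U β) (h β) σ (k β) -
        ((sg σ * k β : ℝ) : ℂ) • M.io (M.ez4 (U β) (h β) σ (k β))) (a ^^ true) := by
  have s1 : (sg σ : ℂ) * sg σ = 1 := by rw [← Complex.ofReal_mul, sg_sq, Complex.ofReal_one]
  have e1 : ∀ β, ∃ c : ℂ, ‖c‖ = 1 ∧ M.cw (M.eg (U β) (k β)) (M.sd σ (h β) a) =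
      c • M.co a ((sg (σ == a) : ℂ) • M.hin (U β) (h β) σ (k β)) := fun β => by
    refine ⟨_, Complex.norm_exp_I_mul_ofReal _,
      (M.cw_co _ _ _).trans (congrArg _ (congrArg _ ?_))⟩
    rw [hin, sr3_sg, smul_sub, smul_smul, Complex.ofReal_mul, mul_right_comm, s1, one_mul]
  have e2 : ∀ β, ∃ c : ℂ, ‖c‖ = 1 ∧ M.cw (((-k β : ℝ) : ℂ) • M.io (M.ez4 (U β) (h β) σ (k β)))
      (M.co (!a) ((sg (σ == a) : ℂ) • M.hin (U β) (h β) σ (k β))) =
      c • M.sd (σ ^^ true) (M.hin (U β) (h β) σ (k β) -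
        ((sg σ * k β : ℝ) : ℂ) • M.io (M.ez4 (U β) (h β) σ (k β))) (a ^^ true) := fun β => by
    refine ⟨_, Complex.norm_exp_I_mul_ofReal _, (M.cw_co _ _ _).trans (congrArg _ ?_)⟩
    rw [sd, Bool.xor_true, Bool.xor_true, sg_not, sg_not, neg_mul_neg, sr3_sg, smul_sub, smul_smul,
      smul_smul]
    congr 3
    push_cast
    linear_combination (-(sg a : ℂ) * k β) * s1
  choose c hc e1 using e1
  choose c' hc' e2 using e2
  have s2 : ‖((sg (σ == a) * sg a : ℝ) : ℂ)‖ = 1 := by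
    rw [Complex.norm_real, Real.norm_eq_abs, abs_mul, abs_sg, abs_sg, one_mul]
  refine ⟨fun β => -(c β * (((sg (σ == a) * sg a : ℝ) : ℂ) * c' β)), sr3_bd 1 fun β => ?_,
    sr3_norm (fl_seed (M := M) (h1.u1.trans_isLittleO sr3_id) (h2.u2.trans_isLittleO sr3_id)
      (h3.u3.trans_isLittleO sr3_id) h1.s1 h2.s2 h3.s3 (σ == a) a)
      (Eventually.of_forall fun β => ?_)⟩
  · rw [norm_neg, norm_mul, norm_mul, hc, hc', s2, one_mul, one_mul]
  · refine Eq.trans ?_ ((M.cw (((-k β : ℝ) : ℂ) • M.io (M.ez4 (U β) (h β) σ (k β)))).norm_map _)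
    rw [map_add, map_smul, e2, ← one_mul (‖_ + _‖), ← hc β, ← norm_smul, smul_add, neg_smul,
      sub_neg_eq_add, smul_smul, smul_smul, mul_assoc, ← map_smul (M.cw _) (c β),
      ← map_smul (M.fl _ _ _) (c β), ← e1]
    rfl

theorem inv_r (hT : M.TC Ac (Nc K) (M.dm τ) T) {U₀ : K ≃ₗᵢ[ℂ] K} {x₀ : K} (h : M.Inv τ T U₀ x₀) {t : ℝ}
    (ht : t ≠ 0) (hr : (⟪M.zed U₀, x₀⟫_ℂ).im ≠ 0) :
    M.Inv τ T (M.step U₀ (.r t)) (x₀ + (t : ℂ) • M.zed U₀) := by
  classical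
  obtain ⟨U, x, σ, h, ω, G, μ, hD, rfl, rfl⟩ := h
  have h1 := hD.e1 hT ht hr
  have h2 := hD.e2 h1
  have h3 := hD.e3 h1 h2
  have hm := hD.mode_change h1 h2 h3
  obtain ⟨φ, hφ, hg⟩ := sr3_good h1 h2 h3
  have hd := sr3_disp h2 hm
  choose ν hν hs using sr3_seed h1 h2 h3
  have b1 : Bd fun β => (t : ℂ) • M.dm τ β :=
    sr3_bd ‖(t : ℂ)‖ fun β => by rw [norm_smul, M.norm_dm, mul_one]
  have b2 : Bd fun β => M.sr3P (U β) (h β) σ (ek t σ β) :=
    (hd.isBigO.add b1).congr_left fun β => sub_add_cancel _ _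
  obtain ⟨W, hW0, hW⟩ : ∃ W : ℝ → K ≃ₗᵢ[ℂ] K, W 0 = M.cw ((t : ℂ) • M.e) ∧
      ∀ β, β ≠ 0 → W β = M.eW (U β) (h β) σ (ek t σ β) :=
    ⟨fun β => if β = 0 then M.cw ((t : ℂ) • M.e) else M.eW (U β) (h β) σ (ek t σ β), if_pos rfl,
      fun β hβ => if_neg hβ⟩
  have hP := Pres.step hT (W := W) (V := fun β => M.cw ((t : ℂ) • M.dm τ β))
    (ω' := fun β => if β = 0 then 1 else (φ β)⁻¹) hD.pres (fun y hy => hT.cw_d t hy)
    (fun y hy => by
      have := hT.cw_d (-t) hy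
      simpa only [M.cw_symm, Complex.ofReal_neg, neg_smul] using this)
    (fun β => by
      split_ifs
      · exact norm_one
      · rw [norm_inv, hφ, inv_one])
    (if_pos rfl) (by rw [hW0, dm, if_pos rfl]) fun G hG => by
      have a1 : Sm fun β => (φ β)⁻¹ • (M.eW (U β) (h β) σ (ek t σ β) (G β) -
          φ β • M.cw (M.sr3P (U β) (h β) σ (ek t σ β)) (G β)) :=
        sr3_norm ((hg G hG).trans sr3_id) (Eventually.of_forall fun β => by
          rw [norm_smul, norm_inv, hφ, inv_one, one_mul])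
      refine (a1.add (hG.cw_near b1 hd)).congr' (sr3_ne.mono fun β hβ => ?_) EventuallyEq.rfl
      have a2 : φ β ≠ 0 := norm_ne_zero_iff.1 (by rw [hφ]; exact one_ne_zero)
      simp only [if_neg hβ, hW β hβ, smul_sub, inv_smul_smul₀ a2, sub_add_sub_cancel]
  obtain ⟨G', μ', hD'⟩ := hD.step (W := W) (x' := fun β => x β + (t : ℂ) • M.zed (U β))
    (h' := fun β => M.hin (U β) (h β) σ (ek t σ β) -
      ((sg σ * ek t σ β : ℝ) : ℂ) • M.io (M.ez4 (U β) (h β) σ (ek t σ β)))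
    (fun β hβ => by
      rw [hW β hβ.ne']
      exact echo_run _ _ _ _) hP
    (fun G hG => ⟨_, (hG.cw b2).smul (sr3_bd 1 fun β => (hφ β).le),
      (hg G hG).congr' (sr3_ne.mono fun β hβ => by simp only [hW β hβ]) EventuallyEq.rfl⟩) true hν
    (fun a => (hs a).congr' (sr3_ne.mono fun β hβ => by simp only [hW β hβ]) EventuallyEq.rfl)
    (hT.add _ hD.mem _ (hT.smul (fun _ => (t : ℂ)) tendsto_const_nhds _ (Pres.zed hT hD.pres)))
    (by
      have a1 : Sm fun β => ((2 * β * sg σ : ℝ) : ℂ) • M.y0 τ β :=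
        sr3_norm (sr3_id.const_mul_left 2) (Eventually.of_forall fun β => by
          rw [norm_smul, M.norm_y0, Complex.norm_real, norm_mul, Real.norm_eq_abs (sg σ), abs_sg,
            mul_one, mul_one])
      have a2 : Sm fun β => M.io (M.zed (U β) - M.ez4 (U β) (h β) σ (ek t σ β)) :=
        sr3_norm ((hm.trans sr3_id).add a1) (Eventually.of_forall fun β => by
          rw [M.io.norm_map, sub_add_cancel])
      refine (hD.disp.add (a2.const_smul_left ((t : ℂ) / 2))).congr'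
        (sr3_ne.mono fun β hβ => ?_) EventuallyEq.rfl
      have e : (β : ℂ) * ((sg σ : ℂ) * ek t σ β) = t / 2 := by exact_mod_cast sr3_k t σ hβ
      simp only [Pi.smul_apply, hin, eg, map_sub, map_add, map_smul, smul_sub, smul_smul,
        Complex.ofReal_mul, e]
      module)
  exact ⟨_, _, _, _, _, G', μ', hD', by rw [hW0]; rfl, rfl⟩

end Mdl

end Vale.Agent.P367S
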