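import Vale.Agent.P367S.SCre
import Vale.Agent.P367S.SB
import Vale.Agent.P367S.SR3
import Vale.Agent.P367S.SGen

/-! Seeds simulate the random field gate. -/

open scoped InnerProductSpace Topology Matrix
open Filter Asymptotics

noncomputable section

namespace Vale.Agent.P367S

namespace Mdl

variable {H K : Type} [NormedAddCommGroup H] [InnerProductSpace ℂ H]
  [SeminormedAddCommGroup K] [InnerProductSpace ℂ K] (M : Mdl H K)

theorem inv_run {τ : ℝ} {T : Set (ℝ → K)} (hT : M.TC Ac (Nc K) (M.dm τ) T) (L : List Gate) :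
    ∀ (U : K ≃ₗᵢ[ℂ] K) (x : K), M.Inv τ T U x → M.Adm U x L → ∃ x', M.Inv τ T (M.run U L) x' := by
  induction L with
  | nil => exact fun U x h _ => ⟨x, h⟩
  | cons g L ih =>
    intro U x h hA
    rw [run_cons]
    cases g with
    | b θ => exact ih _ _ (inv_b hT h hA.1) hA.2
    | c γ => exact ih _ _ (inv_c hT h γ) hA
    | r t => exact ih _ _ (inv_r hT h hA.1 hA.2.1) hA.2.2

theorem seeds (L : List Gate) {ε : ℝ} (hε : 0 < ε) :
    ∃ L' : List Gate, (∀ g ∈ L', g.Plain) ∧ |M.val L' - M.val L| < ε := by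
  obtain ⟨τ, L₁, hτ, hA, h1⟩ := M.gen L (half_pos hε)
  obtain ⟨T, hT⟩ := (M.cls_c hτ).exists_TC
  obtain ⟨x', U, x, σ, h, ω, G, μ, hD, h2, -⟩ := M.inv_run hT L₁ _ _ (inv_zero hT hτ) hA
  have h3 := Pres.en hT hD.pres
  rw [h2] at h3
  obtain ⟨β, h4, h5⟩ := ((Metric.tendsto_nhds.1 h3 _ (half_pos hε)).and
    self_mem_nhdsWithin).exists
  obtain ⟨L', h6, h7⟩ := hD.plain β h5
  refine ⟨L', h6, ?_⟩
  rw [h7, Real.dist_eq] at h4
  have h8 : M.val (.r τ :: L₁) = M.en (M.run (M.step (LinearIsometryEquiv.refl ℂ K) (.r τ)) L₁) := by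
    rw [val, run_cons]
  rw [h8] at h1
  have h9 := abs_sub_le (M.val L') (M.en (M.run (M.step (LinearIsometryEquiv.refl ℂ K) (.r τ)) L₁))
    (M.val L)
  have h10 : M.val L' = M.en (M.run (LinearIsometryEquiv.refl ℂ K) L') := rfl
  rw [← h10] at h4
  linarith

end Mdl

end Vale.Agent.P367S
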