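import Vale.Agent.P367S.Br
import Vale.Agent.P367S.MVal
import Vale.Agent.P367S.MEx
import Vale.Agent.P367S.Seeds

/-! Part S: the values of circuits with random field gates are approximated by plain circuits. -/

open scoped InnerProductSpace Topology Matrix
open Filter MeasureTheory ProbabilityTheory Finset
open Vale.Agent.P367 (Lt Bf ampl vamp fw zw IsGram val3 RX RZ PZ PartS)

noncomputable section

namespace Vale.Agent.P367S

/-- the first layers -/
def lay (γ τ β : ℕ → ℝ) : ℕ → List Gate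
  | 0 => []
  | j + 1 => lay γ τ β j ++ [.c (γ j), .r (τ j), .b (β j)]

theorem lay_congr {γ τ β γ' β' : ℕ → ℝ} {p : ℕ} (h : ∀ j < p, γ j = γ' j ∧ β j = β' j) :
    lay γ τ β p = lay γ' τ β' p := by
  induction p with
  | zero => rfl
  | succ p ih =>
    simp only [lay]
    rw [ih fun j hj => h j (by omega), (h p (by omega)).1, (h p (by omega)).2]

namespace Mdl

variable {H K : Type} [NormedAddCommGroup H] [InnerProductSpace ℂ H]
  [SeminormedAddCommGroup K] [InnerProductSpace ℂ K] (M : Mdl H K) (γ τ β : ℕ → ℝ)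

/-- the unitary after `j` layers -/
def lU (j : ℕ) : K ≃ₗᵢ[ℂ] K := M.run (LinearIsometryEquiv.refl ℂ K) (lay γ τ β j)

/-- the vector of the mode after `j` layers -/
def lz (j : ℕ) : K := M.zed (M.lU γ τ β j)

theorem lU_succ (j : ℕ) : M.lU γ τ β (j + 1) =
    (((M.lU γ τ β j).trans (M.cw ((γ j : ℂ) • M.io (M.lz γ τ β j)))).trans
      (M.cw ((τ j : ℂ) • M.e))).trans (M.bx (β j)) := by
  rw [lU, lay, run_append]
  rfl

variable {M γ τ β} {N : ℕ} {w : ℝ → List Lt} {y : K}

theorem Rep.fw {j : ℕ} (hj : j ≤ N) : ∀ {w : ℝ → List Lt} {y : K}, M.Rep N (M.lz γ τ β) w y →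
    M.Rep N (M.lz γ τ β) (fun l => fw γ (fun i => RX (β i) * RZ (τ i * l)) j ++ w l)
      ((M.lU γ τ β j).symm y) := by
  induction j with
  | zero => exact fun h => h
  | succ j ih =>
    intro w y h
    have h1 := ih (by omega) ((h.ml (RX (β j)) 1 (τ j)).wl (j := j) (by omega) (γ j))
    simp only [Matrix.mul_one, Matrix.conjTranspose_one, M.mat_one] at h1
    have h2 : M.mat (RX (β j))ᴴ y = (M.bx (β j)).symm y := by
      rw [RX_eq, bM_star, M.bx_symm, M.bx_eq]
    rw [h2] at h1
    simp only [Vale.Agent.P367.fw, List.append_assoc, List.cons_append, List.nil_append, lU_succ]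
    exact h1

theorem Rep.bw {j : ℕ} (hj : j ≤ N) (h : M.Rep N (M.lz γ τ β) w y) :
    M.Rep N (M.lz γ τ β) (fun l => ((Vale.Agent.P367.fw γ (fun i => RX (β i) * RZ (τ i * l)) j).map
      Lt.inv).reverse ++ w l) (M.lU γ τ β j y) := by
  induction j with
  | zero => exact h
  | succ j ih =>
    have h1 := (((ih (by omega)).wl (j := j) (by omega) (-γ j))).ml 1 (RX (β j))ᴴ (-τ j)
    simp only [Matrix.one_mul, Matrix.conjTranspose_one, M.mat_one,
      Matrix.conjTranspose_conjTranspose, M.cw_symm, Complex.ofReal_neg, neg_smul, neg_neg,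
      neg_mul] at h1
    simp only [Vale.Agent.P367.fw, List.map_append, List.map_cons, List.map_nil, List.reverse_append,
      List.reverse_cons, List.reverse_nil, List.cons_append, List.nil_append,
      lU_succ, LinearIsometryEquiv.trans_apply, M.bx_eq, ← RX_eq, Lt.inv, Matrix.conjTranspose_mul,
      RZ_star]
    exact h1

theorem Rep.zw {j : ℕ} (hj : j ≤ N) (h : M.Rep N (M.lz γ τ β) w y) :
    M.Rep N (M.lz γ τ β) (fun l => zw γ (fun i => RX (β i) * RZ (τ i * l)) j ++ w l)
      ((M.lU γ τ β j).symm (M.mat Zm (M.lU γ τ β j y))) := by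
  have h1 := Rep.fw hj ((h.bw hj).ml Zm 1 0)
  simp only [zero_mul, RZ_zero, Matrix.mul_one, Matrix.conjTranspose_one, M.mat_one, Zm_star,
    Complex.ofReal_zero, zero_smul, M.cw_symm, neg_zero, M.cw_zero] at h1
  simp only [Vale.Agent.P367.zw, List.append_assoc, List.cons_append, PZ_eq]
  exact h1

variable (M γ τ β)

theorem isGram : IsGram (gaussianReal 0 1) γ (fun j a => RX (β j) * RZ (τ j * a))
    fun i j => ⟪M.lz γ τ β i, M.lz γ τ β j⟫_ℂ := by
  intro j k
  have h1 := (((rep_nil (M := M) (N := max j k) (z := M.lz γ τ β)).zw (le_max_left j k)).zw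
    (le_max_right j k)).vamp
  simp only [List.append_nil] at h1
  rw [← h1, LinearIsometryEquiv.inner_map_eq_flip, LinearIsometryEquiv.symm_symm, M.inner_mat,
    Zm_star, LinearIsometryEquiv.inner_map_eq_flip]
  rfl

theorem hist_append (L L' : List Gate) : ∀ U : K ≃ₗᵢ[ℂ] K,
    M.hist U (L ++ L') = M.hist U L ++ M.hist (M.run U L) L' := by
  induction L with
  | nil => exact fun _ => rfl
  | cons g L ih =>
    intro U
    cases g <;> simp only [List.cons_append, hist, ih, run_cons]

theorem hist_lay (F : ℝ × K → ℝ) (p : ℕ) :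
    ((M.hist (LinearIsometryEquiv.refl ℂ K) (lay γ τ β p)).map F).sum =
      ∑ t ∈ range p, F (γ t, M.lz γ τ β t) := by
  induction p with
  | zero => rfl
  | succ p ih =>
    rw [lay, hist_append, List.map_append, List.sum_append, ih, sum_range_succ]
    simp only [hist, List.map_cons, List.map_nil, List.sum_cons, List.sum_nil, add_zero]
    rfl

theorem val_lay (p : ℕ) :
    M.val (lay γ τ β p) = val3 γ (fun i j => ⟪M.lz γ τ β i, M.lz γ τ β j⟫_ℂ) p := by
  rw [val_eq_sum, hist_lay, val3, ← sum_neg_distrib]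
  refine sum_congr rfl fun t _ => ?_
  rw [← inner_conj_symm (M.lz γ τ β p), ← map_pow, Complex.conj_im, mul_neg]
  rfl

theorem plain_lay (L : List Gate) (hL : ∀ g ∈ L, g.Plain) : ∃ (γ β : ℕ → ℝ) (p : ℕ),
    M.run (LinearIsometryEquiv.refl ℂ K) (lay γ (fun _ => 0) β p) =
      M.run (LinearIsometryEquiv.refl ℂ K) L := by
  induction L using List.reverseRecOn with
  | nil => exact ⟨0, 0, 0, rfl⟩
  | append_singleton L g ih =>
    obtain ⟨γ, β, p, h⟩ := ih fun g hg => hL g (List.mem_append_left _ hg)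
    have h1 : ∀ s t : ℝ, M.run (LinearIsometryEquiv.refl ℂ K)
        (lay (Function.update γ p s) (fun _ => 0) (Function.update β p t) (p + 1)) =
        M.step (M.step (M.run (LinearIsometryEquiv.refl ℂ K) L) (.c s)) (.b t) := by
      intro s t
      rw [lay, run_append, lay_congr (γ' := γ) (β' := β) fun j hj => by simp [hj.ne], h]
      simp only [run_cons, Function.update_self, step_r_zero]
      rfl
    have h2 := hL g (by simp)
    rw [run_append]
    cases g with
    | b θ => exact ⟨_, _, _, by rw [h1 0 θ, step_c_zero]; rfl⟩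
    | c s => exact ⟨_, _, _, by rw [h1 s 0, step_b_zero]; rfl⟩
    | r t => exact h2.elim

end Mdl

theorem partS : PartS := by
  rintro v ⟨γ, τ, β, G, p, hG, rfl⟩ ε hε
  obtain ⟨K, _, _, -, ⟨M⟩⟩ := exists_mdl
  rw [hG.unique (M.isGram γ τ β), ← M.val_lay]
  obtain ⟨L, hL, h1⟩ := M.seeds (lay γ τ β p) hε
  obtain ⟨γ', β', p', h2⟩ := M.plain_lay L hL
  refine ⟨M.val L, ⟨γ', β', fun i j => ⟪M.lz γ' (fun _ => 0) β' i, M.lz γ' (fun _ => 0) β' j⟫_ℂ, p',
    fun j k => ?_, ?_⟩, by linarith [(abs_lt.1 h1).1]⟩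
  · have h3 := M.isGram γ' (fun _ => 0) β' j k
    simpa [RZ_zero] using h3
  · rw [← M.val_lay, Mdl.val, Mdl.val, h2]

end Vale.Agent.P367S
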