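import Vale.Agent.P367S.SStep

/-! The gates `c` and `b`. Hints: `inv_c`: `W β = V β = cw (γ • io (zed (U β)))`, exact on seeds with
`h' = h - (sg σ * γ) • f`. `inv_b`: `W β = bx (θ / 2) ∘ cw (α • f) ∘ bx (θ / 2)`, where `f` is the mode
after the first `bx (θ / 2)` and `α = π / (4 im ⟪f, h⟫)` for `β ≠ 0`, `α = 0` for `β = 0`;
`β im ⟪f, h⟫` tends to `-im ⟪z, x₀⟫ ≠ 0` (`zed_bx`, `Pres.conj`, `TC.tendsto`, `disp`), so `α = O(β)`;
`V β = bx θ`; on seeds `seed_cw` and `bM_Z_bM`: `W (sd σ h a) ≈ (I * sg σ) • sd σ h a`. -/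

open scoped InnerProductSpace Topology Matrix
open Filter Asymptotics

noncomputable section

namespace Vale.Agent.P367S

namespace Mdl

variable {H K : Type} [NormedAddCommGroup H] [InnerProductSpace ℂ H]
  [SeminormedAddCommGroup K] [InnerProductSpace ℂ K] {M : Mdl H K}

variable {τ : ℝ} {T : Set (ℝ → K)} (hT : M.TC Ac (Nc K) (M.dm τ) T) {U₀ : K ≃ₗᵢ[ℂ] K} {x₀ : K}

include hT

theorem inv_c (h : M.Inv τ T U₀ x₀) (γ : ℝ) : M.Inv τ T (M.step U₀ (.c γ)) x₀ := by
  obtain ⟨U, x, σ, h, ω, G, μ, hD, rfl, rfl⟩ := h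
  obtain ⟨f, hf⟩ : ∃ f : ℝ → H, ∀ β, f β = (γ : ℂ) • M.io (M.zed (U β)) := ⟨_, fun _ => rfl⟩
  have hn : ∀ β, ‖f β‖ = |γ| := fun β => by
    rw [hf, norm_smul, LinearIsometry.norm_map, norm_zed, Complex.norm_real, mul_one,
      Real.norm_eq_abs]
  have hb : Bd f := IsBigO.of_bound |γ| (Eventually.of_forall fun β => by simp [hn])
  have hz := Pres.zed hT hD.pres
  have hs : ∀ a, ‖(sg a : ℂ)‖ = 1 := fun a => by cases a <;> simp [sg]
  have hP : Pres T (fun β => (fun _ => (1 : ℂ)) β * ω β) fun β => (U β).trans (M.cw (f β)) := by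
    refine Pres.step hT (V := fun β => M.cw (f β)) (W := fun β => M.cw (f β)) hD.pres
      (fun y hy => ?_) (fun y hy => ?_) (fun _ => norm_one) rfl rfl (fun G _ => ?_)
    · simp only [hf]
      exact hT.cw_io γ hz hy
    · have e := hT.cw_io (-γ) hz hy
      simp only [cw_symm, hf, ← neg_smul, ← Complex.ofReal_neg]
      exact e
    · simp only [one_smul, sub_self]
      exact isLittleO_zero _ _
  have h3 : Sm fun β => (β : ℂ) • (h β - (sg σ : ℂ) • f β) + M.io (x β) := by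
    have e : Sm fun β : ℝ => (β : ℂ) • (sg σ : ℂ) • f β := by
      rw [Sm, isLittleO_one_iff, tendsto_zero_iff_norm_tendsto_zero]
      have e1 : Tendsto (fun β : ℝ => |β| * |γ|) l0 (𝓝 (|0| * |γ|)) :=
        ((continuous_abs.tendsto 0).mul_const _).mono_left nhdsWithin_le_nhds
      rw [abs_zero, zero_mul] at e1
      refine e1.congr fun β => ?_
      rw [norm_smul, norm_smul, hs, hn, one_mul, Complex.norm_real, Real.norm_eq_abs]
    refine (hD.disp.sub e).congr_left fun β => ?_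
    rw [smul_sub]
    abel
  obtain ⟨G', μ', hD'⟩ := hD.step (W := fun β => M.cw (f β)) (x' := x)
    (h' := fun β => h β - (sg σ : ℂ) • f β)
    (fun β _ => ⟨[.c γ], by simp [Gate.Plain], by rw [hf]; rfl⟩) hP
    (fun G hG => ⟨fun β => M.cw (f β) (G β), hG.cw hb, by
      simp only [sub_self]
      exact isLittleO_zero _ _⟩) false
    (ν := fun a β => Complex.exp (Complex.I *
      (sg a * (⟪f β, ((sg σ * sg a : ℝ) : ℂ) • h β⟫_ℂ).im : ℝ)))
    (fun a => IsBigO.of_bound 1 (Eventually.of_forall fun β => by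
      rw [Complex.norm_exp_I_mul_ofReal]
      simp))
    (fun a => by
      have e : ∀ β, ((sg σ * sg a : ℝ) : ℂ) • (h β - (sg σ : ℂ) • f β) =
          ((sg σ * sg a : ℝ) : ℂ) • h β - (sg a : ℂ) • f β := fun β => by
        rw [smul_sub, smul_smul]
        cases σ <;> cases a <;> simp [sg]
      simp only [Bool.xor_false, sd, M.cw_co, e, sub_self]
      exact isLittleO_zero _ _) hD.mem h3
  exact ⟨_, x, _, _, _, G', μ', hD', by rw [hf]; rfl, rfl⟩

end Mdl

end Vale.Agent.P367S
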