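import Vale.Agent.P367S.SFm

/-! The two classes. Hints: `cls_c`: Cauchy-Schwarz, `ann_bound`; `y0 τ β` is the sum of two
coherent vectors with displacements `± 2 g0`, of norm `|τ| / β`, so its inner product with
`co a (h β)` tends to zero for bounded `h` (`norm_inner_co`); at `β = 0` use `M.orth`. `cls_a`:
`AnalyticAt.cexp` restricted to the reals, `Complex.conjCLE`. -/

open scoped InnerProductSpace Topology Matrix
open Filter Asymptotics

noncomputable section

namespace Vale.Agent.P367S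

namespace Mdl

variable {H K : Type} [NormedAddCommGroup H] [InnerProductSpace ℂ H]
  [SeminormedAddCommGroup K] [InnerProductSpace ℂ K] (M : Mdl H K)

theorem norm_y0 (τ β : ℝ) : ‖M.y0 τ β‖ = 1 := by
  rw [y0, LinearIsometryEquiv.norm_map, M.norm_Y, LinearIsometryEquiv.norm_map, M.norm_vac]

theorem norm_dm (τ β : ℝ) : ‖M.dm τ β‖ = 1 := by
  unfold dm
  split_ifs
  · exact M.norm_e
  · rw [LinearIsometry.norm_map, M.norm_y0]

theorem scls_bd {E : Type} [SeminormedAddCommGroup E] [InnerProductSpace ℂ E] {y : ℝ → E}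
    (h : (fun β => ⟪y β, y β⟫_ℂ) ∈ Ac) : Bd y := by
  have h1 : Tendsto (fun β => √‖⟪y β, y β⟫_ℂ‖) l0 (𝓝 √‖⟪y 0, y 0⟫_ℂ‖) := (Tendsto.norm h).sqrt
  have h2 : ∀ β, √‖⟪y β, y β⟫_ℂ‖ = ‖y β‖ := by
    intro β
    rw [inner_self_eq_norm_sq_to_K, norm_pow, RCLike.norm_ofReal, abs_norm,
      Real.sqrt_sq (norm_nonneg _)]
  simp only [h2] at h1
  exact (h1.isBigO_one ℝ).of_norm_left

theorem scls_ac {E F : Type} [SeminormedAddCommGroup E] [SeminormedAddCommGroup F] {φ : ℝ → ℂ}
    {n : ℝ → E} {y : ℝ → F} (h0 : φ 0 = 0) (hn : Sm n) (hy : Bd y)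
    (h : ∀ β, ‖φ β‖ ≤ ‖n β‖ * ‖y β‖) : φ ∈ Ac := by
  change Tendsto φ l0 (𝓝 (φ 0))
  rw [h0]
  have h1 := hn.norm_left.mul_isBigO hy.norm_left
  simp only [mul_one] at h1
  exact squeeze_zero_norm h ((isLittleO_one_iff ℝ).1 h1)

theorem cls_c {τ : ℝ} (hτ : τ ≠ 0) : M.Cls Ac (Nc K) (M.dm τ) := by
  refine ⟨fun c => tendsto_const_nhds, fun φ h1 ψ h2 => Tendsto.add h1 h2,
    fun φ h1 ψ h2 => Tendsto.mul h1 h2, fun φ h1 => (Complex.continuous_conj.tendsto _).comp h1,
    fun φ h1 => (Complex.continuous_exp.tendsto _).comp h1, ⟨rfl, isLittleO_zero _ _⟩,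
    fun n h1 n' h2 => ⟨by simp only [h1.1, h2.1, add_zero], h1.2.add h2.2⟩,
    fun φ h1 n h2 => ⟨by simp only [h2.1, smul_zero], ?_⟩,
    fun A n h1 => ⟨by simp only [h1.1, map_zero], ?_⟩,
    fun f n h1 => ⟨by simp only [h1.1, map_zero], ?_⟩, fun n h1 y h2 => ?_,
    fun n h1 n' h2 => ?_, fun n h1 => ?_, fun n h1 f h2 => ?_, ?_, fun a h h1 => ?_⟩
  · have := (Tendsto.isBigO_one ℝ h1).smul_isLittleO h2.2
    simpa using this
  · refine IsBigO.trans_isLittleO ?_ h1.2
    exact IsBigO.of_bound _ (Eventually.of_forall fun β => M.norm_mat_le A _)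
  · refine IsBigO.trans_isLittleO ?_ h1.2
    exact IsBigO.of_bound 1 (Eventually.of_forall fun β => by
      rw [LinearIsometryEquiv.norm_map, one_mul])
  · exact scls_ac (by simp only [h1.1, inner_zero_left]) h1.2 (scls_bd h2)
      fun β => norm_inner_le_norm _ _
  · exact scls_ac (by simp only [h1.1, inner_zero_left]) h1.2 h2.2.isBigO
      fun β => norm_inner_le_norm _ _
  · refine scls_ac (y := M.dm τ) (by simp only [h1.1, map_zero, inner_zero_right]) h1.2
      (IsBigO.of_bound 1 (Eventually.of_forall fun β => by simp [M.norm_dm])) fun β => ?_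
    refine (norm_inner_le_norm _ _).trans ?_
    rw [LinearIsometry.norm_map, mul_comm]
  · refine scls_ac (y := f) (by simp only [h1.1, map_zero, inner_zero_left]) h1.2 (scls_bd h2)
      fun β => ?_
    rw [mul_comm]
    exact M.ann_bound _ _
  · have : (fun β => ⟪M.dm τ β, M.dm τ β⟫_ℂ) = fun _ => 1 := by
      funext β
      rw [inner_self_eq_norm_sq_to_K, M.norm_dm]
      simp
    rw [this]
    exact tendsto_const_nhds
  · have hy : M.Gd fun β => (1 : ℂ) • M.co a (h β) :=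
      Fm.co (M := M) a (μ := fun _ => 1) (IsBigO.of_bound 1 (by simp)) (scls_bd h1)
    have hg : ∀ᶠ β in l0, |τ| / 2 / β ≤ ‖M.g0 τ β‖ := by
      filter_upwards [self_mem_nhdsWithin] with β hβ
      have hβ' : 0 < β := hβ
      rw [g0, norm_smul, LinearIsometry.norm_map, M.norm_Z, M.norm_vac, mul_one, Complex.norm_real,
        Real.norm_eq_abs, abs_div, abs_neg, abs_of_pos (by positivity : 0 < 2 * β), div_div]
    have h2 := deph (gd_vac (M := M)) hy (half_pos (abs_pos.2 hτ)) hg (A := Ym)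
      fun b => by simp [Ym]
    have h3 : Tendsto (fun β : ℝ => β) l0 (𝓝 0) := tendsto_id.mono_left nhdsWithin_le_nhds
    have h4 := h2.isBigO.trans_tendsto h3
    have h0 : ⟪M.dm τ 0, M.io (M.co a (h 0))⟫_ℂ = 0 := by
      rw [dm, if_pos rfl, M.orth]
    change Tendsto _ l0 (𝓝 ⟪M.dm τ 0, M.io (M.co a (h 0))⟫_ℂ)
    rw [h0]
    refine h4.congr' ?_
    filter_upwards [self_mem_nhdsWithin] with β hβ
    have hβ' : β ≠ 0 := ne_of_gt hβ
    rw [dm, if_neg hβ', LinearIsometry.inner_map_map, y0, one_smul,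
      ← (M.cw (M.g0 τ β)).inner_map_map ((M.cw (M.g0 τ β)).symm _),
      LinearIsometryEquiv.apply_symm_apply, M.inner_mat, Ym_star]

theorem cls_a : M.Cls Aa {fun _ => 0} fun _ => M.e := by
  have h0 : (fun _ : ℝ => (0 : ℂ)) ∈ Aa := fun _ => analyticAt_const
  refine ⟨fun c _ => analyticAt_const, fun φ h1 ψ h2 s => (h1 s).add (h2 s),
    fun φ h1 ψ h2 s => (h1 s).mul (h2 s),
    fun φ h1 s => (Complex.conjCLE.toContinuousLinearMap.analyticAt _).comp (h1 s),
    fun φ h1 s => (analyticAt_cexp.restrictScalars (𝕜 := ℝ)).comp (h1 s), rfl, ?_, ?_, ?_, ?_, ?_, ?_,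
    ?_, ?_, fun _ => analyticAt_const, fun a h _ => ?_⟩
  · rintro n rfl n' rfl
    simp
  · rintro φ _ n rfl
    simp
  · rintro A n rfl
    simp
  · rintro f n rfl
    simp
  · rintro n rfl y _
    simpa using h0
  · rintro n rfl n' _
    simpa using h0
  · rintro n rfl
    simpa using h0
  · rintro n rfl f _
    simpa using h0
  · simpa [M.orth] using h0

end Mdl

end Vale.Agent.P367S
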