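import Vale.Agent.P367S.SStep

/-! Creation of the seeds. Hints: for `β ≠ 0` let `U β` be the run of `[c k, b β, c (-k)]` with
`k = -τ / (2 β)`, and `U 0 = cw (τ • e)`. With `c = cw g0`, `f₀ = io (Z vac)`, `f'` the mode after
`b β`, `c' = cw (-k • f')`: `zed_bx` gives `z' = cos (2 β) z₀ + sin (2 β) y0`, so `k • (f₀ - f')` is
bounded and `k • (f₀ - f') - τ • dm → 0`. `U = cos β • c' c - i sin β • c' X c` and
`c' c = phase • cw (k • (f₀ - f'))` (`cw_cw`). Take `G = cos β • c' c vac`,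
`∑ μ a • sd true h a = -i • c' X c vac` with `h = k • (f₀ + f')`, `σ = true`, `x β = τ • Z vac`;
`U⁻¹ Z (-i c' X c vac) = c⁻¹ (bx (-β)) Y c vac`. `Pres.step` from the identity family with
`V β = cw (τ • dm τ β)`. -/

open scoped InnerProductSpace Topology Matrix
open Filter Asymptotics

noncomputable section

namespace Vale.Agent.P367S

namespace Mdl

variable {H K : Type} [NormedAddCommGroup H] [InnerProductSpace ℂ H]
  [SeminormedAddCommGroup K] [InnerProductSpace ℂ K] {M : Mdl H K}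

variable {τ : ℝ} {T : Set (ℝ → K)} (hT : M.TC Ac (Nc K) (M.dm τ) T) {U₀ : K ≃ₗᵢ[ℂ] K} {x₀ : K}

include hT

omit hT in
theorem SCre_bd {E : Type} [SeminormedAddCommGroup E] {x : ℝ → E} {C : ℝ} (h : ∀ β, ‖x β‖ ≤ C) :
    Bd x :=
  IsBigO.of_bound C (Eventually.of_forall fun β => by simpa using h β)

omit hT in
theorem SCre_sm {E : Type} [SeminormedAddCommGroup E] [NormedSpace ℂ E] {φ : ℝ → ℂ} {x : ℝ → E}
    (hφ : Tendsto φ l0 (𝓝 0)) (hx : Bd x) : Sm fun β => φ β • x β := by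
  simpa using ((isLittleO_one_iff ℝ).2 hφ).smul_isBigO hx

omit hT in
theorem SCre_lim {φ : ℝ → ℂ} (h : Continuous φ) (h0 : φ 0 = 0) : Tendsto φ l0 (𝓝 0) :=
  (h.tendsto' 0 0 h0).mono_left nhdsWithin_le_nhds

omit hT in
theorem SCre_iso {x : ℝ → K} (hx : Bd x) {y : ℝ → K} (h : ∀ β, ‖y β‖ = ‖x β‖) : Bd y :=
  (IsBigO.of_bound 1 (Eventually.of_forall fun β => by rw [h, one_mul])).trans hx

omit hT in
theorem SCre_A (τ : ℝ) :
    Tendsto (fun β : ℝ => ((-τ / (2 * β) * (1 - Real.cos (2 * β)) : ℝ) : ℂ)) l0 (𝓝 0) := by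
  have h1 : HasDerivAt (fun β : ℝ => Real.cos (2 * β)) 0 0 := by
    simpa using ((hasDerivAt_id (0 : ℝ)).const_mul 2).cos
  have h2 := (Complex.continuous_ofReal.tendsto _).comp (h1.tendsto_slope_zero_right.const_mul (τ / 2))
  rw [mul_zero (τ / 2), Complex.ofReal_zero] at h2
  refine h2.congr fun β => ?_
  simp only [Function.comp_apply, zero_add, mul_zero, Real.cos_zero, smul_eq_mul]
  congr 1
  ring

omit hT in
theorem SCre_B (τ : ℝ) :
    Tendsto (fun β : ℝ => ((-(-τ / (2 * β)) * Real.sin (2 * β) - τ : ℝ) : ℂ)) l0 (𝓝 0) := by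
  have h1 : HasDerivAt (fun β : ℝ => Real.sin (2 * β)) 2 0 := by
    simpa using ((hasDerivAt_id (0 : ℝ)).const_mul 2).sin
  have h2 := (Complex.continuous_ofReal.tendsto _).comp
    ((h1.tendsto_slope_zero_right.const_mul (τ / 2)).sub_const τ)
  rw [show τ / 2 * 2 - τ = 0 by ring, Complex.ofReal_zero] at h2
  refine h2.congr fun β => ?_
  simp only [Function.comp_apply, zero_add, mul_zero, Real.sin_zero, smul_eq_mul]
  congr 1
  ring

omit hT in
theorem SCre_C : Sm1 fun β : ℝ => ((Real.sin β - β : ℝ) : ℂ) := by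
  have h1 := hasDerivAt_iff_isLittleO_nhds_zero.1 (Real.hasDerivAt_sin 0)
  simp only [zero_add, Real.sin_zero, sub_zero, Real.cos_zero, smul_eq_mul, mul_one] at h1
  exact (Complex.isLittleO_ofReal_left.2 h1).mono nhdsWithin_le_nhds

variable (M) in
/-- the displacement of the last gate -/
def SCg (τ β : ℝ) : H := ((-(-τ / (2 * β)) : ℝ) : ℂ) •
  M.io ((Real.cos (2 * β) : ℂ) • M.mat Zm M.vac + (Real.sin (2 * β) : ℂ) • M.y0 τ β)

variable (M) in
/-- the three gates -/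
def SCU (τ β : ℝ) : K ≃ₗᵢ[ℂ] K := ((M.cw (M.g0 τ β)).trans (M.bx β)).trans (M.cw (M.SCg τ β))

variable (M) in
/-- the seed vector -/
def SCS (τ β : ℝ) : K := (-Complex.I) • M.cw (M.SCg τ β) (M.mat Xm (M.cw (M.g0 τ β) M.vac))

omit hT in
theorem SCre_run (τ β : ℝ) : M.SCU τ β = M.run (LinearIsometryEquiv.refl ℂ K)
    [.c (-τ / (2 * β)), .b β, .c (-(-τ / (2 * β)))] := by
  rw [run_cons, run_cons, run_cons]
  show _ = ((M.step _ (.c _)).trans _).trans (M.cw (_ • M.io (M.zed ((M.step _ (.c _)).trans _))))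
  rw [zed_bx]
  show _ = (_ : K ≃ₗᵢ[ℂ] K).trans (M.cw (_ • M.io (_ • M.zed ((_ : K ≃ₗᵢ[ℂ] K).trans _) + _)))
  rw [zed_cw]
  rfl

omit hT in
theorem SCre_bx (β : ℝ) (y : K) :
    M.bx β y = (Real.cos β : ℂ) • y + (Real.sin β : ℂ) • (-Complex.I) • M.mat Xm y := by
  rw [M.bx_eq, bM, mat_sub, mat_smul, mat_smul, mat_one]
  module

omit hT in
theorem SCre_apply (τ β : ℝ) (y : K) : M.SCU τ β y =
    ((Real.cos β : ℂ) * Complex.exp (-(Complex.I * ((⟪M.SCg τ β, M.g0 τ β⟫_ℂ).im : ℝ)))) •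
      M.cw (M.SCg τ β + M.g0 τ β) y +
    (Real.sin β : ℂ) • (-Complex.I) • M.cw (M.SCg τ β) (M.mat Xm (M.cw (M.g0 τ β) y)) := by
  show M.cw _ (M.bx β (M.cw _ y)) = _
  rw [SCre_bx, map_add, map_smul, map_smul, map_smul, cw_cw, smul_smul]

omit hT in
theorem SCre_u (τ : ℝ) : Sm fun β => M.SCg τ β + M.g0 τ β - (τ : ℂ) • M.dm τ β := by
  have h1 := SCre_sm (SCre_A τ) (SCre_bd (x := fun _ => M.io (M.mat Zm M.vac)) fun _ => le_rfl)
  have h2 := SCre_sm (SCre_B τ) (SCre_bd (x := fun β => M.io (M.y0 τ β)) (C := 1) fun β => by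
    rw [M.io.norm_map, norm_y0])
  refine (h1.add h2).congr' ?_ EventuallyEq.rfl
  filter_upwards [self_mem_nhdsWithin] with β hβ
  rw [dm, if_neg (ne_of_gt hβ), SCg, g0, map_add, map_smul, map_smul]
  push_cast
  module

omit hT in
theorem SCre_dm (τ : ℝ) : Bd fun β => (τ : ℂ) • M.dm τ β :=
  SCre_bd (C := ‖(τ : ℂ)‖) fun β => by rw [norm_smul, norm_dm, mul_one]

omit hT in
theorem SCre_seed (τ β : ℝ) : ∑ a, (-Complex.I *
    Complex.exp (-(Complex.I * ((⟪M.SCg τ β, -M.g0 τ β⟫_ℂ).im : ℝ))) * (((√2)⁻¹ : ℝ) : ℂ)) •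
      M.sd true (-(M.SCg τ β + -M.g0 τ β)) a = M.SCS τ β := by
  have h1 : M.mat Xm (M.cw (M.g0 τ β) M.vac) = M.cw (-M.g0 τ β) M.vac := by
    have := M.cw_X (-M.g0 τ β) M.vac
    rw [neg_neg, X_vac] at this
    exact this.symm
  have h2 : ∀ (u : H) (a : Bool), M.cw u (M.co a 0) = M.sd true (-u) a := fun u a => by
    rw [M.cw_co, sd]
    simp [sg]
  rw [SCS, h1, cw_cw, vac, map_smul, map_add, h2, h2, Fintype.sum_bool]
  module

omit hT in
theorem SCre_norm (τ β : ℝ) : ‖M.SCS τ β‖ = 1 := by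
  rw [SCS, norm_smul, norm_neg, Complex.norm_I, one_mul, LinearIsometryEquiv.norm_map, norm_X,
    LinearIsometryEquiv.norm_map, norm_vac]

omit hT in
theorem SCre_mode (τ β : ℝ) : (M.SCU τ β).symm (M.mat Zm (M.SCS τ β)) - M.y0 τ β =
    ((Real.cos (-β) : ℂ) - 1) • M.y0 τ β + (Real.sin (-β) : ℂ) • (-Complex.I) •
      (M.cw (M.g0 τ β)).symm (M.mat Xm (M.mat Ym (M.cw (M.g0 τ β) M.vac))) := by
  have h1 : M.mat Zm (M.SCS τ β) = M.cw (M.SCg τ β) (M.mat Ym (M.cw (M.g0 τ β) M.vac)) := by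
    rw [SCS, map_smul, ← cw_Z, ← mat_mul, Zm_Xm, mat_smul, map_smul, smul_smul]
    simp
  rw [h1]
  show (M.cw _).symm ((M.bx β).symm ((M.cw _).symm (M.cw _ _))) - _ = _
  rw [LinearIsometryEquiv.symm_apply_apply, bx_symm, SCre_bx, map_add, map_smul, map_smul,
    map_smul, y0]
  module

open Classical in
variable (M) in
/-- the family of the first step -/
def SCW (τ β : ℝ) : K ≃ₗᵢ[ℂ] K := if β = 0 then M.cw ((τ : ℂ) • M.e) else M.SCU τ β

omit hT in
theorem SCre_W (τ : ℝ) : ∀ᶠ β in l0, M.SCW τ β = M.SCU τ β := by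
  filter_upwards [self_mem_nhdsWithin] with β hβ
  exact if_neg (ne_of_gt hβ)

omit hT in
theorem SCre_ph (t : ℝ) : ‖Complex.exp (-(Complex.I * t))‖ = 1 := by
  rw [← mul_neg, ← Complex.ofReal_neg, mul_comm, Complex.norm_exp_ofReal_mul_I]

theorem SCre_pres : Pres T
    (fun β => Complex.exp (Complex.I * ((⟪M.SCg τ β, M.g0 τ β⟫_ℂ).im : ℝ)) * 1)
    fun β => (LinearIsometryEquiv.refl ℂ K).trans (M.SCW τ β) := by
  have h0 : Pres T (fun _ => 1) fun _ => LinearIsometryEquiv.refl ℂ K :=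
    ⟨fun _ => norm_one, rfl, fun y hy => by simpa using hy, fun y hy => by
      simp only [inv_one, one_smul]
      exact hy⟩
  refine Pres.step hT h0 (V := fun β => M.cw ((τ : ℂ) • M.dm τ β)) (fun y hy => hT.cw_d τ hy)
    (fun y hy => ?_) (fun β => ?_) ?_ ?_ fun G hG => ?_
  · have := hT.cw_d (-τ) hy
    simpa only [Complex.ofReal_neg, neg_smul, ← cw_symm] using this
  · rw [mul_comm, Complex.norm_exp_ofReal_mul_I]
  · simp [g0]
  · rw [SCW, dm, if_pos rfl, if_pos rfl]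
  · have b0 : Bd G := Fm.bd hG
    have h1 := SCre_sm (SCre_lim (φ := fun β => (Real.cos β : ℂ) - 1) (by fun_prop) (by simp))
      (SCre_iso b0 (y := fun β => M.cw (M.SCg τ β + M.g0 τ β) (G β)) fun β =>
        LinearIsometryEquiv.norm_map _ _)
    have h2 := hG.cw_near (SCre_dm (M := M) τ) (SCre_u (M := M) τ)
    have h3 := SCre_sm (SCre_lim (φ := fun β => (Real.sin β : ℂ)) (by fun_prop) (by simp))
      (SCre_iso b0 (y := fun β => Complex.exp (Complex.I * ((⟪M.SCg τ β, M.g0 τ β⟫_ℂ).im : ℝ)) •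
        (-Complex.I) • M.cw (M.SCg τ β) (M.mat Xm (M.cw (M.g0 τ β) (G β)))) fun β => by
        rw [norm_smul, norm_smul, mul_comm Complex.I, Complex.norm_exp_ofReal_mul_I, norm_neg,
          Complex.norm_I, one_mul, one_mul, LinearIsometryEquiv.norm_map, norm_X,
          LinearIsometryEquiv.norm_map])
    refine ((h1.add h2).add h3).congr' ?_ EventuallyEq.rfl
    filter_upwards [SCre_W (M := M) τ] with β hβ
    rw [hβ, SCre_apply, smul_add, smul_smul _ (_ * _), mul_left_comm, ← Complex.exp_add,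
      add_neg_cancel, Complex.exp_zero]
    module

theorem inv_zero (hτ : τ ≠ 0) : M.Inv τ T (M.step (LinearIsometryEquiv.refl ℂ K) (.r τ))
    ((τ : ℂ) • M.zed (LinearIsometryEquiv.refl ℂ K)) := by
  have hu : Bd fun β => M.SCg τ β + M.g0 τ β := by
    simpa using (SCre_u (M := M) τ).isBigO.add (SCre_dm (M := M) τ)
  refine ⟨fun β => (LinearIsometryEquiv.refl ℂ K).trans (M.SCW τ β),
    fun _ => (τ : ℂ) • M.mat Zm M.vac, true, fun β => -(M.SCg τ β + -M.g0 τ β), _,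
    fun β => ((Real.cos β : ℂ) * Complex.exp (-(Complex.I * ((⟪M.SCg τ β, M.g0 τ β⟫_ℂ).im : ℝ)))) •
      M.cw (M.SCg τ β + M.g0 τ β) M.vac,
    fun _ β => -Complex.I * Complex.exp (-(Complex.I * ((⟪M.SCg τ β, -M.g0 τ β⟫_ℂ).im : ℝ))) *
      (((√2)⁻¹ : ℝ) : ℂ),
    ⟨fun β hβ => ⟨_, ?_, (if_neg hβ.ne').trans (SCre_run τ β)⟩, SCre_pres hT, ?_, fun _ => ?_, ?_, ?_,
      hT.smul _ tendsto_const_nhds _ (hT.mat Zm _ hT.vac), ?_⟩, ?_, rfl⟩
  · simp [Gate.Plain]
  · refine Fm.smul (gd_vac.cw hu) (SCre_bd (C := 1) fun β => ?_)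
    rw [norm_mul, SCre_ph, mul_one, Complex.norm_real]
    exact Real.abs_cos_le_one β
  · refine SCre_bd (C := ‖(((√2)⁻¹ : ℝ) : ℂ)‖) fun β => ?_
    rw [norm_mul, norm_mul, SCre_ph, norm_neg, Complex.norm_I, one_mul, one_mul]
  · have h1 := SCre_C.smul_isBigO (SCre_bd (x := M.SCS τ) fun β => (SCre_norm τ β).le)
    simp only [smul_eq_mul, mul_one] at h1
    refine h1.congr' ?_ EventuallyEq.rfl
    filter_upwards [SCre_W (M := M) τ] with β hβ
    rw [SCre_seed, LinearIsometryEquiv.refl_trans, hβ, SCre_apply, SCS]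
    push_cast
    module
  · have h1 := SCre_sm (SCre_lim (φ := fun β => (Real.cos (-β) : ℂ) - 1) (by fun_prop) (by simp))
      (SCre_bd (x := M.y0 τ) fun β => (M.norm_y0 τ β).le)
    have h2 := SCre_sm (SCre_lim (φ := fun β => (Real.sin (-β) : ℂ)) (by fun_prop) (by simp))
      (SCre_bd (x := fun β => (-Complex.I) •
        (M.cw (M.g0 τ β)).symm (M.mat Xm (M.mat Ym (M.cw (M.g0 τ β) M.vac)))) (C := 1) fun β => by
        rw [norm_smul, norm_neg, Complex.norm_I, one_mul, LinearIsometryEquiv.norm_map, norm_X,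
          norm_Y, LinearIsometryEquiv.norm_map, norm_vac])
    refine (h1.add h2).congr' ?_ EventuallyEq.rfl
    filter_upwards [SCre_W (M := M) τ] with β hβ
    rw [SCre_seed, LinearIsometryEquiv.refl_trans, hβ, ← SCre_mode]
    simp [sg]
  · have h1 := SCre_sm (SCre_lim (φ := fun β => (τ : ℂ) / 2 * (1 - Real.cos (2 * β)))
      (by fun_prop) (by simp)) (SCre_bd (x := fun _ => M.io (M.mat Zm M.vac)) fun _ => le_rfl)
    have h2 := SCre_sm (SCre_lim (φ := fun β => -(τ : ℂ) / 2 * Real.sin (2 * β))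
      (by fun_prop) (by simp)) (SCre_bd (x := fun β => M.io (M.y0 τ β)) (C := 1) fun β => by
        rw [M.io.norm_map, norm_y0])
    refine (h1.add h2).congr' ?_ EventuallyEq.rfl
    filter_upwards [self_mem_nhdsWithin] with β hβ
    have h3 : (β : ℂ) ≠ 0 := Complex.ofReal_ne_zero.2 (ne_of_gt hβ)
    rw [SCg, g0, map_add, map_smul, map_smul, map_smul]
    generalize (Real.cos (2 * β) : ℂ) = c
    generalize (Real.sin (2 * β) : ℂ) = s
    push_cast
    match_scalars <;> field_simp <;> ring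
  · beta_reduce
    rw [SCW, if_pos rfl]
    rfl

end Mdl

end Vale.Agent.P367S
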