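import Vale.Agent.P367S.Mdl

/-! Definitions for the simulation of the random field gate by seeds. Families are indexed by a
real parameter `β`; the limit is `β → 0+`, the value at `β = 0` is the ideal object. -/

open scoped InnerProductSpace Topology
open Filter Asymptotics

noncomputable section

namespace Vale.Agent.P367S

/-- the limit `β → 0+` -/
abbrev l0 : Filter ℝ := 𝓝[>] (0 : ℝ)

section Asy

variable {E : Type} [Norm E]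

/-- bounded -/
abbrev Bd (x : ℝ → E) : Prop := x =O[l0] fun _ => (1 : ℝ)

/-- tends to zero -/
abbrev Sm (x : ℝ → E) : Prop := x =o[l0] fun _ => (1 : ℝ)

/-- `O(β)` -/
abbrev O1 (x : ℝ → E) : Prop := x =O[l0] fun β => β

/-- `o(β)` -/
abbrev Sm1 (x : ℝ → E) : Prop := x =o[l0] fun β => β

end Asy

/-- functions which converge to their value at zero -/
def Ac : Set (ℝ → ℂ) := {φ | Tendsto φ l0 (𝓝 (φ 0))}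

/-- real analytic functions -/
def Aa : Set (ℝ → ℂ) := {φ | ∀ s, AnalyticAt ℝ φ s}

/-- negligible families -/
def Nc (K : Type) [SeminormedAddCommGroup K] : Set (ℝ → K) := {n | n 0 = 0 ∧ Sm n}

namespace Mdl

variable {H K : Type} [NormedAddCommGroup H] [InnerProductSpace ℂ H]
  [SeminormedAddCommGroup K] [InnerProductSpace ℂ K] (M : Mdl H K)

/-- finite sums of coherent vectors with coefficients in `P` and displacements in `Q` -/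
inductive Fm (P : (ℝ → ℂ) → Prop) (Q : (ℝ → H) → Prop) : (ℝ → K) → Prop
  | zero : Fm P Q fun _ => 0
  | co (a : Bool) {μ : ℝ → ℂ} {h : ℝ → H} (hμ : P μ) (hh : Q h) :
      Fm P Q fun β => μ β • M.co a (h β)
  | add {x y : ℝ → K} (hx : Fm P Q x) (hy : Fm P Q y) : Fm P Q fun β => x β + y β

/-- good families: bounded coefficients and displacements -/
abbrev Gd (x : ℝ → K) : Prop := M.Fm Bd Bd x

/-- families inside an echo with the large displacement `g` -/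
abbrev Gk (g : ℝ → H) (x : ℝ → K) : Prop :=
  M.Fm Bd (fun h => ∃ a : Bool, Bd fun β => h β - (sg a : ℂ) • g β) x

/-- an algebra `𝒜` of functions, negligible families `𝒩` and the extra mode `d` -/
structure Cls (𝒜 : Set (ℝ → ℂ)) (𝒩 : Set (ℝ → K)) (d : ℝ → H) : Prop where
  const : ∀ c : ℂ, (fun _ => c) ∈ 𝒜
  add : ∀ φ ∈ 𝒜, ∀ ψ ∈ 𝒜, (fun β => φ β + ψ β) ∈ 𝒜
  mul : ∀ φ ∈ 𝒜, ∀ ψ ∈ 𝒜, (fun β => φ β * ψ β) ∈ 𝒜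
  conj : ∀ φ ∈ 𝒜, (fun β => starRingEnd ℂ (φ β)) ∈ 𝒜
  exp : ∀ φ ∈ 𝒜, (fun β => Complex.exp (φ β)) ∈ 𝒜
  n_zero : (fun _ => 0) ∈ 𝒩
  n_add : ∀ n ∈ 𝒩, ∀ n' ∈ 𝒩, (fun β => n β + n' β) ∈ 𝒩
  n_smul : ∀ φ ∈ 𝒜, ∀ n ∈ 𝒩, (fun β => φ β • n β) ∈ 𝒩
  n_mat : ∀ (A : M2), ∀ n ∈ 𝒩, (fun β => M.mat A (n β)) ∈ 𝒩
  n_cw : ∀ (f : ℝ → H), ∀ n ∈ 𝒩, (fun β => M.cw (f β) (n β)) ∈ 𝒩
  n_inner : ∀ n ∈ 𝒩, ∀ y : ℝ → K, (fun β => ⟪y β, y β⟫_ℂ) ∈ 𝒜 → (fun β => ⟪n β, y β⟫_ℂ) ∈ 𝒜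
  n_self : ∀ n ∈ 𝒩, ∀ n' ∈ 𝒩, (fun β => ⟪n β, n' β⟫_ℂ) ∈ 𝒜
  n_d : ∀ n ∈ 𝒩, (fun β => ⟪d β, M.io (n β)⟫_ℂ) ∈ 𝒜
  n_ann : ∀ n ∈ 𝒩, ∀ f : ℝ → H, (fun β => ⟪f β, f β⟫_ℂ) ∈ 𝒜 →
    (fun β => ⟪M.ann (f β) (n β), M.vac⟫_ℂ) ∈ 𝒜
  dd : (fun β => ⟪d β, d β⟫_ℂ) ∈ 𝒜
  d_co : ∀ (a : Bool) (h : ℝ → H), (fun β => ⟪h β, h β⟫_ℂ) ∈ 𝒜 →
    (fun β => ⟪d β, M.io (M.co a (h β))⟫_ℂ) ∈ 𝒜

/-- a class of families of vectors whose inner products lie in `𝒜` -/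
structure TC (𝒜 : Set (ℝ → ℂ)) (𝒩 : Set (ℝ → K)) (d : ℝ → H) (T : Set (ℝ → K)) : Prop where
  vac : (fun _ => M.vac) ∈ T
  add : ∀ x ∈ T, ∀ y ∈ T, (fun β => x β + y β) ∈ T
  smul : ∀ φ ∈ 𝒜, ∀ x ∈ T, (fun β => φ β • x β) ∈ T
  mat : ∀ (A : M2), ∀ x ∈ T, (fun β => M.mat A (x β)) ∈ T
  cw : ∀ x ∈ T, ∀ φ ∈ 𝒜, ∀ y ∈ T, (fun β => M.cw (M.io (x β) + φ β • d β) (y β)) ∈ T
  neg : ∀ x ∈ T, ∀ n ∈ 𝒩, (fun β => x β + n β) ∈ T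
  inner : ∀ x ∈ T, ∀ y ∈ T, (fun β => ⟪x β, y β⟫_ℂ) ∈ 𝒜
  ann : ∀ x ∈ T, ∀ y ∈ T, (fun β => ⟪M.ann (M.io (x β)) (y β), M.vac⟫_ℂ) ∈ 𝒜
  good : ∀ x ∈ T, ∃ y, M.Fm (· ∈ 𝒜) (fun h => (fun β => ⟪h β, h β⟫_ℂ) ∈ 𝒜) y ∧
    (fun β => x β - y β) ∈ 𝒩

/-- the family of unitaries and its inverse preserve `T` up to the phase `ω` -/
def Pres (T : Set (ℝ → K)) (ω : ℝ → ℂ) (U : ℝ → K ≃ₗᵢ[ℂ] K) : Prop :=
  (∀ β, ‖ω β‖ = 1) ∧ ω 0 = 1 ∧ (∀ y ∈ T, (fun β => ω β • U β (y β)) ∈ T) ∧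
    ∀ y ∈ T, (fun β => (ω β)⁻¹ • (U β).symm (y β)) ∈ T

/-- the mode which creates the seeds -/
def g0 (τ β : ℝ) : H := ((-τ / (2 * β) : ℝ) : ℂ) • M.io (M.mat Zm M.vac)

/-- the vector of the seed mode -/
def y0 (τ β : ℝ) : K := (M.cw (M.g0 τ β)).symm (M.mat Ym (M.cw (M.g0 τ β) M.vac))

open Classical in
/-- the seed mode -/
def dm (τ β : ℝ) : H := if β = 0 then M.e else M.io (M.y0 τ β)

/-- the seed component with spin `a` -/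
def sd (σ : Bool) (h : H) (a : Bool) : K := M.co a (((sg σ * sg a : ℝ) : ℂ) • h)

/-- a circuit of plain gates for every positive `β` -/
def Plain (U : ℝ → K ≃ₗᵢ[ℂ] K) : Prop :=
  ∀ β, 0 < β → ∃ L : List Gate, (∀ g ∈ L, g.Plain) ∧
    U β = M.run (LinearIsometryEquiv.refl ℂ K) L

/-- the invariant of the simulation, with all data -/
structure Dat (τ : ℝ) (T : Set (ℝ → K)) (U : ℝ → K ≃ₗᵢ[ℂ] K) (x : ℝ → K) (σ : Bool) (h : ℝ → H)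
    (ω : ℝ → ℂ) (G : ℝ → K) (μ : Bool → ℝ → ℂ) : Prop where
  plain : M.Plain U
  pres : Pres T ω U
  good : M.Gd G
  bd : ∀ a, Bd (μ a)
  dec : Sm1 fun β => U β M.vac - G β - (β : ℂ) • ∑ a, μ a β • M.sd σ (h β) a
  mode : Sm fun β => (U β).symm (M.mat Zm (∑ a, μ a β • M.sd σ (h β) a)) - (sg σ : ℂ) • M.y0 τ β
  mem : x ∈ T
  disp : Sm fun β => (β : ℂ) • h β + M.io (x β)

/-- the invariant of the simulation -/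
def Inv (τ : ℝ) (T : Set (ℝ → K)) (U₀ : K ≃ₗᵢ[ℂ] K) (x₀ : K) : Prop :=
  ∃ U x σ h ω G μ, M.Dat τ T U x σ h ω G μ ∧ U 0 = U₀ ∧ x 0 = x₀

/-- admissible circuits -/
def Adm : (K ≃ₗᵢ[ℂ] K) → K → List Gate → Prop
  | _, _, [] => True
  | U, x, .b θ :: L => (⟪M.zed (M.step U (.b (θ / 2))), x⟫_ℂ).im ≠ 0 ∧ Adm (M.step U (.b θ)) x L
  | U, x, .c γ :: L => Adm (M.step U (.c γ)) x L
  | U, x, .r t :: L => t ≠ 0 ∧ (⟪M.zed U, x⟫_ℂ).im ≠ 0 ∧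
      Adm (M.step U (.r t)) (x + (t : ℂ) • M.zed U) L

/-- the weak gate `exp (-i n φ(u))` along the axis `n = (Z + Y) / √2` -/
def wk (u : H) : K ≃ₗᵢ[ℂ] K := ((M.bx (Real.pi / 8)).trans (M.cw u)).trans (M.bx (-(Real.pi / 8)))

/-- the flip of the seeds -/
def fl (u₁ u₂ u₃ : H) : K ≃ₗᵢ[ℂ] K := ((M.wk u₁).trans (M.cw u₂)).trans (M.wk (-u₃))

end Mdl

end Vale.Agent.P367S
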