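import Vale.Agent.P367S.SFl0

/-! The flip on good vectors and on seeds. Hints: `fl_good`: with `A₁ = wk u₁`, `D = cw u₂`,
`A₃ = wk (-u₃)` one has
`A₃ D A₁ - D = A₃ (D - 1) (A₁ - 1) + (A₃ - 1) (D - 1) + (A₃ A₁ - 1)`; use `w2` (with the matrices
`bM (± π / 8)`) and `w3` for the vector `bx (π / 8) x`. `seed_cw`: `W0`. `fl_seed`: expand `bx` on
`co b` into the two components; each weak gate acts on the span of `co b (s • h)`, `b = true, false`,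
as `I * s * Z` up to `o(1)`; `axis_flip`. -/

open scoped InnerProductSpace Topology Matrix
open Filter Asymptotics

noncomputable section

namespace Vale.Agent.P367S

namespace Mdl

variable {H K : Type} [NormedAddCommGroup H] [InnerProductSpace ℂ H]
  [SeminormedAddCommGroup K] [InnerProductSpace ℂ K] {M : Mdl H K}

variable {Q Q' : (ℝ → H) → Prop} {x y : ℝ → K} {u v g : ℝ → H}

theorem SFl_wk_apply (u : H) (z : K) :
    M.wk u z = M.bx (-(Real.pi / 8)) (M.cw u (M.bx (Real.pi / 8) z)) := rfl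

theorem SFl_fl_apply (u₁ u₂ u₃ : H) (z : K) :
    M.fl u₁ u₂ u₃ z = M.wk (-u₃) (M.cw u₂ (M.wk u₁ z)) := rfl

theorem SFl_bx_bx (z : K) : M.bx (-(Real.pi / 8)) (M.bx (Real.pi / 8) z) = z := by
  rw [M.bx_bx, neg_add_cancel, M.bx_zero]

theorem SFl_bx_bx' (z : K) : M.bx (Real.pi / 8) (M.bx (-(Real.pi / 8)) z) = z := by
  rw [M.bx_bx, add_neg_cancel, M.bx_zero]

theorem SFl_wk_sub (u : H) (z : K) :
    M.wk u z - z =
      M.bx (-(Real.pi / 8)) (M.cw u (M.bx (Real.pi / 8) z) - M.bx (Real.pi / 8) z) := by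
  rw [map_sub, SFl_bx_bx, SFl_wk_apply]

theorem SFl_isoO (U : ℝ → K ≃ₗᵢ[ℂ] K) (hx : O1 x) : O1 fun β => U β (x β) := by
  refine IsBigO.of_norm_left ?_
  simp only [LinearIsometryEquiv.norm_map]
  exact hx.norm_left

theorem SFl_isoS (U : ℝ → K ≃ₗᵢ[ℂ] K) (hx : Sm1 x) : Sm1 fun β => U β (x β) := by
  refine IsLittleO.of_norm_left ?_
  simp only [LinearIsometryEquiv.norm_map]
  exact hx.norm_left

theorem Gk.wk (hx : M.Gk g x) (hu : Bd u) : M.Gk g fun β => M.wk (u β) (x β) := by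
  have h1 : M.Gk g fun β => M.bx (Real.pi / 8) (x β) := Fm.bx hx fun _ => Real.pi / 8
  have h2 := Gk.cw h1 hu
  exact Fm.bx h2 fun _ => -(Real.pi / 8)

theorem Gk.wk_sub (hx : M.Gk g x) (hu : O1 u) (hg : O1 fun β => (⟪u β, g β⟫_ℂ).im) :
    O1 fun β => M.wk (u β) (x β) - x β := by
  have h1 : M.Gk g fun β => M.bx (Real.pi / 8) (x β) := Fm.bx hx fun _ => Real.pi / 8
  have h2 := Fm.w1 h1 hu (gk_O1 hu hg)
  simp only [SFl_wk_sub]
  exact SFl_isoO (fun _ => M.bx (-(Real.pi / 8))) h2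

theorem Gk.wk_w2 (hx : M.Gk g x) (hu : O1 u) (hg : O1 fun β => (⟪u β, g β⟫_ℂ).im) (hv : O1 v)
    (hg' : O1 fun β => (⟪v β, g β⟫_ℂ).im) :
    Sm1 fun β => M.cw (v β) (M.wk (u β) (x β) - x β) - (M.wk (u β) (x β) - x β) := by
  have h1 : M.Gk g fun β => M.bx (Real.pi / 8) (x β) := Fm.bx hx fun _ => Real.pi / 8
  have h2 := Fm.w2 h1 (bM (-(Real.pi / 8))) hu hv (gk_O1 hu hg) (gk_O1 hv hg')
  simp only [SFl_wk_sub, M.bx_eq (-(Real.pi / 8))]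
  exact h2

theorem fl_good {u₁ u₂ u₃ : ℝ → H} (hx : M.Gk g x) (h₁ : O1 u₁) (h₂ : O1 u₂) (h₃ : O1 u₃)
    (g₁ : O1 fun β => (⟪u₁ β, g β⟫_ℂ).im) (g₂ : O1 fun β => (⟪u₂ β, g β⟫_ℂ).im)
    (h₁₃ : Sm1 fun β => u₁ β - u₃ β) (g₁₃ : Sm1 fun β => (⟪u₁ β - u₃ β, g β⟫_ℂ).im) :
    Sm1 fun β => M.fl (u₁ β) (u₂ β) (u₃ β) (x β) - M.cw (u₂ β) (x β) := by
  have h1 : M.Gk g fun β => M.bx (Real.pi / 8) (x β) := Fm.bx hx fun _ => Real.pi / 8
  have n₃ : O1 fun β => -u₃ β := h₃.neg_left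
  have g₃ : O1 fun β => (⟪-u₃ β, g β⟫_ℂ).im := by
    refine (g₁₃.isBigO.sub g₁).congr_left fun β => ?_
    rw [inner_sub_left, inner_neg_left, Complex.sub_im, Complex.neg_im]
    ring
  have t1 := SFl_isoS (fun β => M.wk (-u₃ β)) (Gk.wk_w2 hx h₁ g₁ h₂ g₂)
  have t2 := SFl_isoS (fun _ => M.bx (-(Real.pi / 8)))
    (Fm.w2 hx (bM (Real.pi / 8)) h₂ n₃ (gk_O1 h₂ g₂) (gk_O1 n₃ g₃))
  have t3 := SFl_isoS (fun _ => M.bx (-(Real.pi / 8)))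
    (Fm.w3 h1 h₁ h₃ h₁₃ (gk_Sm1 h₁₃ g₁₃))
  refine ((t1.add t2).add t3).congr_left fun β => ?_
  simp only [← M.bx_eq]
  rw [← SFl_wk_sub, SFl_fl_apply]
  have e : M.bx (-(Real.pi / 8)) (M.cw (-u₃ β) (M.cw (u₁ β) (M.bx (Real.pi / 8) (x β))) -
      M.bx (Real.pi / 8) (x β)) = M.wk (-u₃ β) (M.wk (u₁ β) (x β)) - x β := by
    rw [map_sub, SFl_bx_bx, SFl_wk_apply, SFl_wk_apply, SFl_bx_bx']
  rw [e]
  simp only [map_sub]
  abel

end Mdl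

end Vale.Agent.P367S
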