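import Vale.Agent.P367S.SFm

/-! The flip on good vectors and on seeds. Hints: `fl_good`: with `A₁ = wk u₁`, `D = cw u₂`,
`A₃ = wk (-u₃)` one has
`A₃ D A₁ - D = A₃ (D - 1) (A₁ - 1) + (A₃ - 1) (D - 1) + (A₃ A₁ - 1)`; use `w2` (with the matrices
`bM (± π / 8)`) and `w3` for the vector `bx (π / 8) x`. `seed_cw`: `W0`. `fl_seed`: expand `bx` on
`co b` into the two components; each weak gate acts on the span of `co b (s • h)`, `b = true, false`,
as `I * s * Z` up to `o(1)`; `axis_flip`. -/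

open scoped InnerProductSpace Topology Matrix
open Filter Asymptotics

noncomputable section

namespace Vale.Agent.P367S

namespace Mdl

variable {H K : Type} [NormedAddCommGroup H] [InnerProductSpace ℂ H]
  [SeminormedAddCommGroup K] [InnerProductSpace ℂ K] {M : Mdl H K}

variable {Q Q' : (ℝ → H) → Prop} {x y : ℝ → K} {u v g : ℝ → H}

theorem seed_cw {h : ℝ → H} (hu : Sm u)
    (hh : Tendsto (fun β => (⟪u β, h β⟫_ℂ).im) l0 (𝓝 (Real.pi / 4))) (s b : Bool) :
    Sm fun β => M.cw (u β) (M.co b ((sg s : ℂ) • h β)) -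
      (Complex.I * sg s * sg b) • M.co b ((sg s : ℂ) • h β) := by
  have e : Complex.exp (Complex.I * (2 * sg b * (sg s * (Real.pi / 4)) : ℝ)) =
      Complex.I * sg s * sg b := by
    have h1 : Complex.exp (Complex.I * (Real.pi / 2 : ℝ)) = Complex.I := by
      rw [mul_comm]
      simp
    have h2 : Complex.exp (Complex.I * (-(Real.pi / 2) : ℝ)) = -Complex.I := by
      rw [Complex.ofReal_neg, mul_neg, Complex.exp_neg, h1, Complex.inv_I]
    cases s <;> cases b <;> simp only [sg, if_true, Bool.false_eq_true, if_false]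
    · rw [show (2 * -1 * (-1 * (Real.pi / 4)) : ℝ) = Real.pi / 2 by ring, h1]
      simp
    · rw [show (2 * 1 * (-1 * (Real.pi / 4)) : ℝ) = -(Real.pi / 2) by ring, h2]
      simp
    · rw [show (2 * -1 * (1 * (Real.pi / 4)) : ℝ) = -(Real.pi / 2) by ring, h2]
      simp
    · rw [show (2 * 1 * (1 * (Real.pi / 4)) : ℝ) = Real.pi / 2 by ring, h1]
      simp
  have c : Continuous fun t : ℝ => Complex.exp (Complex.I * (2 * sg b * (sg s * t) : ℝ)) := by
    fun_prop
  have h3 := tendsto_iff_norm_sub_tendsto_zero.1 ((c.tendsto _).comp hh)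
  rw [e] at h3
  have h4 := ((isLittleO_one_iff ℝ).1 hu.norm_left).add h3
  rw [add_zero] at h4
  refine IsLittleO.of_norm_left ((isLittleO_one_iff ℝ).2
    (squeeze_zero (fun _ => norm_nonneg _) (fun β => ?_) h4))
  refine (norm_sub_le_norm_sub_add_norm_sub _ _ _).trans
    (add_le_add (M.W0 (u β) _ b) (le_of_eq ?_))
  rw [← sub_smul, norm_smul, M.norm_co, mul_one, inner_smul_right, Complex.im_ofReal_mul]
  rfl

/-- the family `T` acts on the span of the vectors `co b (k β)` as the matrix `A`, up to `o(1)` -/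
def SFl0_act (M : Mdl H K) (k : ℝ → H) (T : ℝ → K ≃ₗᵢ[ℂ] K) (A : M2) : Prop :=
  ∀ b, Sm fun β => T β (M.co b (k β)) - M.mat A (M.co b (k β))

theorem SFl0_trans {k : ℝ → H} {T T' : ℝ → K ≃ₗᵢ[ℂ] K} {A A' : M2} (h : SFl0_act M k T A)
    (h' : SFl0_act M k T' A') : SFl0_act M k (fun β => (T β).trans (T' β)) (A' * A) := fun b => by
  have h1 : Sm fun β => T' β (T β (M.co b (k β)) - M.mat A (M.co b (k β))) :=
    IsLittleO.of_norm_left (by simpa only [LinearIsometryEquiv.norm_map] using (h b).norm_left)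
  refine (h1.add (IsLittleO.sum (s := Finset.univ) fun c _ =>
    (h' c).const_smul_left (A c b))).congr_left fun β => ?_
  rw [M.mat_mul, M.mat_co A]
  simp only [map_sub, map_sum, map_smul, smul_sub, Finset.sum_sub_distrib,
    LinearIsometryEquiv.trans_apply, Finset.sum_apply, Pi.smul_apply]
  abel

theorem SFl0_bx (k : ℝ → H) (θ : ℝ) : SFl0_act M k (fun _ => M.bx θ) (bM θ) := fun b => by
  simpa only [M.bx_eq, sub_self] using isLittleO_zero _ _

theorem SFl0_cw {h : ℝ → H} (hu : Sm u)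
    (hh : Tendsto (fun β => (⟪u β, h β⟫_ℂ).im) l0 (𝓝 (Real.pi / 4))) (s : Bool) :
    SFl0_act M (fun β => (sg s : ℂ) • h β) (fun β => M.cw (u β)) ((Complex.I * sg s) • Zm) :=
  fun b => by simpa only [M.mat_smul, M.Z_co, smul_smul] using seed_cw hu hh s b

theorem fl_seed {u₁ u₂ u₃ h : ℝ → H} (h₁ : Sm u₁) (h₂ : Sm u₂) (h₃ : Sm u₃)
    (g₁ : Tendsto (fun β => (⟪u₁ β, h β⟫_ℂ).im) l0 (𝓝 (Real.pi / 4)))
    (g₂ : Tendsto (fun β => (⟪u₂ β, h β⟫_ℂ).im) l0 (𝓝 (Real.pi / 4)))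
    (g₃ : Tendsto (fun β => (⟪u₃ β, h β⟫_ℂ).im) l0 (𝓝 (Real.pi / 4))) (s b : Bool) :
    Sm fun β => M.fl (u₁ β) (u₂ β) (u₃ β) (M.co b ((sg s : ℂ) • h β)) +
      ((sg s * sg b : ℝ) : ℂ) • M.co (!b) ((sg s : ℂ) • h β) := by
  have a3 := SFl0_cw (M := M) (u := fun β => -u₃ β) (h := fun β => -h β) h₃.neg_left
    (by simpa using g₃) (!s)
  simp only [sg_not, Complex.ofReal_neg, smul_neg, neg_smul, neg_neg] at a3
  have key := SFl0_trans (SFl0_trans (SFl0_trans (SFl0_trans (SFl0_bx _ (Real.pi / 8))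
    (SFl0_cw h₁ g₁ s)) (SFl0_bx _ (-(Real.pi / 8)))) (SFl0_cw h₂ g₂ s))
    (SFl0_trans (SFl0_trans (SFl0_bx _ (Real.pi / 8)) a3) (SFl0_bx _ (-(Real.pi / 8)))) b
  have hs : (sg s : ℂ) * sg s = 1 := by exact_mod_cast sg_sq s
  have e := axis_flip
  simp only [mul_assoc] at e
  simp only [mul_smul_comm, smul_mul_assoc, mul_assoc, e, M.mat_smul, M.Y_co, smul_smul] at key
  refine key.congr_left fun β => ?_
  rw [sub_eq_add_neg, ← neg_smul]
  congr 2
  push_cast
  linear_combination (sg s * sg b * Complex.I ^ 4) * hs +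
    (sg s * sg b * (Complex.I ^ 2 - 1)) * Complex.I_mul_I

end Mdl

end Vale.Agent.P367S
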