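import Vale.Agent.P367S.SFm0

/-! Families of coherent sums. Hints: induction on `Fm`, the estimates of `SW`. `w3`: `cw_cw`, then `W1`
for `u - v`; the phase is `1 + O(β ^ 2)`. `deph`: double induction; the displacements of the two
components differ by `± 2 g` plus a bounded term, `exp (-(c / β - C) ^ 2 / 2) = o(β)`. -/

open scoped InnerProductSpace Topology Matrix
open Filter Asymptotics

noncomputable section

namespace Vale.Agent.P367S

namespace Mdl

variable {H K : Type} [NormedAddCommGroup H] [InnerProductSpace ℂ H]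
  [SeminormedAddCommGroup K] [InnerProductSpace ℂ K] {M : Mdl H K}

variable {Q Q' : (ℝ → H) → Prop} {x y : ℝ → K} {u v g : ℝ → H}

theorem SFm_self (v : H) : (⟪v, v⟫_ℂ).im = 0 := inner_self_im (𝕜 := ℂ) v

theorem SFm_O {E : Type} [SeminormedAddCommGroup E] {f : ℝ → ℝ} (L : ℝ → K → E)
    (ha : ∀ β y z, L β (y + z) = L β y + L β z) (hs : ∀ β (c : ℂ) y, ‖L β (c • y)‖ ≤ ‖c‖ * ‖L β y‖)
    (hx : M.Fm Bd Q x) (H : ∀ a h, Q h → (fun β => L β (M.co a (h β))) =O[l0] f) :
    (fun β => L β (x β)) =O[l0] f := by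
  induction hx with
  | zero =>
    refine IsBigO.of_bound 0 (Eventually.of_forall fun β => ?_)
    simpa using hs β 0 0
  | @co a μ h hμ hh =>
    have h1 := (hμ.norm_left.mul (H a h hh).norm_left)
    simp only [one_mul] at h1
    exact (IsBigO.of_bound' (Eventually.of_forall fun β => (hs β _ _).trans (le_abs_self _))).trans h1
  | add _ _ h1 h2 => simpa only [ha] using h1.add h2

theorem SFm_o {E : Type} [SeminormedAddCommGroup E] {f : ℝ → ℝ} (L : ℝ → K → E)
    (ha : ∀ β y z, L β (y + z) = L β y + L β z) (hs : ∀ β (c : ℂ) y, ‖L β (c • y)‖ ≤ ‖c‖ * ‖L β y‖)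
    (hx : M.Fm Bd Q x) (H : ∀ a h, Q h → (fun β => L β (M.co a (h β))) =o[l0] f) :
    (fun β => L β (x β)) =o[l0] f := by
  induction hx with
  | zero =>
    refine IsLittleO.of_bound fun c hc => Eventually.of_forall fun β => ?_
    have h0 : ‖L β 0‖ ≤ 0 := by simpa using hs β 0 0
    exact h0.trans (by positivity)
  | @co a μ h hμ hh =>
    have h1 := (hμ.norm_left.mul_isLittleO (H a h hh).norm_left)
    simp only [one_mul] at h1
    exact (IsBigO.of_bound' (Eventually.of_forall fun β =>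
      (hs β _ _).trans (le_abs_self _))).trans_isLittleO h1
  | add _ _ h1 h2 => simpa only [ha] using h1.add h2

theorem SFm_add (u : H) (y z : K) :
    M.cw u (y + z) - (y + z) = (M.cw u y - y) + (M.cw u z - z) := by
  rw [map_add]; abel

theorem SFm_smul (u : H) (c : ℂ) (y : K) : M.cw u (c • y) - c • y = c • (M.cw u y - y) := by
  rw [map_smul, smul_sub]

theorem SFm_w1o {f : ℝ → ℝ} (hx : M.Fm Bd Q x) (hu : u =o[l0] f)
    (hQ : ∀ h, Q h → (fun β => (⟪u β, h β⟫_ℂ).im) =o[l0] f) :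
    (fun β => M.cw (u β) (x β) - x β) =o[l0] f :=
  SFm_o (fun β y => M.cw (u β) y - y) (fun _ _ _ => SFm_add _ _ _)
    (fun β c y => by rw [SFm_smul, norm_smul]) hx fun a h hh =>
      (IsBigO.of_bound' (Eventually.of_forall fun β =>
        (M.W1 (u β) (h β) a).trans (le_abs_self _))).trans_isLittleO
        (hu.norm_left.add ((hQ h hh).abs_left.const_mul_left 2))

theorem SFm_sq : (fun β : ℝ => β * β) =o[l0] fun β => β := by
  have h : (fun β : ℝ => β) =o[l0] fun _ => (1 : ℝ) :=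
    (isLittleO_one_iff ℝ).2 (tendsto_id.mono_left nhdsWithin_le_nhds)
  simpa using h.mul_isBigO (isBigO_refl (fun β : ℝ => β) l0)

theorem SFm_im (u h : ℝ → H) :
    (fun β => (⟪u β, h β⟫_ℂ).im) =O[l0] fun β => ‖u β‖ * ‖h β‖ :=
  IsBigO.of_bound' (Eventually.of_forall fun β =>
    ((Complex.abs_im_le_norm _).trans (norm_inner_le_norm _ _)).trans (le_abs_self _))

theorem SFm_ph (t : ℝ) : ‖Complex.exp (-(Complex.I * t)) - 1‖ ≤ |t| := by
  have h := Real.norm_exp_I_mul_ofReal_sub_one_le (x := -t)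
  simpa using h

/-- composition of two weak gates up to the phase -/
theorem SFm_cmp (u v : H) (y : K) : ‖M.cw (-v) (M.cw u y) - y‖ ≤
    ‖M.cw (u - v) y - y‖ + |(⟪u - v, v⟫_ℂ).im| * ‖y‖ := by
  have e : (⟪-v, u⟫_ℂ).im = (⟪u - v, v⟫_ℂ).im := by
    rw [inner_neg_left, inner_sub_left, ← inner_conj_symm v u, Complex.sub_im, SFm_self,
      Complex.neg_im, Complex.conj_im, neg_neg, sub_zero]
  rw [M.cw_cw, e, neg_add_eq_sub]
  have h1 : Complex.exp (-(Complex.I * ((⟪u - v, v⟫_ℂ).im : ℝ))) • M.cw (u - v) y - y =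
      (M.cw (u - v) y - y) +
        (Complex.exp (-(Complex.I * ((⟪u - v, v⟫_ℂ).im : ℝ))) - 1) • M.cw (u - v) y := by
    rw [sub_smul, one_smul]; abel
  rw [h1]
  refine (norm_add_le _ _).trans (add_le_add le_rfl ?_)
  rw [norm_smul, LinearIsometryEquiv.norm_map]
  exact mul_le_mul_of_nonneg_right (SFm_ph _) (norm_nonneg _)

theorem SFm_exp {c : ℝ} (hc : 0 < c) {g d : ℝ → H} (hg : ∀ᶠ β in l0, c / β ≤ ‖g β‖) (hd : Bd d)
    {s : ℂ} (hs : ‖s‖ = 2) :
    (fun β => Real.exp (-‖d β - s • g β‖ ^ 2 / 2)) =o[l0] fun β => β := by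
  obtain ⟨C, hC, hd⟩ := hd.exists_pos
  refine IsBigO.trans_isLittleO (IsBigO.of_bound (2 / c ^ 2) ?_) SFm_sq
  have h1 : ∀ᶠ β in l0, β < c / C := nhdsWithin_le_nhds (Iio_mem_nhds (by positivity))
  filter_upwards [hg, hd.bound, h1, self_mem_nhdsWithin] with β h2 h3 h4 h5
  have hβ : 0 < β := h5
  simp only [norm_one, mul_one] at h3
  have h6 : C ≤ c / β := by
    rw [le_div_iff₀ hβ]
    rw [lt_div_iff₀ hC] at h4
    linarith
  have h7 : c / β ≤ ‖d β - s • g β‖ := by
    have := norm_sub_norm_le (s • g β) (d β)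
    rw [norm_smul, hs, norm_sub_rev] at this
    linarith
  have h8 : 0 < c / β := by positivity
  have h9 : (c / β) ^ 2 / 2 ≤ ‖d β - s • g β‖ ^ 2 / 2 := by gcongr
  rw [Real.norm_of_nonneg (Real.exp_pos _).le, Real.norm_of_nonneg (by positivity), neg_div,
    Real.exp_neg]
  have h10 : (c / β) ^ 2 / 2 ≤ Real.exp (‖d β - s • g β‖ ^ 2 / 2) := by
    linarith [Real.add_one_le_exp (‖d β - s • g β‖ ^ 2 / 2)]
  refine (inv_anti₀ (by positivity) h10).trans (le_of_eq ?_)
  field_simp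

theorem Fm.w1 (hx : M.Fm Bd Q x) (hu : O1 u) (hQ : ∀ h, Q h → O1 fun β => (⟪u β, h β⟫_ℂ).im) :
    O1 fun β => M.cw (u β) (x β) - x β :=
  SFm_O (fun β y => M.cw (u β) y - y) (fun _ _ _ => SFm_add _ _ _)
    (fun β c y => by rw [SFm_smul, norm_smul]) hx fun a h hh =>
      (IsBigO.of_bound' (Eventually.of_forall fun β =>
        (M.W1 (u β) (h β) a).trans (le_abs_self _))).trans
        (hu.norm_left.add ((hQ h hh).abs_left.const_mul_left 2))

theorem Fm.w2 (hx : M.Fm Bd Q x) (A : M2) (hu : O1 u) (hv : O1 v)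
    (hQ : ∀ h, Q h → O1 fun β => (⟪u β, h β⟫_ℂ).im)
    (hQ' : ∀ h, Q h → O1 fun β => (⟪v β, h β⟫_ℂ).im) :
    Sm1 fun β => M.cw (v β) (M.mat A (M.cw (u β) (x β) - x β)) -
      M.mat A (M.cw (u β) (x β) - x β) := by
  refine SFm_o (fun β y => M.cw (v β) (M.mat A (M.cw (u β) y - y)) - M.mat A (M.cw (u β) y - y))
    (fun β y z => by rw [SFm_add]; simp only [map_add]; abel)
    (fun β c y => by simp only [SFm_smul, map_smul, ← smul_sub, norm_smul, le_refl]) hx
    fun a h hh => ?_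
  obtain ⟨C, hC⟩ := M.W2 A
  have h1 : (fun β => ‖u β‖ + ‖v β‖ + |(⟪u β, h β⟫_ℂ).im| + |(⟪v β, h β⟫_ℂ).im|) =O[l0]
      fun β => β :=
    ((hu.norm_left.add hv.norm_left).add (hQ h hh).abs_left).add (hQ' h hh).abs_left
  refine IsBigO.trans_isLittleO (IsBigO.trans (IsBigO.of_bound C (Eventually.of_forall fun β => ?_))
    (h1.mul h1)) SFm_sq
  have p1 := norm_nonneg (u β)
  have p2 := norm_nonneg (v β)
  have p3 := abs_nonneg (⟪u β, h β⟫_ℂ).im
  have p4 := abs_nonneg (⟪v β, h β⟫_ℂ).im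
  rw [Real.norm_of_nonneg (by positivity), ← sq]
  exact hC _ _ _ _ _ (by linarith) (by linarith) (by linarith) (by linarith)

theorem Fm.w3 (hx : M.Fm Bd Q x) (hu : O1 u) (hv : O1 v) (huv : Sm1 fun β => u β - v β)
    (hQ : ∀ h, Q h → Sm1 fun β => (⟪u β - v β, h β⟫_ℂ).im) :
    Sm1 fun β => M.cw (-v β) (M.cw (u β) (x β)) - x β := by
  have h1 := SFm_w1o (u := fun β => u β - v β) hx huv hQ
  have h2 : (fun β => |(⟪u β - v β, v β⟫_ℂ).im| * ‖x β‖) =o[l0] fun β => β := by
    have h3 := ((SFm_im (fun β => u β - v β) v).trans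
      ((hu.sub hv).norm_left.mul hv.norm_left)).trans_isLittleO SFm_sq
    simpa using h3.abs_left.mul_isBigO hx.bd.norm_left
  exact (IsBigO.of_bound' (Eventually.of_forall fun β =>
    (SFm_cmp (u β) (v β) (x β)).trans (le_abs_self _))).trans_isLittleO (h1.norm_left.add h2)

theorem Gd.cw_sm (hx : M.Gd x) (hu : Sm u) : Sm fun β => M.cw (u β) (x β) - x β :=
  SFm_w1o hx hu fun h hh => (SFm_im u h).trans_isLittleO
    (by simpa using hu.norm_left.mul_isBigO hh.norm_left)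

theorem Gd.cw_near (hx : M.Gd x) (hv : Bd v) (huv : Sm fun β => u β - v β) :
    Sm fun β => M.cw (u β) (x β) - M.cw (v β) (x β) := by
  have h1 := Gd.cw_sm (u := fun β => u β - v β) hx huv
  have h2 : (fun β => |(⟪u β - v β, v β⟫_ℂ).im| * ‖x β‖) =o[l0] fun _ => (1 : ℝ) := by
    have h3 : (fun β => (⟪u β - v β, v β⟫_ℂ).im) =o[l0] fun _ => (1 : ℝ) :=
      (SFm_im (fun β => u β - v β) v).trans_isLittleO
        (by simpa using huv.norm_left.mul_isBigO hv.norm_left)
    simpa using h3.abs_left.mul_isBigO hx.bd.norm_left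
  refine (IsBigO.of_bound' (Eventually.of_forall fun β =>
    (le_of_eq ?_).trans ((SFm_cmp (u β) (v β) (x β)).trans (le_abs_self _)))).trans_isLittleO
    (h1.norm_left.add h2)
  rw [← (M.cw (v β)).symm.norm_map, map_sub, LinearIsometryEquiv.symm_apply_apply, M.cw_symm]

theorem deph (hx : M.Gd x) (hy : M.Gd y) {c : ℝ} (hc : 0 < c) (hg : ∀ᶠ β in l0, c / β ≤ ‖g β‖) {A : M2}
    (hA : ∀ a, A a a = 0) : Sm1 fun β => ⟪M.cw (g β) (x β), M.mat A (M.cw (g β) (y β))⟫_ℂ := by
  refine SFm_o (fun β z => ⟪M.cw (g β) z, M.mat A (M.cw (g β) (y β))⟫_ℂ)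
    (fun β y z => by simp only [map_add, inner_add_left])
    (fun β c y => by simp only [map_smul, inner_smul_left, norm_mul, Complex.norm_conj, le_refl])
    hx fun a h hh => ?_
  refine SFm_o (fun β z => ⟪M.cw (g β) (M.co a (h β)), M.mat A (M.cw (g β) z)⟫_ℂ)
    (fun β y z => by simp only [map_add, inner_add_right])
    (fun β c y => by simp only [map_smul, inner_smul_right, norm_mul, le_refl]) hy
    fun b k hk => ?_
  have hs : ‖(sg (!b) : ℂ) - sg b‖ = 2 := by cases b <;> simp [sg] <;> norm_num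
  refine (IsBigO.of_bound ‖A (!b) b‖ (Eventually.of_forall fun β => ?_)).trans_isLittleO
    (SFm_exp hc hg (hh.sub hk) hs)
  have e : ∀ k', M.mat A (M.co b k') = A (!b) b • M.co (!b) k' := fun k' => by
    rw [M.mat_co]
    cases b <;> simp [hA]
  simp only [M.cw_co, map_smul, e, inner_smul_left, inner_smul_right, norm_mul, Complex.norm_conj,
    Complex.norm_exp_I_mul_ofReal, one_mul, Real.norm_of_nonneg (Real.exp_pos _).le]
  refine mul_le_mul_of_nonneg_left ?_ (norm_nonneg _)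
  by_cases hab : a = !b
  · subst hab
    refine (M.norm_inner_co _ _ _ _).trans (le_of_eq ?_)
    rw [sub_smul]
    congr 4
    abel_nf
  · rw [M.inner_co, if_neg hab, norm_zero]
    exact (Real.exp_pos _).le

end Mdl

end Vale.Agent.P367S
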