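import Vale.Agent.P367S.SW

/-! Families of coherent sums. Hints: induction on `Fm`, the estimates of `SW`. `w3`: `cw_cw`, then `W1`
for `u - v`; the phase is `1 + O(β ^ 2)`. `deph`: double induction; the displacements of the two
components differ by `± 2 g` plus a bounded term, `exp (-(c / β - C) ^ 2 / 2) = o(β)`. -/

open scoped InnerProductSpace Topology Matrix
open Filter Asymptotics

noncomputable section

namespace Vale.Agent.P367S

namespace Mdl

variable {H K : Type} [NormedAddCommGroup H] [InnerProductSpace ℂ H]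
  [SeminormedAddCommGroup K] [InnerProductSpace ℂ K] {M : Mdl H K}

variable {Q Q' : (ℝ → H) → Prop} {x y : ℝ → K} {u v g : ℝ → H}

theorem sfm0_bd_of_le {E : Type} [SeminormedAddCommGroup E] {w : ℝ → E} (C : ℝ)
    (h : ∀ β, ‖w β‖ ≤ C) : Bd w :=
  IsBigO.of_bound C (Eventually.of_forall fun β => by simpa using h β)

theorem sfm0_mul {φ ψ : ℝ → ℂ} (h : Bd φ) (h' : Bd ψ) : Bd fun β => φ β * ψ β := by
  simpa only [mul_one] using h.mul h'

theorem sfm0_smul {E : Type} [SeminormedAddCommGroup E] [NormedSpace ℂ E] {φ : ℝ → ℂ}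
    {w : ℝ → E} (h : Bd φ) (h' : Bd w) : Bd fun β => φ β • w β := by
  have := h.norm_left.mul h'.norm_left
  simp only [mul_one] at this
  refine IsBigO.of_norm_left ?_
  simpa only [norm_smul] using this

theorem sfm0_sg (a : Bool) (w : H) : ‖(sg a : ℂ) • w‖ = ‖w‖ := by
  rw [norm_smul, Complex.norm_real, Real.norm_eq_abs, abs_sg, one_mul]

theorem sfm0_matf (hx : M.Fm Bd Q x) {A : ℝ → M2} (hA : ∀ a b, Bd fun β => A β a b) :
    M.Fm Bd Q fun β => M.mat (A β) (x β) := by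
  induction hx with
  | zero => simpa only [map_zero] using Fm.zero
  | @co a μ h hμ hh =>
    have e : (fun β => M.mat (A β) (μ β • M.co a (h β))) = fun β =>
        (μ β * A β true a) • M.co true (h β) + (μ β * A β false a) • M.co false (h β) := by
      funext β
      rw [map_smul, M.mat_co, Fintype.sum_bool, smul_add, smul_smul, smul_smul]
    rw [e]
    exact Fm.add (Fm.co true (sfm0_mul hμ (hA _ _)) hh) (Fm.co false (sfm0_mul hμ (hA _ _)) hh)
  | add _ _ h1 h2 => simpa only [map_add] using Fm.add h1 h2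

theorem sfm0_im {u h g : ℝ → H} (a : Bool) (β : ℝ) : (⟪u β, h β⟫_ℂ).im =
    (⟪u β, h β - (sg a : ℂ) • g β⟫_ℂ).im + sg a * (⟪u β, g β⟫_ℂ).im := by
  rw [inner_sub_right, inner_smul_right]
  simp

theorem sfm0_im_le (u h : ℝ → H) :
    (fun β => (⟪u β, h β⟫_ℂ).im) =O[l0] fun β => ‖u β‖ * ‖h β‖ :=
  IsBigO.of_bound 1 (Eventually.of_forall fun β => by
    rw [one_mul, Real.norm_eq_abs, Real.norm_eq_abs, abs_of_nonneg (a := ‖u β‖ * ‖h β‖) (by positivity)]
    exact (Complex.abs_im_le_norm _).trans (norm_inner_le_norm _ _))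

theorem Fm.mono {P P' : (ℝ → ℂ) → Prop} (hx : M.Fm P Q x) (hP : ∀ μ, P μ → P' μ)
    (hQ : ∀ h, Q h → Q' h) : M.Fm P' Q' x := by
  induction hx with
  | zero => exact Fm.zero
  | co a hμ hh => exact Fm.co a (hP _ hμ) (hQ _ hh)
  | add _ _ h1 h2 => exact Fm.add h1 h2

theorem Fm.bd (hx : M.Fm Bd Q x) : Bd x := by
  induction hx with
  | zero => exact isBigO_zero _ _
  | co a hμ hh => exact sfm0_smul hμ (sfm0_bd_of_le 1 fun β => (M.norm_co _ _).le)
  | add _ _ h1 h2 => exact h1.add h2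

theorem Fm.smul (hx : M.Fm Bd Q x) {φ : ℝ → ℂ} (hφ : Bd φ) : M.Fm Bd Q fun β => φ β • x β := by
  induction hx with
  | zero => simpa only [smul_zero] using Fm.zero
  | co a hμ hh => simpa only [smul_smul] using Fm.co a (sfm0_mul hφ hμ) hh
  | add _ _ h1 h2 => simpa only [smul_add] using Fm.add h1 h2

theorem Fm.mat (hx : M.Fm Bd Q x) (A : M2) : M.Fm Bd Q fun β => M.mat A (x β) := by
  exact sfm0_matf hx (A := fun _ => A) fun a b => sfm0_bd_of_le _ fun _ => le_rfl

theorem Fm.bx (hx : M.Fm Bd Q x) (θ : ℝ → ℝ) : M.Fm Bd Q fun β => M.bx (θ β) (x β) := by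
  simp only [M.bx_eq]
  refine sfm0_matf hx (A := fun β => bM (θ β)) fun a b => sfm0_bd_of_le 2 fun β => ?_
  have h1 : ‖(Real.cos (θ β) : ℂ)‖ ≤ 1 := by
    rw [Complex.norm_real]; exact Real.abs_cos_le_one _
  have h2 : ‖Complex.I * (Real.sin (θ β) : ℂ)‖ ≤ 1 := by
    rw [norm_mul, Complex.norm_I, one_mul, Complex.norm_real]; exact Real.abs_sin_le_one _
  have h3 : ‖(1 : M2) a b‖ ≤ 1 := by
    rw [Matrix.one_apply]; split_ifs <;> simp
  have h4 : ‖Xm a b‖ ≤ 1 := by
    rw [Xm, Matrix.of_apply]; split_ifs <;> simp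
  simp only [bM, Matrix.sub_apply, Matrix.smul_apply, smul_eq_mul]
  refine (norm_sub_le _ _).trans ?_
  rw [norm_mul, norm_mul _ (Xm a b)]
  have h5 := mul_le_mul h1 h3 (norm_nonneg _) zero_le_one
  have h6 := mul_le_mul h2 h4 (norm_nonneg _) zero_le_one
  linarith

theorem Fm.cw (hx : M.Fm Bd Q x) (hQ : ∀ h, Q h → ∀ a, Q' fun β => h β - (sg a : ℂ) • u β) :
    M.Fm Bd Q' fun β => M.cw (u β) (x β) := by
  induction hx with
  | zero => simpa only [map_zero] using Fm.zero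
  | @co a μ h hμ hh =>
    simp only [map_smul, M.cw_co, smul_smul]
    refine Fm.co a (sfm0_mul hμ (sfm0_bd_of_le 1 fun β => ?_)) (hQ _ hh a)
    rw [mul_comm Complex.I, Complex.norm_exp_ofReal_mul_I]
  | add _ _ h1 h2 => simpa only [map_add] using Fm.add h1 h2

theorem gd_vac : M.Gd fun _ => M.vac := by
  have h0 : Bd fun _ : ℝ => (0 : H) := isBigO_zero _ _
  have h1 : Bd fun _ : ℝ => (((√2)⁻¹ : ℝ) : ℂ) := sfm0_bd_of_le _ fun _ => le_rfl
  simpa only [vac, smul_add] using Fm.add (M := M) (Fm.co true h1 h0) (Fm.co false h1 h0)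

theorem Gd.cw (hx : M.Gd x) (hu : Bd u) : M.Gd fun β => M.cw (u β) (x β) := by
  refine Fm.cw hx fun h hh a => IsBigO.sub hh (IsBigO.of_norm_left ?_)
  simpa only [sfm0_sg] using hu.norm_left

theorem Gd.gk (hx : M.Gd x) (g : ℝ → H) : M.Gk g fun β => M.cw (g β) (x β) := by
  refine Fm.cw hx fun h hh a => ⟨!a, ?_⟩
  have e : ∀ β, h β - (sg a : ℂ) • g β - (sg (!a) : ℂ) • g β = h β := fun β => by
    rw [sg_not]; push_cast; rw [neg_smul]; abel
  simpa only [e] using hh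

theorem Gk.cw (hx : M.Gk g x) (hu : Bd u) : M.Gk g fun β => M.cw (u β) (x β) := by
  refine Fm.cw hx fun h hh a => ?_
  obtain ⟨b, hb⟩ := hh
  refine ⟨b, ?_⟩
  have h1 : Bd fun β => (sg a : ℂ) • u β := IsBigO.of_norm_left (by
    simpa only [sfm0_sg] using hu.norm_left)
  simpa only [sub_right_comm] using hb.sub h1

theorem gk_O1 (hu : O1 u) (hg : O1 fun β => (⟪u β, g β⟫_ℂ).im) (h : ℝ → H)
    (hh : ∃ a : Bool, Bd fun β => h β - (sg a : ℂ) • g β) : O1 fun β => (⟪u β, h β⟫_ℂ).im := by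
  obtain ⟨a, ha⟩ := hh
  simp only [sfm0_im (u := u) (h := h) (g := g) a]
  refine IsBigO.add ((sfm0_im_le _ _).trans ?_) (hg.const_mul_left _)
  simpa only [mul_one] using hu.norm_left.mul ha.norm_left

theorem gk_Sm1 (hu : Sm1 u) (hg : Sm1 fun β => (⟪u β, g β⟫_ℂ).im) (h : ℝ → H)
    (hh : ∃ a : Bool, Bd fun β => h β - (sg a : ℂ) • g β) : Sm1 fun β => (⟪u β, h β⟫_ℂ).im := by
  obtain ⟨a, ha⟩ := hh
  simp only [sfm0_im (u := u) (h := h) (g := g) a]
  refine IsLittleO.add ((sfm0_im_le _ _).trans_isLittleO ?_) (hg.const_mul_left _)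
  simpa only [mul_one] using hu.norm_left.mul_isBigO ha.norm_left

end Mdl

end Vale.Agent.P367S
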