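import Vale.Agent.P367S.STc
import Vale.Agent.P367S.SCls

/-! Admissible circuits are dense. Hints: take `T` from `cls_a.exists_TC`. For `s : ℝ` and a small
`θ₀ > 0` replace each gate `g` by the two gates `b ((1 - s) * θ₀)`, `g s`, where `b θ ↦ b (s * θ)`,
`c γ ↦ c (s * γ)`, `r t ↦ r (s * (t + 1 - s))`, and start with `r (1 - s)`; at `s = 1` the run is that
of `L`. Induction on `L` for a family `U s` which preserves `T` together with its inverse,
`x ∈ T`, `U 0 = step (step refl (r 1)) (b Θ)`, `x 0 = zed refl`, `0 ≤ Θ`,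
`Θ + L.length * θ₀ < π / 2`: eventually in `𝓝[≠] 1` the list is admissible, and the energy is
analytic. Each condition is an analytic function which is not zero at `s = 0` (`im_base`), so not zero
near `1` (`an_ne`). -/

open scoped InnerProductSpace Topology Matrix
open Filter Asymptotics

noncomputable section

namespace Vale.Agent.P367S

namespace Mdl

variable {H K : Type} [NormedAddCommGroup H] [InnerProductSpace ℂ H]
  [SeminormedAddCommGroup K] [InnerProductSpace ℂ K] (M : Mdl H K)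

theorem an_ne {φ : ℝ → ℂ} (hφ : φ ∈ Aa) (h0 : (φ 0).im ≠ 0) : ∀ᶠ s in 𝓝[≠] (1 : ℝ), (φ s).im ≠ 0 := by
  have h1 : AnalyticOnNhd ℝ (fun s => (φ s).im) Set.univ := fun s _ =>
    (Complex.imCLM.analyticAt _).comp (hφ s)
  rcases (h1 1 (Set.mem_univ _)).eventually_eq_zero_or_eventually_ne_zero with h | h
  · exact absurd (h1.eqOn_zero_of_preconnected_of_eventuallyEq_zero isPreconnected_univ
      (Set.mem_univ _) h (Set.mem_univ 0)) h0
  · exact h

theorem sgen0_cw : ⟪M.cw (M.e + M.e) M.vac, M.vac⟫_ℂ = (Real.exp (-2) : ℝ) := by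
  have hn : ‖M.e + M.e‖ = 2 := by
    rw [← two_smul ℂ, norm_smul, M.norm_e]
    simp
  have hs : (((√2)⁻¹ : ℝ) : ℂ) * (((√2)⁻¹ : ℝ) : ℂ) = 1 / 2 := by
    rw [← Complex.ofReal_mul, ← mul_inv, Real.mul_self_sqrt (by norm_num)]
    push_cast
    ring
  have he : Complex.exp (-(2 : ℂ)) = (Real.exp (-2) : ℝ) := by
    push_cast
    rfl
  simp only [vac, map_smul, map_add, M.cw_co, inner_smul_left, inner_smul_right, inner_add_left,
    inner_add_right, M.inner_co, inner_zero_right, Complex.zero_im, mul_zero, Complex.ofReal_zero,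
    Complex.exp_zero, map_one, one_mul, Complex.conj_ofReal, zero_sub, norm_neg, norm_smul, hn,
    norm_zero, sg]
  rw [← he]
  rw [Complex.ofReal_inv] at hs
  norm_num
  linear_combination (2 * Complex.exp (-2)) * hs

theorem im_base (Θ : ℝ) : (⟪M.zed (M.step (M.step (LinearIsometryEquiv.refl ℂ K) (.r 1)) (.b Θ)),
    M.zed (LinearIsometryEquiv.refl ℂ K)⟫_ℂ).im = Real.sin (2 * Θ) * Real.exp (-2) := by
  have hz : M.zed (LinearIsometryEquiv.refl ℂ K) = M.mat Zm M.vac := rfl
  have hv : ((LinearIsometryEquiv.refl ℂ K).trans (M.cw (((1 : ℝ) : ℂ) • M.e))).symm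
      (M.mat Ym (((LinearIsometryEquiv.refl ℂ K).trans (M.cw (((1 : ℝ) : ℂ) • M.e))) M.vac)) =
      M.mat Ym (M.cw (M.e + M.e) M.vac) := by
    change (M.cw (((1 : ℝ) : ℂ) • M.e)).symm (M.mat Ym (M.cw (((1 : ℝ) : ℂ) • M.e) M.vac)) = _
    rw [Complex.ofReal_one, one_smul, M.cw_symm, M.cw_Y, neg_neg, M.cw_cw, inner_self_eq_norm_sq_to_K]
    simp [M.norm_e]
  have h1 : ⟪M.mat Zm M.vac, M.mat Zm M.vac⟫_ℂ = 1 := by
    rw [inner_self_eq_norm_sq_to_K, M.norm_Z, M.norm_vac]
    simp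
  have h2 : ⟪M.mat Ym (M.cw (M.e + M.e) M.vac), M.mat Zm M.vac⟫_ℂ =
      Complex.I * (Real.exp (-2) : ℝ) := by
    rw [M.inner_mat, Ym_star, ← M.mat_mul, Ym_Zm, M.mat_smul, M.X_vac, inner_smul_right,
      M.sgen0_cw]
  simp only [step]
  rw [M.zed_bx, M.zed_cw, hv, hz, inner_add_left, inner_smul_left, inner_smul_left, h1, h2,
    Complex.conj_ofReal, Complex.conj_ofReal]
  simp only [Complex.add_im, Complex.mul_im, Complex.ofReal_re, Complex.ofReal_im, Complex.one_im,
    Complex.one_re, Complex.I_re, Complex.I_im, Complex.mul_re]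
  ring

end Mdl

end Vale.Agent.P367S
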