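import Vale.Agent.P367S.SRDefs

/-! The first weak gate. Hints: let `c = cw eg`, `ψ = U vac`, `z = zed U`, `yY = U⁻¹ c⁻¹ Y c ψ`; then
`ef1 = (√2)⁻¹ • io (z + yY)` (`zed_bx`, `zed_cw`). `dec_O1`: the seed sum is bounded. `yY_sm`:
`⟪yY, y⟫ = ⟪Y c (ω ψ), c (ω U y)⟫`, both vectors are close to good ones (`TC.gd`), `deph`.
`β • hin = β • h - (t / 2) • io z` is close to `-io (x + (t / 2) • z)`. So `β im ⟪io z, hin⟫` tends to
`r = -im ⟪z 0, x 0⟫` and `β im ⟪ef1, hin⟫` to `r / √2`. `g1`: `im ⟪ef1, io z⟫ = im ⟪Y c ψ, Z c ψ⟫ / √2`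
is `O(β)` by `dec_O1` and `deph`. -/

open scoped InnerProductSpace Topology Matrix
open Filter Asymptotics

noncomputable section

namespace Vale.Agent.P367S

namespace Mdl

variable {H K : Type} [NormedAddCommGroup H] [InnerProductSpace ℂ H]
  [SeminormedAddCommGroup K] [InnerProductSpace ℂ K] {M : Mdl H K}

variable {τ : ℝ} {T : Set (ℝ → K)} {U : ℝ → K ≃ₗᵢ[ℂ] K} {x G : ℝ → K} {σ : Bool} {h : ℝ → H}
  {ω : ℝ → ℂ} {μ : Bool → ℝ → ℂ} {k : ℝ → ℝ}

theorem Dat.dec_O1 (hD : M.Dat τ T U x σ h ω G μ) : O1 fun β => U β M.vac - G β := by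
  have hS : Bd fun β => ∑ a, μ a β • M.sd σ (h β) a := by
    have h1 : ∀ a, Bd fun β => μ a β • M.sd σ (h β) a := fun a => by
      refine IsBigO.trans (IsBigO.of_bound 1 (Eventually.of_forall fun β => ?_)) (hD.bd a)
      rw [norm_smul, sd, norm_co, mul_one, one_mul]
    simp only [Fintype.sum_bool]
    exact (h1 true).add (h1 false)
  have h2 : O1 fun β : ℝ => (β : ℂ) • ∑ a, μ a β • M.sd σ (h β) a := by
    have h3 : (fun β : ℝ => (β : ℂ)) =O[l0] fun β : ℝ => β :=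
      IsBigO.of_bound 1 (Eventually.of_forall fun β => by simp)
    simpa using h3.smul hS
  simpa using hD.dec.isBigO.add h2

theorem Dat.yY_sm (hT : M.TC Ac (Nc K) (M.dm τ) T) (hD : M.Dat τ T U x σ h ω G μ) {g : ℝ → H} {c : ℝ}
    (hc : 0 < c) (hg : ∀ᶠ β in l0, c / β ≤ ‖g β‖) {y : ℝ → K} (hy : y ∈ T) :
    Sm fun β => ⟪(U β).symm ((M.cw (g β)).symm (M.mat Ym (M.cw (g β) (U β M.vac)))), y β⟫_ℂ := by
  obtain ⟨hω, -, hp, -⟩ := hD.pres
  obtain ⟨G₂, hG₂, hn₂⟩ := hT.gd (hp y hy)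
  have hβ : (fun β : ℝ => β) =o[l0] fun _ => (1 : ℝ) :=
    (isLittleO_one_iff ℝ).2 (tendsto_nhdsWithin_of_tendsto_nhds tendsto_id)
  have hn₁ : Sm fun β => U β M.vac - G β := hD.dec_O1.trans_isLittleO hβ
  have h0 : Sm fun β => ⟪M.cw (g β) (G β), M.mat Ym (M.cw (g β) (G₂ β))⟫_ℂ :=
    (deph hD.good hG₂ hc hg (A := Ym) fun a => by simp [Ym]).trans hβ
  have h1 : Sm fun β => ⟪M.cw (g β) (U β M.vac - G β), M.mat Ym (M.cw (g β) (G₂ β))⟫_ℂ := by
    have h3 := (hn₁.norm_left.mul_isBigO (Fm.bd hG₂).norm_left)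
    simp only [mul_one] at h3
    refine IsBigO.trans_isLittleO (IsBigO.of_bound 1 (Eventually.of_forall fun β => ?_)) h3
    refine (norm_inner_le_norm _ _).trans (le_of_eq ?_)
    rw [norm_Y, LinearIsometryEquiv.norm_map, LinearIsometryEquiv.norm_map, one_mul, norm_mul,
      norm_norm, norm_norm]
  have h2 : Sm fun β => ⟪M.cw (g β) (U β M.vac),
      M.mat Ym (M.cw (g β) (ω β • U β (y β) - G₂ β))⟫_ℂ := by
    refine IsBigO.trans_isLittleO (IsBigO.of_bound 1 (Eventually.of_forall fun β => ?_)) hn₂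
    refine (norm_inner_le_norm _ _).trans (le_of_eq ?_)
    rw [norm_Y, LinearIsometryEquiv.norm_map, LinearIsometryEquiv.norm_map,
      LinearIsometryEquiv.norm_map, norm_vac]
  refine IsBigO.trans_isLittleO (IsBigO.of_bound 1 (Eventually.of_forall fun β => ?_))
    ((h0.add h1).add h2)
  have e1 : ⟪(U β).symm ((M.cw (g β)).symm (M.mat Ym (M.cw (g β) (U β M.vac)))), y β⟫_ℂ =
      ⟪M.cw (g β) (U β M.vac), M.mat Ym (M.cw (g β) (U β (y β)))⟫_ℂ := by
    rw [← (U β).inner_map_map, LinearIsometryEquiv.apply_symm_apply, ← (M.cw (g β)).inner_map_map,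
      LinearIsometryEquiv.apply_symm_apply, inner_mat, Ym_star]
  have e2 : ⟪M.cw (g β) (G β), M.mat Ym (M.cw (g β) (G₂ β))⟫_ℂ +
      ⟪M.cw (g β) (U β M.vac - G β), M.mat Ym (M.cw (g β) (G₂ β))⟫_ℂ +
      ⟪M.cw (g β) (U β M.vac), M.mat Ym (M.cw (g β) (ω β • U β (y β) - G₂ β))⟫_ℂ =
      ω β * ⟪M.cw (g β) (U β M.vac), M.mat Ym (M.cw (g β) (U β (y β)))⟫_ℂ := by
    simp only [map_sub, map_smul, inner_sub_left, inner_sub_right, inner_smul_right]
    ring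
  rw [e1, e2, norm_mul, hω, one_mul, one_mul]

theorem echo_run (U : K ≃ₗᵢ[ℂ] K) (h : H) (σ : Bool) (k : ℝ) :
    ∃ L : List Gate, (∀ g ∈ L, g.Plain) ∧ U.trans (M.eW U h σ k) = M.run U L := by
  refine ⟨[.c k, .b (Real.pi / 8), .c (M.ea1 U h σ k), .b (-(Real.pi / 8)), .c (M.ea2 U h σ k),
    .b (Real.pi / 8), .c (-M.ea1 U h σ k), .b (-(Real.pi / 8)), .c (-k)], ?_, ?_⟩
  · intro g hg
    simp only [List.mem_cons, List.not_mem_nil, or_false] at hg
    rcases hg with rfl | rfl | rfl | rfl | rfl | rfl | rfl | rfl | rfl <;> trivial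
  · have e3 : -M.eu3 U h σ k = ((-M.ea1 U h σ k : ℝ) : ℂ) • M.ef3 U h σ k := by
      rw [eu3, Complex.ofReal_neg, neg_smul]
    have s1 : M.step U (.c k) = U.trans (M.cw (M.eg U k)) := rfl
    have s2 : M.step (M.step (M.step (U.trans (M.cw (M.eg U k))) (.b (Real.pi / 8)))
        (.c (M.ea1 U h σ k))) (.b (-(Real.pi / 8))) = M.eU2 U h σ k :=
      LinearIsometryEquiv.ext fun _ => rfl
    have s3 : M.step (M.eU2 U h σ k) (.c (M.ea2 U h σ k)) =
        (M.eU2 U h σ k).trans (M.cw (M.eu2 U h σ k)) := rfl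
    have s4 : M.step (M.step ((M.eU2 U h σ k).trans (M.cw (M.eu2 U h σ k))) (.b (Real.pi / 8)))
        (.c (-M.ea1 U h σ k)) = (((M.eU2 U h σ k).trans (M.cw (M.eu2 U h σ k))).trans
          (M.bx (Real.pi / 8))).trans (M.cw (-M.eu3 U h σ k)) := by
      rw [e3]; rfl
    have s5 : M.step ((((M.eU2 U h σ k).trans (M.cw (M.eu2 U h σ k))).trans
        (M.bx (Real.pi / 8))).trans (M.cw (-M.eu3 U h σ k))) (.b (-(Real.pi / 8))) =
        (U.trans (M.cw (M.eg U k))).trans (M.efl U h σ k) :=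
      LinearIsometryEquiv.ext fun _ => rfl
    have s6 : M.step ((U.trans (M.cw (M.eg U k))).trans (M.efl U h σ k)) (.c (-k)) =
        U.trans (M.eW U h σ k) :=
      LinearIsometryEquiv.ext fun _ => rfl
    simp only [run, List.foldl_cons, List.foldl_nil]
    rw [s1, s2, s3, s4, s5, s6]

end Mdl

end Vale.Agent.P367S
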