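import Vale.Agent.P367S.SR0

/-! The first weak gate. Hints: let `c = cw eg`, `ψ = U vac`, `z = zed U`, `yY = U⁻¹ c⁻¹ Y c ψ`; then
`ef1 = (√2)⁻¹ • io (z + yY)` (`zed_bx`, `zed_cw`). `dec_O1`: the seed sum is bounded. `yY_sm`:
`⟪yY, y⟫ = ⟪Y c (ω ψ), c (ω U y)⟫`, both vectors are close to good ones (`TC.gd`), `deph`.
`β • hin = β • h - (t / 2) • io z` is close to `-io (x + (t / 2) • z)`. So `β im ⟪io z, hin⟫` tends to
`r = -im ⟪z 0, x 0⟫` and `β im ⟪ef1, hin⟫` to `r / √2`. `g1`: `im ⟪ef1, io z⟫ = im ⟪Y c ψ, Z c ψ⟫ / √2`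
is `O(β)` by `dec_O1` and `deph`. -/

open scoped InnerProductSpace Topology Matrix
open Filter Asymptotics

noncomputable section

namespace Vale.Agent.P367S

namespace Mdl

variable {H K : Type} [NormedAddCommGroup H] [InnerProductSpace ℂ H]
  [SeminormedAddCommGroup K] [InnerProductSpace ℂ K] {M : Mdl H K}

variable {τ : ℝ} {T : Set (ℝ → K)} {U : ℝ → K ≃ₗᵢ[ℂ] K} {x G : ℝ → K} {σ : Bool} {h : ℝ → H}
  {ω : ℝ → ℂ} {μ : Bool → ℝ → ℂ} {k : ℝ → ℝ}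

/-- the vector `U⁻¹ c⁻¹ Y c U vac` -/
def SR1_yY (M : Mdl H K) (U : K ≃ₗᵢ[ℂ] K) (g : H) : K :=
  U.symm ((M.cw g).symm (M.mat Ym (M.cw g (U M.vac))))

theorem SR1_norm_yY (U : K ≃ₗᵢ[ℂ] K) (g : H) : ‖SR1_yY M U g‖ = 1 := by
  unfold SR1_yY
  rw [LinearIsometryEquiv.norm_map, LinearIsometryEquiv.norm_map, M.norm_Y,
    LinearIsometryEquiv.norm_map, LinearIsometryEquiv.norm_map, M.norm_vac]

theorem SR1_ef1 (U : K ≃ₗᵢ[ℂ] K) (k : ℝ) :
    M.ef1 U k = ((√2 / 2 : ℝ) : ℂ) • (M.io (M.zed U) + M.io (SR1_yY M U (M.eg U k))) := by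
  have h4 : 2 * (Real.pi / 8) = Real.pi / 4 := by ring
  unfold ef1
  rw [M.zed_bx, M.zed_cw, h4, Real.cos_pi_div_four, Real.sin_pi_div_four, map_add, map_smul,
    map_smul, smul_add]
  rfl

theorem SR1_norm_ef1 (U : K ≃ₗᵢ[ℂ] K) (k : ℝ) : ‖M.ef1 U k‖ = 1 := by
  unfold ef1
  rw [LinearIsometry.norm_map, M.norm_zed]

theorem SR1_im_smul_left (r : ℝ) (a b : H) : (⟪(r : ℂ) • a, b⟫_ℂ).im = r * (⟪a, b⟫_ℂ).im := by
  rw [inner_smul_left, Complex.conj_ofReal, Complex.im_ofReal_mul]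

theorem SR1_im_smul_right (r : ℝ) (a b : H) : (⟪a, (r : ℂ) • b⟫_ℂ).im = r * (⟪a, b⟫_ℂ).im := by
  rw [inner_smul_right, Complex.im_ofReal_mul]

theorem SR1_bk (t : ℝ) (σ : Bool) {β : ℝ} (hβ : 0 < β) : β * ek t σ β = t * sg σ / 2 := by
  unfold ek
  field_simp

theorem SR1_hin (U : K ≃ₗᵢ[ℂ] K) (h : H) (σ : Bool) (t : ℝ) (x : K) {β : ℝ} (hβ : 0 < β) :
    (β : ℂ) • M.hin U h σ (ek t σ β) =
      ((β : ℂ) • h + M.io x) - M.io x - ((t / 2 : ℝ) : ℂ) • M.io (M.zed U) := by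
  have h1 : β * (sg σ * ek t σ β) = t / 2 := by
    have h2 := SR1_bk t σ hβ
    have h3 := sg_sq σ
    calc β * (sg σ * ek t σ β) = sg σ * (β * ek t σ β) := by ring
      _ = t / 2 * (sg σ * sg σ) := by rw [h2]; ring
      _ = t / 2 := by rw [h3, mul_one]
  unfold hin eg
  rw [smul_sub, smul_smul, smul_smul, ← h1, add_sub_cancel_right]
  push_cast
  rw [mul_assoc]

theorem SR1_im_hin (U : K ≃ₗᵢ[ℂ] K) (h : H) (σ : Bool) (t : ℝ) (x w : K) {β : ℝ} (hβ : 0 < β) :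
    β * (⟪M.io w, M.hin U h σ (ek t σ β)⟫_ℂ).im =
      (⟪M.io w, (β : ℂ) • h + M.io x⟫_ℂ).im - (⟪w, x⟫_ℂ).im - t / 2 * (⟪w, M.zed U⟫_ℂ).im := by
  rw [← SR1_im_smul_right, SR1_hin U h σ t x hβ, inner_sub_right, inner_sub_right, Complex.sub_im,
    Complex.sub_im, SR1_im_smul_right, LinearIsometry.inner_map_map, LinearIsometry.inner_map_map]

theorem SR1_im_tendsto {f : ℝ → ℂ} (hf : Sm f) : Tendsto (fun β => (f β).im) l0 (𝓝 0) := by
  have h1 : Tendsto f l0 (𝓝 0) := (isLittleO_one_iff ℝ).1 hf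
  exact (Complex.continuous_im.tendsto 0).comp h1

theorem SR1_disp {w : ℝ → K} {D : ℝ → H} (hw : ∀ β, ‖w β‖ = 1) (hd : Sm D) :
    Tendsto (fun β => (⟪M.io (w β), D β⟫_ℂ).im) l0 (𝓝 0) := by
  refine SR1_im_tendsto (IsBigO.trans_isLittleO (IsBigO.of_bound 1 ?_) hd)
  refine Eventually.of_forall fun β => ?_
  have h1 := norm_inner_le_norm (𝕜 := ℂ) (M.io (w β)) (D β)
  rwa [LinearIsometry.norm_map, hw] at h1

theorem SR1_big (U : ℝ → K ≃ₗᵢ[ℂ] K) (σ : Bool) (t : ℝ) :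
    ∀ᶠ β in l0, |t| / 2 / β ≤ ‖M.eg (U β) (ek t σ β)‖ := by
  filter_upwards [self_mem_nhdsWithin] with β hβ
  have hβ' : 0 < β := hβ
  unfold eg ek
  rw [norm_smul, LinearIsometry.norm_map, M.norm_zed, mul_one, Complex.norm_real, Real.norm_eq_abs,
    abs_div, abs_mul, abs_sg, mul_one, abs_of_pos (by positivity : (0 : ℝ) < 2 * β), div_div]

theorem SR1_yz (U : K ≃ₗᵢ[ℂ] K) (g : H) : ⟪SR1_yY M U g, M.zed U⟫_ℂ =
    ⟪M.cw g (U M.vac), M.mat (Ym * Zm) (M.cw g (U M.vac))⟫_ℂ := by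
  unfold SR1_yY zed
  rw [LinearIsometryEquiv.inner_map_map, ← (M.cw g).inner_map_map,
    LinearIsometryEquiv.apply_symm_apply, M.cw_Z, M.inner_mat, Ym_star, M.mat_mul]

theorem SR1_norm_YZ (x : K) : ‖M.mat (Ym * Zm) x‖ = ‖x‖ := by
  rw [M.mat_mul, M.norm_Y, M.norm_Z]

theorem SR1_yz_O1 (hD : M.Dat τ T U x σ h ω G μ) {g : ℝ → H} {c : ℝ} (hc : 0 < c)
    (hg : ∀ᶠ β in l0, c / β ≤ ‖g β‖) :
    O1 fun β => ⟪SR1_yY M (U β) (g β), M.zed (U β)⟫_ℂ := by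
  have hA : ∀ a, (Ym * Zm) a a = 0 := by
    intro a
    rw [Ym_Zm]
    simp [Xm]
  have h1 := (deph hD.good hD.good hc hg hA).isBigO
  have hR := hD.dec_O1
  have h2 : O1 fun β => ⟪M.cw (g β) (U β M.vac - G β),
      M.mat (Ym * Zm) (M.cw (g β) (U β M.vac))⟫_ℂ := by
    refine IsBigO.trans (IsBigO.of_bound 1 (Eventually.of_forall fun β => ?_)) hR
    have h3 := norm_inner_le_norm (𝕜 := ℂ) (M.cw (g β) (U β M.vac - G β))
      (M.mat (Ym * Zm) (M.cw (g β) (U β M.vac)))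
    rw [SR1_norm_YZ, LinearIsometryEquiv.norm_map, LinearIsometryEquiv.norm_map,
      LinearIsometryEquiv.norm_map, M.norm_vac, mul_comm] at h3
    exact h3
  have h3 : O1 fun β => ⟪M.cw (g β) (G β),
      M.mat (Ym * Zm) (M.cw (g β) (U β M.vac - G β))⟫_ℂ := by
    have h4 := (Fm.bd hD.good).norm_left.mul hR.norm_left
    simp only [one_mul] at h4
    refine IsBigO.trans (IsBigO.of_bound 1 (Eventually.of_forall fun β => ?_)) h4
    have h5 := norm_inner_le_norm (𝕜 := ℂ) (M.cw (g β) (G β))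
      (M.mat (Ym * Zm) (M.cw (g β) (U β M.vac - G β)))
    rw [SR1_norm_YZ, LinearIsometryEquiv.norm_map, LinearIsometryEquiv.norm_map] at h5
    rw [one_mul, Real.norm_of_nonneg (mul_nonneg (norm_nonneg _) (norm_nonneg _))]
    exact h5
  refine ((h1.add h2).add h3).congr_left fun β => ?_
  rw [SR1_yz]
  simp only [map_sub, inner_sub_left, inner_sub_right]
  ring

theorem Dat.e1 (hT : M.TC Ac (Nc K) (M.dm τ) T) (hD : M.Dat τ T U x σ h ω G μ) {t : ℝ} (ht : t ≠ 0)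
    (hr : (⟪M.zed (U 0), x 0⟫_ℂ).im ≠ 0) : M.E1 U h σ (ek t σ) := by
  have hc : 0 < |t| / 2 := by positivity
  have hbig := SR1_big (M := M) U σ t
  have hz : (fun β => M.zed (U β)) ∈ T := Pres.zed hT hD.pres
  have hpos : ∀ᶠ β in l0, 0 < β := self_mem_nhdsWithin
  have hkb : Bd fun β => β * ek t σ β := by
    refine IsBigO.congr' (isBigO_const_const (t * sg σ / 2) (one_ne_zero (α := ℝ)) l0) ?_
      EventuallyEq.rfl
    filter_upwards [hpos] with β hβ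
    exact (SR1_bk t σ hβ).symm
  have hlim : Tendsto (fun β => β * (⟪M.io (M.zed (U β)), M.hin (U β) (h β) σ (ek t σ β)⟫_ℂ).im) l0
      (𝓝 (-(⟪M.zed (U 0), x 0⟫_ℂ).im)) := by
    have h1 := SR1_disp (M := M) (fun β => M.norm_zed (U β)) hD.disp
    have h2 := (Complex.continuous_im.tendsto _).comp (hT.tendsto hz hD.mem)
    have h3 := h1.sub h2
    rw [zero_sub] at h3
    refine h3.congr' ?_
    filter_upwards [hpos] with β hβ
    rw [SR1_im_hin (U β) (h β) σ t (x β) _ hβ]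
    have h4 : (⟪M.zed (U β), M.zed (U β)⟫_ℂ).im = 0 := inner_self_im (𝕜 := ℂ) _
    rw [h4, mul_zero, sub_zero]
    rfl
  have hlimY : Tendsto (fun β => β * (⟪M.io (SR1_yY M (U β) (M.eg (U β) (ek t σ β))),
      M.hin (U β) (h β) σ (ek t σ β)⟫_ℂ).im) l0 (𝓝 0) := by
    have h1 := SR1_disp (M := M) (fun β => SR1_norm_yY (M := M) (U β) (M.eg (U β) (ek t σ β))) hD.disp
    have h2 := SR1_im_tendsto (hD.yY_sm hT hc hbig hD.mem)
    have h3 := SR1_im_tendsto (hD.yY_sm hT hc hbig hz)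
    have h4 := (h1.sub h2).sub (h3.const_mul (t / 2))
    rw [mul_zero, sub_zero, sub_zero] at h4
    refine h4.congr' ?_
    filter_upwards [hpos] with β hβ
    rw [SR1_im_hin (U β) (h β) σ t (x β) _ hβ]
    rfl
  have hm : Tendsto (fun β => β * (⟪M.ef1 (U β) (ek t σ β), M.hin (U β) (h β) σ (ek t σ β)⟫_ℂ).im) l0
      (𝓝 (√2 / 2 * (-(⟪M.zed (U 0), x 0⟫_ℂ).im))) := by
    have h1 := (hlim.add hlimY).const_mul (√2 / 2)
    rw [add_zero] at h1
    refine h1.congr fun β => ?_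
    rw [SR1_ef1, SR1_im_smul_left, inner_add_left, Complex.add_im]
    ring
  have hne : √2 / 2 * (-(⟪M.zed (U 0), x 0⟫_ℂ).im) ≠ 0 :=
    mul_ne_zero (by positivity) (neg_ne_zero.2 hr)
  have hq : Bd fun β => Real.pi / (4 * (β *
      (⟪M.ef1 (U β) (ek t σ β), M.hin (U β) (h β) σ (ek t σ β)⟫_ℂ).im)) :=
    (tendsto_const_nhds.div (hm.const_mul 4) (mul_ne_zero four_ne_zero hne)).isBigO_one ℝ
  have ha1 : O1 fun β => M.ea1 (U β) (h β) σ (ek t σ β) := by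
    have h1 := (isBigO_refl (fun β : ℝ => β) l0).mul hq
    simp only [mul_one] at h1
    refine h1.congr' ?_ EventuallyEq.rfl
    filter_upwards [hpos] with β hβ
    unfold ea1
    field_simp
  refine ⟨⟨_, hc, hbig⟩, hkb, ?_, ⟨_, neg_ne_zero.2 hr, hlim⟩, ha1, ?_, ?_, ?_⟩
  · have h1 : Bd fun β => M.io (x β) :=
      IsBigO.trans (IsBigO.of_bound 1 (Eventually.of_forall fun β => by simp)) (hT.bd hD.mem)
    have h2 : Bd fun β => ((t / 2 : ℝ) : ℂ) • M.io (M.zed (U β)) :=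
      IsBigO.const_smul_left
        (IsBigO.trans (IsBigO.of_bound 1 (Eventually.of_forall fun β => by simp)) (hT.bd hz)) _
    refine ((hD.disp.isBigO.sub h1).sub h2).congr' ?_ EventuallyEq.rfl
    filter_upwards [hpos] with β hβ
    exact (SR1_hin (U β) (h β) σ t (x β) hβ).symm
  · refine IsBigO.trans (IsBigO.of_bound 1 (Eventually.of_forall fun β => ?_)) ha1
    unfold eu1
    rw [norm_smul, SR1_norm_ef1, Complex.norm_real, mul_one, one_mul]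
  · have h1 : O1 fun β => (⟪SR1_yY M (U β) (M.eg (U β) (ek t σ β)), M.zed (U β)⟫_ℂ).im :=
      IsBigO.trans (IsBigO.of_bound 1 (Eventually.of_forall fun β => by
        rw [one_mul]; exact Complex.abs_im_le_norm _)) (SR1_yz_O1 hD hc hbig)
    have h2 := ((hq.mul hkb).mul h1).const_mul_left (√2 / 2)
    simp only [one_mul] at h2
    refine h2.congr' ?_ EventuallyEq.rfl
    filter_upwards [hpos] with β hβ
    have h4 : (⟪M.zed (U β), M.zed (U β)⟫_ℂ).im = 0 := inner_self_im (𝕜 := ℂ) _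
    have h5 : (⟪M.ef1 (U β) (ek t σ β), M.io (M.zed (U β))⟫_ℂ).im =
        √2 / 2 * (⟪SR1_yY M (U β) (M.eg (U β) (ek t σ β)), M.zed (U β)⟫_ℂ).im := by
      rw [SR1_ef1, SR1_im_smul_left, inner_add_left, Complex.add_im, LinearIsometry.inner_map_map,
        LinearIsometry.inner_map_map, h4, zero_add]
    have h6 : (⟪M.eu1 (U β) (h β) σ (ek t σ β), M.eg (U β) (ek t σ β)⟫_ℂ).im =
        M.ea1 (U β) (h β) σ (ek t σ β) * (ek t σ β *
          (⟪M.ef1 (U β) (ek t σ β), M.io (M.zed (U β))⟫_ℂ).im) := by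
      rw [← SR1_im_smul_right, ← SR1_im_smul_left]
      rfl
    rw [h6, h5]
    unfold ea1
    field_simp
  · refine tendsto_const_nhds.congr' ?_
    filter_upwards [hm.eventually_ne hne] with β hβ
    have h1 := right_ne_zero_of_mul hβ
    unfold eu1
    rw [SR1_im_smul_left]
    unfold ea1
    field_simp

end Mdl

end Vale.Agent.P367S
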