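import Vale.Agent.P367S.SR2a

/-! The second and third weak gates. Notation: `c = cw eg`, `ψ = U vac = G + R` with `R = O(β)`
(`dec_O1`), `A₁ = wk eu1`, `D = cw eu2`. Hints: `e2`: `A₁ c ψ - c ψ` and `A₁ Z c ψ - Z c ψ` are `O(β)`
(`Gk.wk_sub`), so `ef2 - io z = O(β)`. `e3`: with `n = (Z + Y) / √2`, `ef1 = io (U⁻¹ c⁻¹ A₁⁻¹ n A₁ c ψ)`
(`n` commutes with `A₁`: `n = bx (-π/8) Z bx (π/8)`), `ef3 = io (U⁻¹ c⁻¹ A₁⁻¹ D⁻¹ n D A₁ c ψ)`,
`D⁻¹ n D - n = (√2)⁻¹ (phase-free) (cw (-2 u₂) - 1) Y` (`cw_Y`, `cw_Z`, `cw_cw`). So `ef3 - ef1 = O(β)`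
and `⟪z, z₃ - z₁⟫ = (√2)⁻¹ ⟪(cw (2 u₂) - 1) A₁ Z c ψ, Y A₁ c ψ⟫` is `o(β)`: the terms with `R` are
`O(β ^ 2)`; for `G, G` replace `A₁` by `1` (`Gk.wk_w2`, `Gk.wk_sub`, `w1`) and use `deph` (move
`cw (2 u₂)` through `c` by `cw_cw`). -/

open scoped InnerProductSpace Topology Matrix
open Filter Asymptotics

noncomputable section

namespace Vale.Agent.P367S

namespace Mdl

variable {H K : Type} [NormedAddCommGroup H] [InnerProductSpace ℂ H]
  [SeminormedAddCommGroup K] [InnerProductSpace ℂ K] {M : Mdl H K}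

variable {τ : ℝ} {T : Set (ℝ → K)} {U : ℝ → K ≃ₗᵢ[ℂ] K} {x G : ℝ → K} {σ : Bool} {h : ℝ → H}
  {ω : ℝ → ℂ} {μ : Bool → ℝ → ℂ} {k : ℝ → ℝ}

theorem sr2_id : Sm fun β : ℝ => β :=
  (isLittleO_one_iff ℝ).2 (tendsto_id.mono_left nhdsWithin_le_nhds)

theorem sr2_sq : Sm1 fun β : ℝ => β * β := by
  simpa using sr2_id.mul_isBigO (isBigO_refl (fun β : ℝ => β) l0)

theorem sr2_bd {E : Type} [Norm E] {a : ℝ → E} (h : O1 a) : Bd a := h.trans sr2_id.isBigO

theorem sr2_inner {E : Type} [SeminormedAddCommGroup E] [InnerProductSpace ℂ E] (a b : ℝ → E) :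
    (fun β => ⟪a β, b β⟫_ℂ) =O[l0] fun β => ‖a β‖ * ‖b β‖ :=
  IsBigO.of_bound' (Eventually.of_forall fun _ =>
    (norm_inner_le_norm _ _).trans (le_abs_self _))

theorem sr2_oo {a b : ℝ → K} (ha : O1 a) (hb : O1 b) : Sm1 fun β => ⟪a β, b β⟫_ℂ :=
  ((sr2_inner a b).trans (ha.norm_left.mul hb.norm_left)).trans_isLittleO sr2_sq

theorem sr2_bs {a b : ℝ → K} (ha : Bd a) (hb : Sm1 b) : Sm1 fun β => ⟪a β, b β⟫_ℂ := by
  simpa using (sr2_inner a b).trans_isLittleO (ha.norm_left.mul_isLittleO hb.norm_left)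

theorem sr2_eq {E F : Type} [Norm E] [Norm F] {a : ℝ → E} {b : ℝ → F} (h : ∀ β, ‖a β‖ = ‖b β‖) :
    a =O[l0] b := IsBigO.of_bound' (Eventually.of_forall fun β => (h β).le)

theorem sr2_Y (a : ℝ → K) : (fun β => M.mat Ym (a β)) =O[l0] a := sr2_eq fun _ => M.norm_Y _

theorem sr2_w1 {g v : ℝ → H} {y : ℝ → K} (hy : M.Gk g y) (hv : O1 v)
    (hg : O1 fun β => (⟪v β, g β⟫_ℂ).im) : O1 fun β => M.cw (v β) (y β) - y β :=
  Fm.w1 hy hv (gk_O1 hv hg)

/-- the main term -/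
theorem sr2_core {g u v : ℝ → H} {y y' : ℝ → K} (hy : M.Gd y) (hy' : M.Gd y') {c : ℝ} (hc : 0 < c)
    (hb : ∀ᶠ β in l0, c / β ≤ ‖g β‖) (hu : O1 u) (gu : O1 fun β => (⟪u β, g β⟫_ℂ).im) (hv : O1 v)
    (gv : O1 fun β => (⟪v β, g β⟫_ℂ).im) :
    Sm1 fun β => ⟪M.wk (u β) (M.cw (g β) (y β)), M.mat Ym
      (M.cw (v β) (M.wk (u β) (M.cw (g β) (y' β))) - M.wk (u β) (M.cw (g β) (y' β)))⟫_ℂ := by
  have k1 := hy.gk g
  have k2 := hy'.gk g
  have hA : ∀ a, Ym a a = 0 := fun a => by simp [Ym]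
  have t1 := sr2_bs (Fm.bd (k1.wk (sr2_bd hu)))
    ((sr2_Y (M := M) _).trans_isLittleO (k2.wk_w2 hu gu hv gv))
  have t2 := sr2_oo (k1.wk_sub hu gu) ((sr2_Y (M := M) _).trans (sr2_w1 k2 hv gv))
  have hp : Bd fun β => Complex.exp (-(Complex.I * ((⟪v β, g β⟫_ℂ).im : ℝ))) *
      Complex.exp (Complex.I * ((⟪g β, v β⟫_ℂ).im : ℝ)) :=
    sr2_eq fun β => by simp [Complex.norm_exp]
  have t3 := deph hy (Fm.smul (hy'.cw (sr2_bd hv)) hp) hc hb hA
  have t4 := deph hy hy' hc hb hA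
  refine (((t1.add t2).add t3).sub t4).congr_left fun β => ?_
  have e : M.cw (g β) ((Complex.exp (-(Complex.I * ((⟪v β, g β⟫_ℂ).im : ℝ))) *
      Complex.exp (Complex.I * ((⟪g β, v β⟫_ℂ).im : ℝ))) • M.cw (v β) (y' β)) =
      M.cw (v β) (M.cw (g β) (y' β)) := by
    rw [map_smul, M.cw_cw, M.cw_cw, smul_smul, mul_assoc, ← Complex.exp_add, add_neg_cancel,
      Complex.exp_zero, mul_one, add_comm]
  rw [e]
  simp only [map_sub, inner_sub_left, inner_sub_right]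
  ring

/-- passing to close vectors -/
theorem sr2_ext {g v : ℝ → H} {p q p0 q0 : ℝ → K} (hp : O1 fun β => p β - p0 β)
    (hq : O1 fun β => q β - q0 β) (kp : M.Gk g p0) (kq : M.Gk g q0) (hv : O1 v)
    (gv : O1 fun β => (⟪v β, g β⟫_ℂ).im) : (O1 fun β => M.cw (v β) (p β) - p β) ∧
    Sm1 fun β => ⟪q β, M.mat Ym (M.cw (v β) (p β) - p β)⟫_ℂ -
      ⟪q0 β, M.mat Ym (M.cw (v β) (p0 β) - p0 β)⟫_ℂ := by
  have a1 : O1 fun β => M.cw (v β) (p β - p0 β) :=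
    (sr2_eq fun β => (M.cw (v β)).norm_map _).trans hp
  have a2 : O1 fun β => M.cw (v β) (p β) - p β :=
    ((a1.sub hp).add (sr2_w1 kp hv gv)).congr_left fun β => by
      rw [map_sub]
      abel
  have gv' : O1 fun β => (⟪-v β, g β⟫_ℂ).im :=
    gv.neg_left.congr_left fun β => by rw [inner_neg_left, Complex.neg_im]
  have a3 := sr2_oo (sr2_w1 (Fm.mat kq Ym) hv.neg_left gv') hp
  refine ⟨a2, ((sr2_oo hq ((sr2_Y (M := M) _).trans a2)).add a3).congr_left fun β => ?_⟩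
  have e : ∀ w, ⟪M.cw (-v β) (M.mat Ym (q0 β)), w⟫_ℂ = ⟪q0 β, M.mat Ym (M.cw (v β) w)⟫_ℂ :=
    fun w => by
      rw [← M.cw_symm, ← (M.cw (v β)).inner_map_map, LinearIsometryEquiv.apply_symm_apply,
        M.inner_mat, Ym_star]
  simp only [map_sub, inner_sub_left, inner_sub_right, e, M.inner_mat, Ym_star]
  ring

theorem sr2_n (y : K) : (M.bx (Real.pi / 8)).symm (M.mat Zm (M.bx (Real.pi / 8) y)) =
    (((√2)⁻¹ : ℝ) : ℂ) • (M.mat Zm y + M.mat Ym y) := by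
  rw [M.bx_symm, M.bx_eq, M.bx_eq, ← M.mat_mul, ← M.mat_mul, bM_axis, M.mat_smul, M.mat_add]

theorem sr2_nA (u : H) (y : K) :
    (M.bx (Real.pi / 8)).symm (M.mat Zm (M.bx (Real.pi / 8) (M.wk u y))) =
      M.wk u ((M.bx (Real.pi / 8)).symm (M.mat Zm (M.bx (Real.pi / 8) y))) := by
  simp only [wk, LinearIsometryEquiv.trans_apply, ← M.bx_symm, LinearIsometryEquiv.apply_symm_apply,
    M.cw_Z]

theorem sr2_nD (u : H) (y : K) :
    (M.cw u).symm ((M.bx (Real.pi / 8)).symm (M.mat Zm (M.bx (Real.pi / 8) (M.cw u y)))) -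
      (M.bx (Real.pi / 8)).symm (M.mat Zm (M.bx (Real.pi / 8) y)) =
      (((√2)⁻¹ : ℝ) : ℂ) • M.mat Ym (M.cw (u + u) y - y) := by
  have e : M.cw u (M.cw u y) = M.cw (u + u) y := by
    rw [M.cw_cw, show (⟪u, u⟫_ℂ).im = 0 from inner_self_im (𝕜 := ℂ) u]
    simp
  rw [sr2_n, sr2_n, map_smul, map_add, ← M.cw_Z, LinearIsometryEquiv.symm_apply_apply, M.cw_symm,
    M.cw_Y, neg_neg, e, ← smul_sub, map_sub, add_sub_add_left_eq_sub]

/-- the difference of the third and the first mode -/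
theorem sr2_diff (V : K ≃ₗᵢ[ℂ] K) (u u' : H) :
    M.zed (((V.trans (M.wk u)).trans (M.cw u')).trans (M.bx (Real.pi / 8))) -
      M.zed (V.trans (M.bx (Real.pi / 8))) = (((√2)⁻¹ : ℝ) : ℂ) • (V.trans (M.wk u)).symm
        (M.mat Ym (M.cw (u' + u') (M.wk u (V M.vac)) - M.wk u (V M.vac))) := by
  rw [← map_smul, ← sr2_nD, map_sub, sr2_nA]
  simp only [zed, LinearIsometryEquiv.symm_trans, LinearIsometryEquiv.trans_apply,
    LinearIsometryEquiv.symm_apply_apply]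

theorem Dat.e3 (hD : M.Dat τ T U x σ h ω G μ) (h1 : M.E1 U h σ k) (h2 : M.E2 U h σ k) :
    M.E3 U h σ k := by
  obtain ⟨c, hc, hb⟩ := h1.big
  have hv := h2.u2.add h2.u2
  have gv : O1 fun β => (⟪M.eu2 (U β) (h β) σ (k β) + M.eu2 (U β) (h β) σ (k β),
      M.eg (U β) (k β)⟫_ℂ).im :=
    (h2.g2.add h2.g2).congr_left fun β => by rw [inner_add_left, Complex.add_im]
  have hZ : M.Gd fun β => M.mat Zm (G β) := Fm.mat hD.good Zm
  obtain ⟨a1, a2⟩ := sr2_ext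
    (p := fun β => M.wk (M.eu1 (U β) (h β) σ (k β)) (M.cw (M.eg (U β) (k β)) (U β M.vac)))
    (q := fun β => M.wk (M.eu1 (U β) (h β) σ (k β))
      (M.cw (M.eg (U β) (k β)) (M.mat Zm (U β M.vac))))
    ((sr2_eq fun β => by
      rw [← map_sub, ← map_sub, LinearIsometryEquiv.norm_map, LinearIsometryEquiv.norm_map]).trans
      hD.dec_O1)
    ((sr2_eq fun β => by
      rw [← map_sub, ← map_sub, ← map_sub, LinearIsometryEquiv.norm_map,
        LinearIsometryEquiv.norm_map, M.norm_Z]).trans hD.dec_O1)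
    ((hD.good.gk _).wk (sr2_bd h1.u1)) ((hZ.gk _).wk (sr2_bd h1.u1)) hv gv
  have a3 := a2.add (sr2_core hZ hD.good hc hb h1.u1 h1.g1 hv gv)
  simp only [sub_add_cancel] at a3
  have hd := fun β => sr2_diff (M := M) ((U β).trans (M.cw (M.eg (U β) (k β))))
    (M.eu1 (U β) (h β) σ (k β)) (M.eu2 (U β) (h β) σ (k β))
  have e13 : ∀ β, M.eu1 (U β) (h β) σ (k β) - M.eu3 (U β) (h β) σ (k β) =
      (-(M.ea1 (U β) (h β) σ (k β) : ℂ)) • (M.ef3 (U β) (h β) σ (k β) - M.ef1 (U β) (k β)) :=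
    fun β => by rw [eu1, eu3, neg_smul, ← smul_neg, neg_sub, smul_sub]
  have hs : ‖(((√2)⁻¹ : ℝ) : ℂ)‖ ≤ 1 := by
    rw [Complex.norm_real, Real.norm_eq_abs, abs_of_nonneg (by positivity)]
    exact inv_le_one_of_one_le₀ (Real.one_le_sqrt.2 one_le_two)
  have b1 : O1 fun β => M.ef3 (U β) (h β) σ (k β) - M.ef1 (U β) (k β) := by
    refine (IsBigO.of_bound' (Eventually.of_forall fun β => ?_)).trans a1
    rw [ef3, ef1, ← map_sub, M.io.norm_map, eU2, hd, norm_smul, LinearIsometryEquiv.norm_map,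
      M.norm_Y]
    exact mul_le_of_le_one_left (norm_nonneg _) hs
  have u13 : Sm1 fun β => M.eu1 (U β) (h β) σ (k β) - M.eu3 (U β) (h β) σ (k β) := by
    refine ((sr2_eq fun β => ?_).trans (h1.a1.norm_left.mul b1.norm_left)).trans_isLittleO sr2_sq
    rw [e13, norm_smul, norm_neg, Complex.norm_real, norm_mul, norm_norm, norm_norm]
  refine ⟨(h1.u1.sub u13.isBigO).congr_left fun β => sub_sub_cancel _ _, u13, ?_, ?_⟩
  · have b2 : Bd fun β => M.ea1 (U β) (h β) σ (k β) * k β :=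
      (h1.a1.mul (isBigO_refl k l0)).trans h1.kb
    have b3 := b2.norm_left.mul_isLittleO a3.norm_left
    simp only [one_mul] at b3
    refine (IsBigO.of_bound' (Eventually.of_forall fun β => ?_)).trans_isLittleO b3
    refine (Complex.abs_im_le_norm _).trans (le_trans ?_ (le_abs_self _))
    rw [norm_inner_symm, e13, eg, inner_smul_left, inner_smul_right, ef3, ef1, ← map_sub,
      M.io.inner_map_map, eU2, hd, inner_smul_right,
      ← (((U β).trans (M.cw (M.eg (U β) (k β)))).trans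
        (M.wk (M.eu1 (U β) (h β) σ (k β)))).inner_map_map, LinearIsometryEquiv.apply_symm_apply]
    simp only [zed, LinearIsometryEquiv.trans_apply, LinearIsometryEquiv.apply_symm_apply, norm_mul,
      norm_neg, Complex.norm_real, Complex.conj_ofReal]
    rw [← mul_assoc, mul_comm ‖k β‖]
    exact mul_le_mul_of_nonneg_left (mul_le_of_le_one_left (norm_nonneg _)
      ((Complex.norm_real _).symm.trans_le hs)) (by positivity)
  · have b2 := u13.norm_left.mul_isBigO (isBigO_refl (fun β => ‖M.hin (U β) (h β) σ (k β)‖) l0)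
    have b3 : (fun β => β * ‖M.hin (U β) (h β) σ (k β)‖) =O[l0] fun _ => (1 : ℝ) :=
      (sr2_eq fun β => by rw [norm_smul, norm_mul, norm_norm, Complex.norm_real]).trans h1.hb
    have b4 := (isLittleO_one_iff ℂ).1 (((sr2_inner _ _).trans_isLittleO
      (b2.trans_isBigO b3)).trans_isBigO (sr2_eq (b := fun _ => (1 : ℂ)) fun _ => by simp))
    have b5 := h1.s1.sub ((Complex.continuous_im.tendsto 0).comp b4)
    simpa [inner_sub_left] using b5

end Mdl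

end Vale.Agent.P367S
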