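import Vale.Agent.P367S.SR1

/-! The second and third weak gates. Notation: `c = cw eg`, `ψ = U vac = G + R` with `R = O(β)`
(`dec_O1`), `A₁ = wk eu1`, `D = cw eu2`. Hints: `e2`: `A₁ c ψ - c ψ` and `A₁ Z c ψ - Z c ψ` are `O(β)`
(`Gk.wk_sub`), so `ef2 - io z = O(β)`. `e3`: with `n = (Z + Y) / √2`, `ef1 = io (U⁻¹ c⁻¹ A₁⁻¹ n A₁ c ψ)`
(`n` commutes with `A₁`: `n = bx (-π/8) Z bx (π/8)`), `ef3 = io (U⁻¹ c⁻¹ A₁⁻¹ D⁻¹ n D A₁ c ψ)`,
`D⁻¹ n D - n = (√2)⁻¹ (phase-free) (cw (-2 u₂) - 1) Y` (`cw_Y`, `cw_Z`, `cw_cw`). So `ef3 - ef1 = O(β)`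
and `⟪z, z₃ - z₁⟫ = (√2)⁻¹ ⟪(cw (2 u₂) - 1) A₁ Z c ψ, Y A₁ c ψ⟫` is `o(β)`: the terms with `R` are
`O(β ^ 2)`; for `G, G` replace `A₁` by `1` (`Gk.wk_w2`, `Gk.wk_sub`, `w1`) and use `deph` (move
`cw (2 u₂)` through `c` by `cw_cw`). -/

open scoped InnerProductSpace Topology Matrix
open Filter Asymptotics

noncomputable section

namespace Vale.Agent.P367S

namespace Mdl

variable {H K : Type} [NormedAddCommGroup H] [InnerProductSpace ℂ H]
  [SeminormedAddCommGroup K] [InnerProductSpace ℂ K] {M : Mdl H K}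

variable {τ : ℝ} {T : Set (ℝ → K)} {U : ℝ → K ≃ₗᵢ[ℂ] K} {x G : ℝ → K} {σ : Bool} {h : ℝ → H}
  {ω : ℝ → ℂ} {μ : Bool → ℝ → ℂ} {k : ℝ → ℝ}

omit [InnerProductSpace ℂ H] [NormedAddCommGroup H] in
theorem sr2a_iso (V : ℝ → K ≃ₗᵢ[ℂ] K) (hx : O1 x) : O1 fun β => V β (x β) :=
  (hx.norm_left.congr_left fun β => ((V β).norm_map (x β)).symm).of_norm_left

theorem sr2a_Z (hx : O1 x) : O1 fun β => M.mat Zm (x β) :=
  (hx.norm_left.congr_left fun β => (M.norm_Z (x β)).symm).of_norm_left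

theorem sr2a_im {f g : ℝ → H} {a b : ℝ → ℝ} (hf : f =O[l0] a) (hg : g =O[l0] b) :
    (fun β => (⟪f β, g β⟫_ℂ).im) =O[l0] fun β => a β * b β :=
  (IsBigO.of_norm_le fun β => (Complex.abs_im_le_norm _).trans (norm_inner_le_norm _ _)).trans
    (hf.norm_left.mul hg.norm_left)

theorem sr2a_d (hD : M.Dat τ T U x σ h ω G μ) (h1 : M.E1 U h σ k) :
    O1 fun β => M.ef2 (U β) (h β) σ (k β) - M.io (M.zed (U β)) := by
  have hG := Gd.gk hD.good fun β => M.eg (U β) (k β)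
  have hR := sr2a_iso (fun β => M.cw (M.eg (U β) (k β))) hD.dec_O1
  have a1 := Gk.wk_sub hG h1.u1 h1.g1
  have a2 := Gk.wk_sub (Fm.mat hG Zm) h1.u1 h1.g1
  have a3 := sr2a_iso (fun β => M.wk (M.eu1 (U β) (h β) σ (k β))) hR
  have a4 := sr2a_iso (fun β => M.wk (M.eu1 (U β) (h β) σ (k β))) (sr2a_Z (M := M) hR)
  have a5 := ((sr2a_Z (M := M) (a1.add a3)).sub a2).sub a4
  have a6 := sr2a_iso (fun β => (M.eU2 (U β) (h β) σ (k β)).symm) a5
  refine (a6.norm_left.congr_left fun β => ?_).of_norm_left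
  rw [ef2, ← map_sub, M.io.norm_map, ← M.zed_cw (U β) (M.eg (U β) (k β))]
  congr 1
  apply (M.eU2 (U β) (h β) σ (k β)).injective
  simp only [zed, eU2, map_sub, map_add, LinearIsometryEquiv.apply_symm_apply,
    LinearIsometryEquiv.trans_apply]
  abel

theorem Dat.e2 (hD : M.Dat τ T U x σ h ω G μ) (h1 : M.E1 U h σ k) : M.E2 U h σ k := by
  have hd := sr2a_d hD h1
  obtain ⟨r, hr, hl⟩ := h1.lim
  have hid : Tendsto (fun β : ℝ => β) l0 (𝓝 0) := nhdsWithin_le_nhds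
  have hz : Bd fun β => M.io (M.zed (U β)) :=
    IsBigO.of_bound 1 (Eventually.of_forall fun β => by simp [M.norm_zed])
  have hf : Bd fun β => M.ef2 (U β) (h β) σ (k β) :=
    IsBigO.of_bound 1 (Eventually.of_forall fun β => by simp [ef2, M.norm_zed])
  have h2 : Tendsto (fun β => β * (⟪M.ef2 (U β) (h β) σ (k β), M.hin (U β) (h β) σ (k β)⟫_ℂ).im)
      l0 (𝓝 r) := by
    have h3 := (sr2a_im hd h1.hb).trans_tendsto (by simpa only [mul_one] using hid)
    have h4 := hl.add h3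
    rw [add_zero] at h4
    refine h4.congr fun β => ?_
    rw [inner_smul_right, inner_sub_left, Complex.im_ofReal_mul, Complex.sub_im]
    ring
  have h3 : Bd fun β =>
      Real.pi / (4 * (β * (⟪M.ef2 (U β) (h β) σ (k β), M.hin (U β) (h β) σ (k β)⟫_ℂ).im)) :=
    (tendsto_const_nhds.div (h2.const_mul 4) (mul_ne_zero four_ne_zero hr)).isBigO_one ℝ
  have h4 : O1 fun β => M.ea2 (U β) (h β) σ (k β) := by
    have h5 := (isBigO_refl (fun β : ℝ => β) l0).mul h3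
    simp only [mul_one] at h5
    refine h5.congr' ?_ EventuallyEq.rfl
    filter_upwards [self_mem_nhdsWithin] with β hβ
    have : β ≠ 0 := ne_of_gt hβ
    rw [ea2]
    field_simp
  have h5 : Bd fun β => M.ea2 (U β) (h β) σ (k β) * k β := by
    have h6 := h3.mul h1.kb
    simp only [mul_one] at h6
    refine h6.congr' ?_ EventuallyEq.rfl
    filter_upwards [self_mem_nhdsWithin] with β hβ
    have : β ≠ 0 := ne_of_gt hβ
    rw [ea2]
    field_simp
  refine ⟨?_, ?_, ?_⟩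
  · have h6 := h4.norm_left.mul hf.norm_left
    simp only [mul_one] at h6
    refine (h6.congr_left fun β => ?_).of_norm_left
    rw [eu2, norm_smul, Complex.norm_real]
  · have h6 := h5.mul (sr2a_im hd hz)
    simp only [mul_one, one_mul] at h6
    refine h6.congr_left fun β => ?_
    rw [eu2, eg, inner_smul_left, inner_smul_right, Complex.conj_ofReal, Complex.im_ofReal_mul,
      Complex.im_ofReal_mul, inner_sub_left, Complex.sub_im, inner_self_eq_norm_sq_to_K]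
    simp only [← Complex.ofReal_pow, Complex.ofReal_im, Complex.coe_algebraMap]
    ring
  · refine tendsto_const_nhds.congr' ?_
    filter_upwards [h2.eventually_ne hr] with β hβ
    have := right_ne_zero_of_mul hβ
    rw [eu2, inner_smul_left, Complex.conj_ofReal, Complex.im_ofReal_mul, ea2]
    field_simp

end Mdl

end Vale.Agent.P367S
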