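import Vale.Agent.P367S.SR2

/-! The echo. Hints: `mode_change`: `z - z₄ = U⁻¹ c⁻¹ (Z - F⁻¹ Z F) c ψ` with `F = efl`; on `c G` this is
`o(β)` (`fl_good` for `c G` and `Z c G`, `cw_Z`), on the seeds `c (sd σ h a) = phase • co a (s • hin)`
and `F Z = -Z F` up to `o(1)` (`fl_seed`); use `hD.dec`, `hD.mode`. `inv_r`: `k = ek t σ`,
`W β = eW` for `β ≠ 0`, `W 0 = cw (t • e)`, `V β = cw (t • dm τ β)`. On a good `G`:
`W G = cw (-k f₄) (cw u₂ (cw (k f) G)) + o(β) = phase β • cw (k • (f - f₄) + u₂) G + o(β)`, the phase does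
not depend on `G`, and `k • (f - f₄) + u₂ - t • dm → 0`. Seeds: `fl = true`,
`h' = hin - (sg σ * k) • f₄`, `x' = x + t • z`. `Pres.step`, `Dat.step`, `echo_run`. -/

open scoped InnerProductSpace Topology Matrix
open Filter Asymptotics

noncomputable section

namespace Vale.Agent.P367S

namespace Mdl

variable {H K : Type} [NormedAddCommGroup H] [InnerProductSpace ℂ H]
  [SeminormedAddCommGroup K] [InnerProductSpace ℂ K] {M : Mdl H K}

variable {τ : ℝ} {T : Set (ℝ → K)} {U : ℝ → K ≃ₗᵢ[ℂ] K} {x G : ℝ → K} {σ : Bool} {h : ℝ → H}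
  {ω : ℝ → ℂ} {μ : Bool → ℝ → ℂ} {k : ℝ → ℝ}

omit [InnerProductSpace ℂ K] in
theorem sr3a_norm {x y : ℝ → K} {g : ℝ → ℝ} (hx : x =o[l0] g) (e : ∀ β, ‖y β‖ = ‖x β‖) :
    y =o[l0] g :=
  isLittleO_norm_left.1 (hx.norm_left.congr_left fun β => (e β).symm)

theorem sr3a_iso (V : ℝ → K ≃ₗᵢ[ℂ] K) {x : ℝ → K} {g : ℝ → ℝ} (hx : x =o[l0] g) :
    (fun β => V β (x β)) =o[l0] g := sr3a_norm hx fun β => (V β).norm_map _

theorem sr3a_Z {x : ℝ → K} {g : ℝ → ℝ} (hx : x =o[l0] g) :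
    (fun β => M.mat Zm (x β)) =o[l0] g := sr3a_norm hx fun _ => M.norm_Z _

theorem sr3a_mul {x : ℝ → K} (hx : Sm x) : Sm1 fun β => (β : ℂ) • x β := by
  have h1 : (fun β : ℝ => (β : ℂ)) =O[l0] fun β => β :=
    IsBigO.of_bound' (Eventually.of_forall fun β => (Complex.norm_real β).le)
  simpa only [smul_eq_mul, mul_one] using h1.smul_isLittleO hx

theorem sr3a_bd {x : ℝ → K} {φ : ℝ → ℂ} (hφ : Bd φ) (hx : Sm x) : Sm fun β => φ β • x β := by
  simpa only [smul_eq_mul, mul_one] using hφ.smul_isLittleO hx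

theorem sr3a_sm {E : Type} [SeminormedAddCommGroup E] {u : ℝ → E} (hu : O1 u) : Sm u :=
  hu.trans_isLittleO ((isLittleO_one_iff ℝ).2 (tendsto_id.mono_left nhdsWithin_le_nhds))

theorem sr3a_sg (σ a : Bool) : sg (σ == a) = sg σ * sg a := by
  cases σ <;> cases a <;> simp [sg]

/-- the flip anticommutes with `Z` on the seeds -/
theorem sr3a_anti {F : ℝ → K ≃ₗᵢ[ℂ] K} {v : ℝ → H} {a : Bool} {c : ℂ}
    (hF : Sm fun β => F β (M.co a (v β)) + c • M.co (!a) (v β)) :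
    Sm fun β => F β (M.mat Zm (M.co a (v β))) + M.mat Zm (F β (M.co a (v β))) := by
  refine ((hF.const_smul_left (sg a : ℂ)).add (sr3a_Z (M := M) hF)).congr_left fun β => ?_
  simp only [Pi.smul_apply, map_add, map_smul, M.Z_co, sg_not, Complex.ofReal_neg]
  module

theorem sr3a_cw (U : K ≃ₗᵢ[ℂ] K) (h : H) (σ : Bool) (k : ℝ) (a : Bool) : ∃ c : ℂ, ‖c‖ = 1 ∧
    M.cw (M.eg U k) (M.sd σ h a) = c • M.co a ((sg (σ == a) : ℂ) • M.hin U h σ k) := by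
  refine ⟨_, ?_, (M.cw_co _ _ _).trans (congrArg (fun w => _ • M.co a w) ?_)⟩
  · rw [mul_comm, Complex.norm_exp_ofReal_mul_I]
  · have e : (sg σ : ℂ) * sg σ = 1 := by rw [← Complex.ofReal_mul, sg_sq, Complex.ofReal_one]
    rw [sr3a_sg, hin, smul_sub, smul_smul, Complex.ofReal_mul, mul_right_comm, e, one_mul]

theorem sr3a_seed (h1 : M.E1 U h σ k) (h2 : M.E2 U h σ k) (h3 : M.E3 U h σ k) (a : Bool) :
    Sm fun β => M.efl (U β) (h β) σ (k β) (M.cw (M.eg (U β) (k β)) (M.mat Zm (M.sd σ (h β) a))) +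
      M.mat Zm (M.efl (U β) (h β) σ (k β) (M.cw (M.eg (U β) (k β)) (M.sd σ (h β) a))) := by
  refine sr3a_norm (sr3a_anti (F := fun β => M.efl (U β) (h β) σ (k β))
    (fl_seed (sr3a_sm h1.u1) (sr3a_sm h2.u2) (sr3a_sm h3.u3) h1.s1 h2.s2 h3.s3 (σ == a) a))
    fun β => ?_
  obtain ⟨c, hc, e⟩ := sr3a_cw (M := M) (U β) (h β) σ (k β) a
  rw [M.cw_Z, e, map_smul, map_smul, map_smul, map_smul, ← smul_add, norm_smul, hc, one_mul]

theorem sr3a_good (hG : M.Gd G) (h1 : M.E1 U h σ k) (h2 : M.E2 U h σ k) (h3 : M.E3 U h σ k) :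
    Sm1 fun β => M.efl (U β) (h β) σ (k β) (M.cw (M.eg (U β) (k β)) (M.mat Zm (G β))) -
      M.mat Zm (M.efl (U β) (h β) σ (k β) (M.cw (M.eg (U β) (k β)) (G β))) := by
  have a1 := fl_good (Gd.gk (hG.mat Zm) fun β => M.eg (U β) (k β)) h1.u1 h2.u2 h3.u3 h1.g1 h2.g2
    h3.u13 h3.g13
  have a2 := fl_good (Gd.gk hG fun β => M.eg (U β) (k β)) h1.u1 h2.u2 h3.u3 h1.g1 h2.g2
    h3.u13 h3.g13
  refine (a1.sub (sr3a_Z (M := M) a2)).congr_left fun β => ?_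
  simp only [map_sub, M.cw_Z, efl]
  abel

theorem sr3a_alg (U V : K ≃ₗᵢ[ℂ] K) (G S y : K) (β s : ℝ) :
    (U.trans V).symm ((V (M.mat Zm G) - M.mat Zm (V G)) +
        (V (M.mat Zm (U M.vac - G - (β : ℂ) • S)) - M.mat Zm (V (U M.vac - G - (β : ℂ) • S))) -
        (β : ℂ) • (V (M.mat Zm S) + M.mat Zm (V S))) +
      (β : ℂ) • (2 : ℂ) • (U.symm (M.mat Zm S) - (s : ℂ) • y) =
    M.zed U - M.zed (U.trans V) - ((2 * β * s : ℝ) : ℂ) • y := by
  simp only [zed, LinearIsometryEquiv.symm_trans, LinearIsometryEquiv.trans_apply, map_add, map_sub,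
    map_smul, LinearIsometryEquiv.symm_apply_apply, Complex.ofReal_mul, Complex.ofReal_ofNat]
  module

theorem Dat.mode_change (hD : M.Dat τ T U x σ h ω G μ) (h1 : M.E1 U h σ k) (h2 : M.E2 U h σ k)
    (h3 : M.E3 U h σ k) : Sm1 fun β => M.zed (U β) - M.ez4 (U β) (h β) σ (k β) -
      ((2 * β * sg σ : ℝ) : ℂ) • M.y0 τ β := by
  obtain ⟨V, hV⟩ : ∃ V : ℝ → K ≃ₗᵢ[ℂ] K, ∀ β, V β =
    (M.cw (M.eg (U β) (k β))).trans (M.efl (U β) (h β) σ (k β)) := ⟨_, fun _ => rfl⟩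
  have a1 : Sm1 fun β => V β (M.mat Zm (G β)) - M.mat Zm (V β (G β)) := by
    simp only [hV, LinearIsometryEquiv.trans_apply]
    exact sr3a_good hD.good h1 h2 h3
  have a2 := (sr3a_iso V (sr3a_Z (M := M) hD.dec)).sub (sr3a_Z (M := M) (sr3a_iso V hD.dec))
  have a3 : Sm fun β => V β (M.mat Zm (∑ a, μ a β • M.sd σ (h β) a)) +
      M.mat Zm (V β (∑ a, μ a β • M.sd σ (h β) a)) := by
    refine (IsLittleO.sum (s := Finset.univ) fun a _ =>
      sr3a_bd (hD.bd a) (sr3a_seed h1 h2 h3 a)).congr_left fun β => ?_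
    simp only [hV, LinearIsometryEquiv.trans_apply, map_sum, map_smul, smul_add,
      Finset.sum_apply, Finset.sum_add_distrib]
  refine ((sr3a_iso (fun β => ((U β).trans (V β)).symm) ((a1.add a2).sub (sr3a_mul a3))).add
    (sr3a_mul (hD.mode.const_smul_left (2 : ℂ)))).congr_left fun β => ?_
  rw [ez4, ← LinearIsometryEquiv.trans_assoc, ← hV, Pi.smul_apply]
  exact sr3a_alg (U β) (V β) _ _ _ β (sg σ)

end Mdl

end Vale.Agent.P367S
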