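import Vale.Agent.P367S.SStep

/-! The echo which simulates the random field gate. -/

open scoped InnerProductSpace Topology Matrix
open Filter Asymptotics

noncomputable section

namespace Vale.Agent.P367S

namespace Mdl

variable {H K : Type} [NormedAddCommGroup H] [InnerProductSpace ℂ H]
  [SeminormedAddCommGroup K] [InnerProductSpace ℂ K] (M : Mdl H K)

variable (U : K ≃ₗᵢ[ℂ] K) (h : H) (σ : Bool) (k : ℝ)

def eg : H := (k : ℂ) • M.io (M.zed U)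

def hin : H := h - (sg σ : ℂ) • M.eg U k

def ef1 : H := M.io (M.zed ((U.trans (M.cw (M.eg U k))).trans (M.bx (Real.pi / 8))))

def ea1 : ℝ := Real.pi / (4 * (⟪M.ef1 U k, M.hin U h σ k⟫_ℂ).im)

def eu1 : H := (M.ea1 U h σ k : ℂ) • M.ef1 U k

def eU2 : K ≃ₗᵢ[ℂ] K := (U.trans (M.cw (M.eg U k))).trans (M.wk (M.eu1 U h σ k))

def ef2 : H := M.io (M.zed (M.eU2 U h σ k))

def ea2 : ℝ := Real.pi / (4 * (⟪M.ef2 U h σ k, M.hin U h σ k⟫_ℂ).im)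

def eu2 : H := (M.ea2 U h σ k : ℂ) • M.ef2 U h σ k

def ef3 : H :=
  M.io (M.zed (((M.eU2 U h σ k).trans (M.cw (M.eu2 U h σ k))).trans (M.bx (Real.pi / 8))))

def eu3 : H := (M.ea1 U h σ k : ℂ) • M.ef3 U h σ k

def efl : K ≃ₗᵢ[ℂ] K := M.fl (M.eu1 U h σ k) (M.eu2 U h σ k) (M.eu3 U h σ k)

def ez4 : K := M.zed ((U.trans (M.cw (M.eg U k))).trans (M.efl U h σ k))

def eW : K ≃ₗᵢ[ℂ] K :=
  ((M.cw (M.eg U k)).trans (M.efl U h σ k)).trans (M.cw (((-k : ℝ) : ℂ) • M.io (M.ez4 U h σ k)))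

/-- the strength of the echo -/
def ek (t : ℝ) (σ : Bool) (β : ℝ) : ℝ := t * sg σ / (2 * β)

/-- facts on the first weak gate -/
structure E1 (U : ℝ → K ≃ₗᵢ[ℂ] K) (h : ℝ → H) (σ : Bool) (k : ℝ → ℝ) : Prop where
  big : ∃ c, 0 < c ∧ ∀ᶠ β in l0, c / β ≤ ‖M.eg (U β) (k β)‖
  kb : Bd fun β => β * k β
  hb : Bd fun β => (β : ℂ) • M.hin (U β) (h β) σ (k β)
  lim : ∃ r : ℝ, r ≠ 0 ∧
    Tendsto (fun β => β * (⟪M.io (M.zed (U β)), M.hin (U β) (h β) σ (k β)⟫_ℂ).im) l0 (𝓝 r)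
  a1 : O1 fun β => M.ea1 (U β) (h β) σ (k β)
  u1 : O1 fun β => M.eu1 (U β) (h β) σ (k β)
  g1 : O1 fun β => (⟪M.eu1 (U β) (h β) σ (k β), M.eg (U β) (k β)⟫_ℂ).im
  s1 : Tendsto (fun β => (⟪M.eu1 (U β) (h β) σ (k β), M.hin (U β) (h β) σ (k β)⟫_ℂ).im) l0
    (𝓝 (Real.pi / 4))

/-- facts on the second weak gate -/
structure E2 (U : ℝ → K ≃ₗᵢ[ℂ] K) (h : ℝ → H) (σ : Bool) (k : ℝ → ℝ) : Prop where
  u2 : O1 fun β => M.eu2 (U β) (h β) σ (k β)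
  g2 : O1 fun β => (⟪M.eu2 (U β) (h β) σ (k β), M.eg (U β) (k β)⟫_ℂ).im
  s2 : Tendsto (fun β => (⟪M.eu2 (U β) (h β) σ (k β), M.hin (U β) (h β) σ (k β)⟫_ℂ).im) l0
    (𝓝 (Real.pi / 4))

/-- facts on the third weak gate -/
structure E3 (U : ℝ → K ≃ₗᵢ[ℂ] K) (h : ℝ → H) (σ : Bool) (k : ℝ → ℝ) : Prop where
  u3 : O1 fun β => M.eu3 (U β) (h β) σ (k β)
  u13 : Sm1 fun β => M.eu1 (U β) (h β) σ (k β) - M.eu3 (U β) (h β) σ (k β)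
  g13 : Sm1 fun β =>
    (⟪M.eu1 (U β) (h β) σ (k β) - M.eu3 (U β) (h β) σ (k β), M.eg (U β) (k β)⟫_ℂ).im
  s3 : Tendsto (fun β => (⟪M.eu3 (U β) (h β) σ (k β), M.hin (U β) (h β) σ (k β)⟫_ℂ).im) l0
    (𝓝 (Real.pi / 4))

end Mdl

end Vale.Agent.P367S
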