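import Vale.Agent.P367S.SStep0

/-! One step of the simulation. Hints: `TC.gd`: `hT.good`, convergent functions are bounded.
`Pres.step`: for `y ∈ T` take a good `G` close to `y`; `ω' • W y` is close to `V y`; for the inverse
apply this to `V⁻¹ y`. `Dat.step`: the new seed coefficients are `μ' (a ^^ fl) = μ a * ν a`; `W`
commutes with `Z` on the seed components up to the sign `sg (!fl)` and `o(1)`. -/

open scoped InnerProductSpace Topology Matrix
open Filter Asymptotics

noncomputable section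

namespace Vale.Agent.P367S

namespace Mdl

variable {H K : Type} [NormedAddCommGroup H] [InnerProductSpace ℂ H]
  [SeminormedAddCommGroup K] [InnerProductSpace ℂ K] {M : Mdl H K}

variable {τ : ℝ} {T : Set (ℝ → K)}
  {U W V : ℝ → K ≃ₗᵢ[ℂ] K} {x x' y G : ℝ → K} {σ : Bool} {h h' : ℝ → H} {ω ω' : ℝ → ℂ}
  {μ : Bool → ℝ → ℂ}

omit [InnerProductSpace ℂ H] [NormedAddCommGroup H] in
theorem sstep_iso (V : ℝ → K ≃ₗᵢ[ℂ] K) {g : ℝ → ℝ} (hx : x =o[l0] g) :
    (fun β => V β (x β)) =o[l0] g :=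
  (hx.norm_left.congr_left fun β => ((V β).norm_map (x β)).symm).of_norm_left

omit [InnerProductSpace ℂ H] [NormedAddCommGroup H] in
theorem sstep_smul {c : ℝ → ℂ} (hc : Bd c) (hx : Sm x) : Sm fun β => c β • x β := by
  simpa only [smul_eq_mul, mul_one] using hc.smul_isLittleO hx

theorem sstep_sg (a fl : Bool) : (sg (a ^^ fl) : ℂ) = sg (!fl) * sg a := by
  cases a <;> cases fl <;> simp [sg]

theorem sstep_sum {E : Type} [AddCommMonoid E] (fl : Bool) (f : Bool → Bool → E) :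
    ∑ a, f (a ^^ fl) a = ∑ a, f a (a ^^ fl) := by
  cases fl <;> simp [add_comm]

theorem Dat.step (hD : M.Dat τ T U x σ h ω G μ)
    (hp : ∀ β, 0 < β → ∃ L : List Gate, (∀ g ∈ L, g.Plain) ∧ (U β).trans (W β) = M.run (U β) L)
    (hP : Pres T ω' fun β => (U β).trans (W β))
    (h1 : ∀ G, M.Gd G → ∃ G', M.Gd G' ∧ Sm1 fun β => W β (G β) - G' β) (fl : Bool)
    {ν : Bool → ℝ → ℂ} (hν : ∀ a, Bd (ν a))
    (h2 : ∀ a, Sm fun β => W β (M.sd σ (h β) a) - ν a β • M.sd (σ ^^ fl) (h' β) (a ^^ fl))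
    (hx : x' ∈ T) (h3 : Sm fun β => (β : ℂ) • h' β + M.io (x' β)) :
    ∃ G' μ', M.Dat τ T (fun β => (U β).trans (W β)) x' (σ ^^ fl) h' ω' G' μ' := by
  obtain ⟨G', hG', hG⟩ := h1 G hD.good
  have hb : ∀ a, Bd fun β => μ a β * ν a β := fun a => by
    simpa only [mul_one] using (hD.bd a).mul (hν a)
  have hs : ∀ β, ∑ a, (μ (a ^^ fl) β * ν (a ^^ fl) β) • M.sd (σ ^^ fl) (h' β) a =
      ∑ a, (μ a β * ν a β) • M.sd (σ ^^ fl) (h' β) (a ^^ fl) := fun β =>
    sstep_sum fl fun a a' => (μ a β * ν a β) • M.sd (σ ^^ fl) (h' β) a'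
  have hR : ∀ a, Sm fun β => μ a β •
      (W β (M.sd σ (h β) a) - ν a β • M.sd (σ ^^ fl) (h' β) (a ^^ fl)) := fun a =>
    sstep_smul (hD.bd a) (h2 a)
  refine ⟨G', fun a β => μ (a ^^ fl) β * ν (a ^^ fl) β, fun β hβ => ?_, hP, hG',
    fun a => hb _, ?_, ?_, hx, h3⟩
  · obtain ⟨L, hL, hU⟩ := hD.plain β hβ
    obtain ⟨L', hL', hW⟩ := hp β hβ
    refine ⟨L ++ L', fun g hg => (List.mem_append.1 hg).elim (hL g) (hL' g), ?_⟩
    rw [run_append, ← hU, hW]
  · have h4 : (fun β : ℝ => (β : ℂ)) =O[l0] fun β => β :=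
      IsBigO.of_bound 1 (Eventually.of_forall fun β => by simp)
    have h5 := h4.smul_isLittleO ((hR true).add (hR false))
    simp only [smul_eq_mul (α := ℝ), mul_one] at h5
    refine (((sstep_iso W hD.dec).add hG).add h5).congr_left fun β => ?_
    simp only [hs]
    simp only [LinearIsometryEquiv.trans_apply, Fintype.sum_bool, map_sub, map_add, map_smul]
    module
  · have h4 := ((hR true).const_smul_left (sg true : ℂ)).add
      ((hR false).const_smul_left (sg false : ℂ))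
    have h5 := (hD.mode.sub (sstep_iso (fun β => (U β).symm)
      (sstep_iso (fun β => (W β).symm) h4))).const_smul_left (sg (!fl) : ℂ)
    refine h5.congr_left fun β => ?_
    simp only [hs]
    have h6 : ∀ z, ((U β).trans (W β)).symm z = (U β).symm ((W β).symm z) := fun _ => rfl
    simp only [Pi.smul_apply, h6, Fintype.sum_bool, map_sub, map_add, map_smul, sd, Z_co,
      LinearIsometryEquiv.symm_apply_apply, sstep_sg]
    module

end Mdl

end Vale.Agent.P367S
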