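import Vale.Agent.P367S.SFl
import Vale.Agent.P367S.SCls

/-! One step of the simulation. Hints: `TC.gd`: `hT.good`, convergent functions are bounded.
`Pres.step`: for `y ∈ T` take a good `G` close to `y`; `ω' • W y` is close to `V y`; for the inverse
apply this to `V⁻¹ y`. `Dat.step`: the new seed coefficients are `μ' (a ^^ fl) = μ a * ν a`; `W`
commutes with `Z` on the seed components up to the sign `sg (!fl)` and `o(1)`. -/

open scoped InnerProductSpace Topology Matrix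
open Filter Asymptotics

noncomputable section

namespace Vale.Agent.P367S

namespace Mdl

variable {H K : Type} [NormedAddCommGroup H] [InnerProductSpace ℂ H]
  [SeminormedAddCommGroup K] [InnerProductSpace ℂ K] {M : Mdl H K}

variable {τ : ℝ} {T : Set (ℝ → K)} (hT : M.TC Ac (Nc K) (M.dm τ) T)
  {U W V : ℝ → K ≃ₗᵢ[ℂ] K} {x x' y G : ℝ → K} {σ : Bool} {h h' : ℝ → H} {ω ω' : ℝ → ℂ}
  {μ : Bool → ℝ → ℂ}

theorem sstep0_bd {E : Type} [SeminormedAddCommGroup E] [InnerProductSpace ℂ E] {z : ℝ → E}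
    (hz : (fun β => ⟪z β, z β⟫_ℂ) ∈ Ac) : Bd z := by
  obtain ⟨C, hC⟩ := (Tendsto.isBigO_one ℝ hz).bound
  refine IsBigO.of_bound (C + 1) ?_
  filter_upwards [hC] with β hβ
  rw [inner_self_eq_norm_sq_to_K, norm_pow, RCLike.norm_ofReal, sq_abs] at hβ
  rw [norm_one, mul_one] at hβ ⊢
  nlinarith [sq_nonneg (‖z β‖ - 1), norm_nonneg (z β)]

theorem sstep0_const (c : ℂ) : (fun _ : ℝ => c) ∈ Ac := tendsto_const_nhds

theorem sstep0_ne {ω : ℝ → ℂ} (h : ∀ β, ‖ω β‖ = 1) (β : ℝ) : ω β ≠ 0 := fun h0 => by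
  have h1 := h β
  rw [h0, norm_zero] at h1
  exact zero_ne_one h1

include hT

theorem TC.gd (hx : x ∈ T) : ∃ G, M.Gd G ∧ Sm fun β => x β - G β := by
  obtain ⟨G, hG, hn⟩ := hT.good x hx
  exact ⟨G, hG.mono (fun _ hμ => Tendsto.isBigO_one ℝ hμ) fun _ hh => sstep0_bd hh, hn.2⟩

theorem TC.bd (hx : x ∈ T) : Bd x := by
  exact sstep0_bd (hT.inner x hx x hx)

theorem TC.congr (hx : x ∈ T) (h0 : y 0 = x 0) (hs : Sm fun β => y β - x β) : y ∈ T := by
  have h1 := hT.neg x hx (fun β => y β - x β) ⟨sub_eq_zero.2 h0, hs⟩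
  simpa only [add_sub_cancel] using h1

theorem TC.bx (θ : ℝ) (hx : x ∈ T) : (fun β => M.bx θ (x β)) ∈ T := by
  simpa only [M.bx_eq] using hT.mat (bM θ) x hx

theorem TC.cw_io (γ : ℝ) (hx : x ∈ T) (hy : y ∈ T) :
    (fun β => M.cw ((γ : ℂ) • M.io (x β)) (y β)) ∈ T := by
  have h1 := hT.cw _ (hT.smul _ (sstep0_const γ) x hx) _ (sstep0_const 0) y hy
  simpa only [zero_smul, add_zero, map_smul] using h1

theorem TC.cw_d (t : ℝ) (hy : y ∈ T) : (fun β => M.cw ((t : ℂ) • M.dm τ β) (y β)) ∈ T := by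
  have h1 := hT.cw _ (hT.smul _ (sstep0_const 0) _ hT.vac) _ (sstep0_const t) y hy
  simpa only [zero_smul, zero_add, map_zero] using h1

theorem TC.tendsto (hx : x ∈ T) (hy : y ∈ T) :
    Tendsto (fun β => ⟪x β, y β⟫_ℂ) l0 (𝓝 ⟪x 0, y 0⟫_ℂ) := by
  exact hT.inner x hx y hy

theorem Pres.conj (hU : Pres T ω U) (A : M2) : (fun β => (U β).symm (M.mat A (U β M.vac))) ∈ T := by
  have h1 := hU.2.2.2 _ (hT.mat A _ (hU.2.2.1 _ hT.vac))
  simpa only [map_smul, inv_smul_smul₀ (sstep0_ne hU.1 _)] using h1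

theorem Pres.zed (hU : Pres T ω U) : (fun β => M.zed (U β)) ∈ T := by
  exact Pres.conj hT hU Zm

theorem Pres.step (hU : Pres T ω U) (hV : ∀ y ∈ T, (fun β => V β (y β)) ∈ T)
    (hV' : ∀ y ∈ T, (fun β => (V β).symm (y β)) ∈ T) (h1 : ∀ β, ‖ω' β‖ = 1) (h2 : ω' 0 = 1)
    (h0 : W 0 = V 0) (hW : ∀ G, M.Gd G → Sm fun β => ω' β • W β (G β) - V β (G β)) :
    Pres T (fun β => ω' β * ω β) fun β => (U β).trans (W β) := by
  have hA : ∀ z ∈ T, Sm fun β => ω' β • W β (z β) - V β (z β) := by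
    intro z hz
    obtain ⟨G, hG, hs⟩ := hT.gd hz
    have e1 : Sm fun β => ω' β • W β (z β - G β) := by
      refine (IsBigO.of_bound' (Eventually.of_forall fun β => le_of_eq ?_)).trans_isLittleO hs
      rw [norm_smul, h1, one_mul, LinearIsometryEquiv.norm_map]
    have e2 : Sm fun β => V β (z β - G β) := by
      refine (IsBigO.of_bound' (Eventually.of_forall fun β => le_of_eq ?_)).trans_isLittleO hs
      rw [LinearIsometryEquiv.norm_map]
    refine ((e1.add (hW G hG)).sub e2).congr_left fun β => ?_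
    rw [map_sub, map_sub, smul_sub]
    abel
  refine ⟨fun β => by rw [norm_mul, h1, hU.1, one_mul], by simp only [h2, hU.2.1, one_mul],
    fun y hy => ?_, fun y hy => ?_⟩
  · have hz := hU.2.2.1 y hy
    have h3 := hT.congr (y := fun β => ω' β • W β (ω β • U β (y β))) (hV _ hz)
      (by rw [h2, h0, one_smul]) (hA _ hz)
    simpa only [map_smul, smul_smul, LinearIsometryEquiv.trans_apply] using h3
  · have hz := hV' y hy
    have h3 : (fun β => (ω' β)⁻¹ • (W β).symm (y β)) ∈ T := by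
      refine hT.congr hz (by rw [h2, h0, inv_one, one_smul]) ?_
      refine (IsBigO.of_bound' (Eventually.of_forall fun β => le_of_eq ?_)).trans_isLittleO
        (hA _ hz)
      rw [← (W β).norm_map, ← one_mul ‖W β _‖, ← h1 β, ← norm_smul, map_sub, map_smul, smul_sub,
        smul_inv_smul₀ (sstep0_ne h1 β), LinearIsometryEquiv.apply_symm_apply,
        LinearIsometryEquiv.apply_symm_apply, norm_sub_rev]
    have h4 := hU.2.2.2 _ h3
    simpa only [map_smul, smul_smul, mul_inv_rev, LinearIsometryEquiv.symm_trans,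
      LinearIsometryEquiv.trans_apply] using h4

theorem Pres.en (hU : Pres T ω U) : Tendsto (fun β => M.en (U β)) l0 (𝓝 (M.en (U 0))) := by
  have hz := Pres.zed hT hU
  exact (Complex.continuous_re.tendsto _).comp (hT.ann _ hz _ hz)

end Mdl

end Vale.Agent.P367S
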