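import Vale.Agent.P367S.SFm0

/-! Existence of the class `T`. Hints: for a set `S` of families put
`Md S = {β ↦ io (x β) + φ β • d β | x ∈ S, φ ∈ 𝒜}`, `lev 0 = {0}`,
`lev (n + 1) = {y + n | Fm (· ∈ 𝒜) (· ∈ Md (lev n)) y, n ∈ 𝒩}`, `T = ⋃ n, lev n`. Show by induction on
`n`: `lev n ⊆ lev (n + 1)`, `lev n` is closed under sums and multiplication by `𝒜`, and for
`x, y ∈ lev n` the functions `⟪x, y⟫` and `⟪d, io x⟫` are in `𝒜` (so the inner products of members of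
`Md (lev n)` are in `𝒜`; `inner_co`; real and imaginary parts through `conj`,
`‖h‖ ^ 2 = ⟪h, h⟫`). -/

open scoped InnerProductSpace Topology Matrix
open Filter Asymptotics

noncomputable section

namespace Vale.Agent.P367S

namespace Mdl

variable {H K : Type} [NormedAddCommGroup H] [InnerProductSpace ℂ H]
  [SeminormedAddCommGroup K] [InnerProductSpace ℂ K] {M : Mdl H K}

section

variable {𝒜 : Set (ℝ → ℂ)} {𝒩 : Set (ℝ → K)} {d : ℝ → H}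

theorem STc_eq {E : Type} {S : Set (ℝ → E)} {φ ψ : ℝ → E} (h : φ ∈ S) (e : ∀ β, ψ β = φ β) :
    ψ ∈ S := by
  rwa [show ψ = φ from funext e]

theorem STc_fm_eq {P : (ℝ → ℂ) → Prop} {Q : (ℝ → H) → Prop} {x y : ℝ → K} (h : M.Fm P Q x)
    (e : ∀ β, y β = x β) : M.Fm P Q y := by
  rwa [show y = x from funext e]

theorem Cls.STc_sub (h : M.Cls 𝒜 𝒩 d) {φ ψ : ℝ → ℂ} (h1 : φ ∈ 𝒜) (h2 : ψ ∈ 𝒜) :
    (fun β => φ β - ψ β) ∈ 𝒜 :=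
  STc_eq (h.add _ h1 _ (h.mul _ (h.const (-1)) _ h2)) fun β => by ring

theorem Cls.STc_im (h : M.Cls 𝒜 𝒩 d) {φ : ℝ → ℂ} (h1 : φ ∈ 𝒜) :
    (fun β => (((φ β).im : ℝ) : ℂ)) ∈ 𝒜 :=
  STc_eq (h.mul _ (h.STc_sub h1 (h.conj _ h1)) _ (h.const (2 * Complex.I)⁻¹)) fun β => by
    rw [Complex.im_eq_sub_conj, div_eq_mul_inv]

theorem Cls.STc_swap (h : M.Cls 𝒜 𝒩 d) {E : Type} [SeminormedAddCommGroup E]
    [InnerProductSpace ℂ E] {x y : ℝ → E} (h1 : (fun β => ⟪x β, y β⟫_ℂ) ∈ 𝒜) :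
    (fun β => ⟪y β, x β⟫_ℂ) ∈ 𝒜 :=
  STc_eq (h.conj _ h1) fun β => (inner_conj_symm _ _).symm

theorem Cls.STc_co (h : M.Cls 𝒜 𝒩 d) (a b : Bool) {u v : ℝ → H}
    (h1 : (fun β => ⟪u β, v β⟫_ℂ) ∈ 𝒜) (h2 : (fun β => ⟪u β, u β⟫_ℂ) ∈ 𝒜)
    (h3 : (fun β => ⟪v β, v β⟫_ℂ) ∈ 𝒜) : (fun β => ⟪M.co a (u β), M.co b (v β)⟫_ℂ) ∈ 𝒜 := by
  by_cases hab : a = b
  · refine STc_eq (h.exp _ (h.STc_sub (h.STc_sub h1 (h.mul _ h2 _ (h.const 2⁻¹)))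
      (h.mul _ h3 _ (h.const 2⁻¹)))) fun β => ?_
    rw [M.inner_co, if_pos hab, inner_self_eq_norm_sq_to_K, inner_self_eq_norm_sq_to_K]
    push_cast
    rfl
  · exact STc_eq (h.const 0) fun _ => by rw [M.inner_co, if_neg hab]

variable {Q : (ℝ → H) → Prop} {x y : ℝ → K}

theorem Cls.STc_smul (h : M.Cls 𝒜 𝒩 d) (hx : M.Fm (· ∈ 𝒜) Q x) {φ : ℝ → ℂ} (hφ : φ ∈ 𝒜) :
    M.Fm (· ∈ 𝒜) Q fun β => φ β • x β := by
  induction hx with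
  | zero => exact STc_fm_eq .zero fun β => smul_zero _
  | co a hμ hh => exact STc_fm_eq (.co a (h.mul _ hφ _ hμ) hh) fun β => smul_smul _ _ _
  | add _ _ h1 h2 => exact STc_fm_eq (h1.add h2) fun β => smul_add _ _ _

theorem Cls.STc_mat (h : M.Cls 𝒜 𝒩 d) (hx : M.Fm (· ∈ 𝒜) Q x) (A : M2) :
    M.Fm (· ∈ 𝒜) Q fun β => M.mat A (x β) := by
  induction hx with
  | zero => exact STc_fm_eq .zero fun β => map_zero _
  | co a hμ hh =>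
    refine STc_fm_eq ((Fm.co true (h.mul _ hμ _ (h.const (A true a))) hh).add
      (.co false (h.mul _ hμ _ (h.const (A false a))) hh)) fun β => ?_
    rw [map_smul, M.mat_co, Fintype.sum_bool, smul_add, smul_smul, smul_smul]
  | add _ _ h1 h2 => exact STc_fm_eq (h1.add h2) fun β => map_add _ _ _

theorem Cls.STc_cw (h : M.Cls 𝒜 𝒩 d) (hx : M.Fm (· ∈ 𝒜) Q x) {u : ℝ → H}
    (h1 : ∀ v, Q v → (fun β => ⟪u β, v β⟫_ℂ) ∈ 𝒜)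
    (h2 : ∀ v, Q v → ∀ c : ℂ, Q fun β => v β - c • u β) :
    M.Fm (· ∈ 𝒜) Q fun β => M.cw (u β) (x β) := by
  induction hx with
  | zero => exact STc_fm_eq .zero fun β => map_zero _
  | co a hμ hh =>
    refine STc_fm_eq (Fm.co a (h.mul _ hμ _ (h.exp _ (h.mul _ (h.const Complex.I) _
      (h.mul _ (h.const (sg a)) _ (h.STc_im (h1 _ hh)))))) (h2 _ hh (sg a))) fun β => ?_
    rw [map_smul, M.cw_co, smul_smul, Complex.ofReal_mul]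
  | add _ _ h1 h2 => exact STc_fm_eq (h1.add h2) fun β => map_add _ _ _

theorem Cls.STc_inner (h : M.Cls 𝒜 𝒩 d) (hQ : ∀ u v, Q u → Q v → (fun β => ⟪u β, v β⟫_ℂ) ∈ 𝒜)
    (hx : M.Fm (· ∈ 𝒜) Q x) (hy : M.Fm (· ∈ 𝒜) Q y) : (fun β => ⟪x β, y β⟫_ℂ) ∈ 𝒜 := by
  induction hx with
  | zero => exact STc_eq (h.const 0) fun β => inner_zero_left _
  | co a hμ hh =>
    induction hy with
    | zero => exact STc_eq (h.const 0) fun β => inner_zero_right _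
    | co b hν hk =>
      refine STc_eq (h.mul _ (h.conj _ hμ) _ (h.mul _ hν _
        (h.STc_co a b (hQ _ _ hh hk) (hQ _ _ hh hh) (hQ _ _ hk hk)))) fun β => ?_
      rw [inner_smul_left, inner_smul_right]
    | add _ _ h1 h2 => exact STc_eq (h.add _ h1 _ h2) fun β => inner_add_right _ _ _
  | add _ _ h1 h2 => exact STc_eq (h.add _ h1 _ h2) fun β => inner_add_left _ _ _

theorem Cls.STc_d (h : M.Cls 𝒜 𝒩 d) (hQ : ∀ u v, Q u → Q v → (fun β => ⟪u β, v β⟫_ℂ) ∈ 𝒜)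
    (hx : M.Fm (· ∈ 𝒜) Q x) : (fun β => ⟪d β, M.io (x β)⟫_ℂ) ∈ 𝒜 := by
  induction hx with
  | zero => exact STc_eq (h.const 0) fun β => by rw [map_zero, inner_zero_right]
  | co a hμ hh =>
    exact STc_eq (h.mul _ hμ _ (h.d_co a _ (hQ _ _ hh hh))) fun β => by
      rw [map_smul, inner_smul_right]
  | add _ _ h1 h2 => exact STc_eq (h.add _ h1 _ h2) fun β => by rw [map_add, inner_add_right]

theorem Cls.STc_vac (h : M.Cls 𝒜 𝒩 d) (h0 : Q fun _ => 0) : M.Fm (· ∈ 𝒜) Q fun _ => M.vac :=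
  STc_fm_eq ((Fm.co true (h.const _) h0).add (.co false (h.const _) h0)) fun _ => smul_add _ _ _

theorem Cls.STc_ann (h : M.Cls 𝒜 𝒩 d) (hQ : ∀ u v, Q u → Q v → (fun β => ⟪u β, v β⟫_ℂ) ∈ 𝒜)
    (h0 : Q fun _ => 0) (hx : M.Fm (· ∈ 𝒜) Q x) {u : ℝ → H} (hu : Q u) :
    (fun β => ⟪M.ann (u β) (x β), M.vac⟫_ℂ) ∈ 𝒜 := by
  induction hx with
  | zero => exact STc_eq (h.const 0) fun β => by rw [map_zero, inner_zero_left]
  | co a hμ hh =>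
    refine STc_eq (h.STc_inner hQ (Fm.co a (h.mul _ hμ _ (h.mul _ (h.const Complex.I) _
      (hQ _ _ hu hh))) hh) (h.STc_vac h0)) fun β => ?_
    rw [map_smul, M.ann_co, smul_smul]
  | add _ _ h1 h2 => exact STc_eq (h.add _ h1 _ h2) fun β => by rw [map_add, inner_add_left]

variable (M 𝒜 𝒩 d) in
/-- the modes of a set of families -/
def STcMd (S : Set (ℝ → K)) (u : ℝ → H) : Prop :=
  ∃ x ∈ S, ∃ φ ∈ 𝒜, ∀ β, u β = M.io (x β) + φ β • d β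

variable (M 𝒜 𝒩 d) in
/-- the next level -/
def STcNx (S : Set (ℝ → K)) : Set (ℝ → K) :=
  {z | ∃ y, M.Fm (· ∈ 𝒜) (M.STcMd 𝒜 d S) y ∧ ∃ n ∈ 𝒩, ∀ β, z β = y β + n β}

variable (M 𝒜 𝒩 d) in
/-- the levels -/
def STcLev : ℕ → Set (ℝ → K)
  | 0 => {fun _ => 0}
  | n + 1 => M.STcNx 𝒜 𝒩 d (STcLev n)

variable (M 𝒜 d) in
/-- the invariant of the levels -/
structure STcOk (S : Set (ℝ → K)) : Prop where
  zero : (fun _ => 0) ∈ S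
  add : ∀ x ∈ S, ∀ y ∈ S, (fun β => x β + y β) ∈ S
  smul : ∀ φ ∈ 𝒜, ∀ x ∈ S, (fun β => φ β • x β) ∈ S
  inner : ∀ x ∈ S, ∀ y ∈ S, (fun β => ⟪x β, y β⟫_ℂ) ∈ 𝒜
  dio : ∀ x ∈ S, (fun β => ⟪d β, M.io (x β)⟫_ℂ) ∈ 𝒜

variable {S S' : Set (ℝ → K)}

theorem Cls.STc_md_inner (h : M.Cls 𝒜 𝒩 d) (hS : M.STcOk 𝒜 d S) (u v : ℝ → H)
    (hu : M.STcMd 𝒜 d S u) (hv : M.STcMd 𝒜 d S v) : (fun β => ⟪u β, v β⟫_ℂ) ∈ 𝒜 := by
  obtain ⟨x, hx, φ, hφ, e⟩ := hu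
  obtain ⟨y, hy, ψ, hψ, e'⟩ := hv
  refine STc_eq (h.add _ (h.add _ (hS.inner x hx y hy) _ (h.mul _ hψ _ (h.STc_swap (hS.dio x hx))))
    _ (h.mul _ (h.conj _ hφ) _ (h.add _ (hS.dio y hy) _ (h.mul _ hψ _ h.dd)))) fun β => ?_
  rw [e, e', inner_add_left, inner_smul_left, inner_add_right, inner_add_right, inner_smul_right,
    inner_smul_right, M.io.inner_map_map]

theorem Cls.STc_md_io (h : M.Cls 𝒜 𝒩 d) (hx : x ∈ S) : M.STcMd 𝒜 d S fun β => M.io (x β) :=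
  ⟨x, hx, _, h.const 0, fun β => by rw [zero_smul, add_zero]⟩

theorem Cls.STc_md_zero (h : M.Cls 𝒜 𝒩 d) (hS : M.STcOk 𝒜 d S) : M.STcMd 𝒜 d S fun _ => 0 :=
  ⟨_, hS.zero, _, h.const 0, fun β => by rw [zero_smul, add_zero, map_zero]⟩

theorem Cls.STc_md_sub (h : M.Cls 𝒜 𝒩 d) (hS : M.STcOk 𝒜 d S) {u : ℝ → H}
    (hu : M.STcMd 𝒜 d S u) (v : ℝ → H) (hv : M.STcMd 𝒜 d S v) (c : ℂ) :
    M.STcMd 𝒜 d S fun β => v β - c • u β := by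
  obtain ⟨x, hx, φ, hφ, e⟩ := hu
  obtain ⟨y, hy, ψ, hψ, e'⟩ := hv
  refine ⟨_, hS.add y hy _ (hS.smul _ (h.const (-c)) x hx), _,
    h.STc_sub hψ (h.mul _ (h.const c) _ hφ), fun β => ?_⟩
  simp only [e, e', map_add, map_smul]
  module

theorem STc_nx_mono (hS : S ⊆ S') : M.STcNx 𝒜 𝒩 d S ⊆ M.STcNx 𝒜 𝒩 d S' := by
  rintro z ⟨y, hy, hn⟩
  exact ⟨y, hy.mono (fun _ h => h) fun u ⟨x, hx, h⟩ => ⟨x, hS hx, h⟩, hn⟩

theorem Cls.STc_nx_zero (h : M.Cls 𝒜 𝒩 d) : (fun _ => 0) ∈ M.STcNx 𝒜 𝒩 d S :=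
  ⟨_, .zero, _, h.n_zero, fun _ => (add_zero _).symm⟩

theorem Cls.STc_nx (h : M.Cls 𝒜 𝒩 d) (hS : M.STcOk 𝒜 d S) : M.STcOk 𝒜 d (M.STcNx 𝒜 𝒩 d S) := by
  have hQ := h.STc_md_inner hS
  refine ⟨h.STc_nx_zero, ?_, ?_, ?_, ?_⟩
  · rintro x ⟨y, hy, n, hn, e⟩ x' ⟨y', hy', n', hn', e'⟩
    exact ⟨_, hy.add hy', _, h.n_add n hn n' hn', fun β => by
      beta_reduce; rw [e, e', add_add_add_comm]⟩
  · rintro φ hφ x ⟨y, hy, n, hn, e⟩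
    exact ⟨_, h.STc_smul hy hφ, _, h.n_smul φ hφ n hn, fun β => by beta_reduce; rw [e, smul_add]⟩
  · rintro x ⟨y, hy, n, hn, e⟩ x' ⟨y', hy', n', hn', e'⟩
    refine STc_eq (h.add _ (h.add _ (h.STc_inner hQ hy hy') _
      (h.STc_swap (h.n_inner n' hn' y (h.STc_inner hQ hy hy)))) _
      (h.add _ (h.n_inner n hn y' (h.STc_inner hQ hy' hy')) _ (h.n_self n hn n' hn'))) fun β => ?_
    rw [e, e', inner_add_left, inner_add_right, inner_add_right]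
  · rintro x ⟨y, hy, n, hn, e⟩
    exact STc_eq (h.add _ (h.STc_d hQ hy) _ (h.n_d n hn)) fun β => by
      rw [e, map_add, inner_add_right]

theorem Cls.STc_ok (h : M.Cls 𝒜 𝒩 d) (n : ℕ) : M.STcOk 𝒜 d (M.STcLev 𝒜 𝒩 d n) := by
  induction n with
  | zero =>
    refine ⟨rfl, ?_, ?_, ?_, ?_⟩
    · rintro _ rfl _ rfl
      exact funext fun _ => add_zero _
    · rintro φ _ _ rfl
      exact funext fun _ => smul_zero _
    · rintro _ rfl _ rfl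
      exact STc_eq (h.const 0) fun β => inner_zero_left _
    · rintro _ rfl
      exact STc_eq (h.const 0) fun β => by rw [map_zero, inner_zero_right]
  | succ n ih => exact h.STc_nx ih

theorem Cls.STc_mono (h : M.Cls 𝒜 𝒩 d) : Monotone (M.STcLev 𝒜 𝒩 d) := by
  refine monotone_nat_of_le_succ fun n => ?_
  induction n with
  | zero =>
    rintro _ rfl
    exact h.STc_nx_zero
  | succ n ih => exact STc_nx_mono ih

theorem Cls.STc_two (h : M.Cls 𝒜 𝒩 d) (hx : x ∈ ⋃ n, M.STcLev 𝒜 𝒩 d n)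
    (hy : y ∈ ⋃ n, M.STcLev 𝒜 𝒩 d n) :
    ∃ n, x ∈ M.STcLev 𝒜 𝒩 d n ∧ y ∈ M.STcLev 𝒜 𝒩 d n ∧ y ∈ M.STcLev 𝒜 𝒩 d (n + 1) := by
  obtain ⟨n, hn⟩ := Set.mem_iUnion.1 hx
  obtain ⟨m, hm⟩ := Set.mem_iUnion.1 hy
  exact ⟨max n m, h.STc_mono (le_max_left _ _) hn, h.STc_mono (le_max_right _ _) hm,
    h.STc_mono ((le_max_right _ _).trans (Nat.le_succ _)) hm⟩

end

theorem Cls.exists_TC {𝒜 : Set (ℝ → ℂ)} {𝒩 : Set (ℝ → K)} {d : ℝ → H} (h : M.Cls 𝒜 𝒩 d) :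
    ∃ T, M.TC 𝒜 𝒩 d T := by
  refine ⟨⋃ n, M.STcLev 𝒜 𝒩 d n, ?_, fun x hx y hy => ?_, fun φ hφ x hx => ?_, fun A x hx => ?_,
    fun x hx φ hφ y hy => ?_, fun x hx m hm => ?_, fun x hx y hy => ?_, fun x hx y hy => ?_,
    fun x hx => ?_⟩
  · exact Set.mem_iUnion.2 ⟨1, _, h.STc_vac (h.STc_md_zero (h.STc_ok 0)), _, h.n_zero,
      fun _ => (add_zero _).symm⟩
  · obtain ⟨n, h1, h2, -⟩ := h.STc_two hx hy
    exact Set.mem_iUnion.2 ⟨n, (h.STc_ok n).add x h1 y h2⟩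
  · obtain ⟨n, h1, -, -⟩ := h.STc_two hx hx
    exact Set.mem_iUnion.2 ⟨n, (h.STc_ok n).smul φ hφ x h1⟩
  · obtain ⟨n, -, -, z, hz, m, hm, e⟩ := h.STc_two hx hx
    exact Set.mem_iUnion.2 ⟨n + 1, _, h.STc_mat hz A, _, h.n_mat A m hm, fun β => by
      beta_reduce; rw [e, map_add]⟩
  · obtain ⟨n, h1, -, z, hz, m, hm, e⟩ := h.STc_two hx hy
    have hu : M.STcMd 𝒜 d (M.STcLev 𝒜 𝒩 d n) fun β => M.io (x β) + φ β • d β :=
      ⟨x, h1, φ, hφ, fun _ => rfl⟩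
    exact Set.mem_iUnion.2 ⟨n + 1, _, h.STc_cw hz (fun v => h.STc_md_inner (h.STc_ok n) _ v hu)
      (h.STc_md_sub (h.STc_ok n) hu), _, h.n_cw (fun β => M.io (x β) + φ β • d β) m hm,
      fun β => by beta_reduce; rw [e, map_add]⟩
  · obtain ⟨n, -, -, z, hz, m', hm', e⟩ := h.STc_two hx hx
    exact Set.mem_iUnion.2 ⟨n + 1, z, hz, _, h.n_add m' hm' m hm, fun β => by
      beta_reduce; rw [e, add_assoc]⟩
  · obtain ⟨n, h1, h2, -⟩ := h.STc_two hx hy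
    exact (h.STc_ok n).inner x h1 y h2
  · obtain ⟨n, h1, -, z, hz, m, hm, e⟩ := h.STc_two hx hy
    have hQ := h.STc_md_inner (h.STc_ok n)
    have hu := h.STc_md_io h1
    exact STc_eq (h.add _ (h.STc_ann hQ (h.STc_md_zero (h.STc_ok n)) hz hu) _
      (h.n_ann m hm _ (hQ _ _ hu hu))) fun β => by rw [e, map_add, inner_add_left]
  · obtain ⟨n, -, -, z, hz, m, hm, e⟩ := h.STc_two hx hx
    exact ⟨z, hz.mono (fun _ h => h) fun u hu => h.STc_md_inner (h.STc_ok n) u u hu hu,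
      STc_eq hm fun β => by rw [e, add_sub_cancel_left]⟩

end Mdl

end Vale.Agent.P367S
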