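import Vale.Agent.P367S.SW0

/-! Estimates for coherent vectors. Hints: `⟪co a h, cw u (co a h)⟫ = exp (2 i s im ⟪u, h⟫ - ‖u‖ ^ 2 / 2)`,
`2 - 2 exp (-t / 2) ≤ t`. `W2_zero`: the square of the norm is a sum of sixteen terms `± exp q` with
`‖q‖ ≤ C δ ^ 2`; the signs and the `± q` sum to zero; `‖exp q - 1 - q‖ ≤ ‖q‖ ^ 2`
(`Complex.norm_exp_sub_one_sub_id_le`, for `δ` small; for `δ` large the bound is trivial). `W2_core`:
`co a h = cw g (co a 0)` with `g = -s h`, and `cw u (cw g x) = exp (i ρ) • cw g (cw u x)` with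
`ρ = -2 im ⟪u, g⟫`; write `exp (i ρ) cw u - 1 = exp (i ρ) (cw u - 1) + (exp (i ρ) - 1)`. `W2`:
`mat A (cw u (co a h) - co a h) = ∑ b, A b a • (cw (s a * s b • u) (co b h) - co b h)`. -/

open scoped InnerProductSpace Topology Matrix
open Filter Asymptotics

noncomputable section

namespace Vale.Agent.P367S

namespace Mdl

variable {H K : Type} [NormedAddCommGroup H] [InnerProductSpace ℂ H]
  [SeminormedAddCommGroup K] [InnerProductSpace ℂ K] (M : Mdl H K)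

theorem W0 (u h : H) (a : Bool) : ‖M.cw u (M.co a h) -
    Complex.exp (Complex.I * (2 * sg a * (⟪u, h⟫_ℂ).im : ℝ)) • M.co a h‖ ≤ ‖u‖ := by
  refine abs_le_of_sq_le_sq' ?_ (norm_nonneg _) |>.2
  rw [norm_sub_rev, norm_sub_sq (𝕜 := ℂ), LinearIsometryEquiv.norm_map, norm_smul, M.norm_co,
    inner_smul_left, SW0_self, ← Complex.exp_conj, ← Complex.exp_add, Complex.norm_exp_I_mul_ofReal]
  have h1 : starRingEnd ℂ (Complex.I * (2 * sg a * (⟪u, h⟫_ℂ).im : ℝ)) +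
      (Complex.I * (2 * sg a * (⟪u, h⟫_ℂ).im : ℝ) - (‖u‖ ^ 2 / 2 : ℝ)) = (-(‖u‖ ^ 2 / 2) : ℝ) := by
    rw [map_mul, Complex.conj_I, Complex.conj_ofReal, Complex.ofReal_neg]
    ring
  rw [h1, ← Complex.ofReal_exp, RCLike.re_to_complex, Complex.ofReal_re]
  linarith [Real.add_one_le_exp (-(‖u‖ ^ 2 / 2))]

theorem SW_phase (x : K) (t : ℝ) : ‖Complex.exp (Complex.I * t) • x - x‖ ≤ |t| * ‖x‖ := by
  have h1 : Complex.exp (Complex.I * t) • x - x = (Complex.exp (Complex.I * t) - 1) • x := by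
    rw [sub_smul, one_smul]
  rw [h1, norm_smul]
  exact mul_le_mul_of_nonneg_right Real.norm_exp_I_mul_ofReal_sub_one_le (norm_nonneg _)

theorem W1 (u h : H) (a : Bool) : ‖M.cw u (M.co a h) - M.co a h‖ ≤ ‖u‖ + 2 * |(⟪u, h⟫_ℂ).im| := by
  have h1 := SW_phase (M.co a h) (2 * sg a * (⟪u, h⟫_ℂ).im)
  rw [M.norm_co, abs_mul, abs_mul, abs_sg, abs_two] at h1
  linarith [M.W0 u h a, norm_sub_le_norm_sub_add_norm_sub (M.cw u (M.co a h))
    (Complex.exp (Complex.I * (2 * sg a * (⟪u, h⟫_ℂ).im : ℝ)) • M.co a h) (M.co a h)]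

theorem SW_comm (u g : H) (x : K) : M.cw u (M.cw g x) =
    Complex.exp (Complex.I * (-2 * (⟪u, g⟫_ℂ).im : ℝ)) • M.cw g (M.cw u x) := by
  rw [M.cw_cw, M.cw_cw, smul_smul, ← Complex.exp_add, add_comm g u, ← inner_conj_symm g u,
    Complex.conj_im]
  congr 2
  push_cast
  ring

theorem W2_core : ∃ C : ℝ, ∀ (u v h : H) (a : Bool) (δ : ℝ), ‖u‖ ≤ δ → ‖v‖ ≤ δ →
    |(⟪u, h⟫_ℂ).im| ≤ δ → |(⟪v, h⟫_ℂ).im| ≤ δ →
    ‖M.cw v (M.cw u (M.co a h) - M.co a h) - (M.cw u (M.co a h) - M.co a h)‖ ≤ C * δ ^ 2 := by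
  obtain ⟨C, hC⟩ := M.W2_zero
  refine ⟨C + 8, fun u v h a δ hu hv hu' hv' => ?_⟩
  have hδ : 0 ≤ δ := (norm_nonneg _).trans hu
  have h0 : M.co a h = M.cw (-((sg a : ℂ) • h)) (M.co a 0) := by
    rw [SW0_cw, smul_neg, neg_neg, smul_smul, ← Complex.ofReal_mul, sg_sq, Complex.ofReal_one,
      one_smul]
  have hρ : ∀ w : H, |(⟪w, h⟫_ℂ).im| ≤ δ → |-2 * (⟪w, -((sg a : ℂ) • h)⟫_ℂ).im| ≤ 2 * δ := by
    intro w hw
    rw [inner_neg_right, inner_smul_right, Complex.neg_im, Complex.im_ofReal_mul, abs_mul, abs_neg,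
      abs_neg, abs_mul, abs_sg, abs_two]
    linarith
  have hρu := hρ u hu'
  have hρv := hρ v hv'
  have hW : ∀ w : H, ‖w‖ ≤ δ → ‖M.cw w (M.co a 0) - M.co a 0‖ ≤ δ := by
    intro w hw
    have := M.W1 w 0 a
    simp only [inner_zero_right, Complex.zero_im, abs_zero, mul_zero, add_zero] at this
    exact this.trans hw
  rw [h0]
  generalize -((sg a : ℂ) • h) = g at *
  rw [M.SW_comm u g, ← map_smul, ← map_sub, M.SW_comm v g, ← map_smul, ← map_sub,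
    LinearIsometryEquiv.norm_map]
  generalize (-2 * (⟪u, g⟫_ℂ).im : ℝ) = ρ at *
  generalize (-2 * (⟪v, g⟫_ℂ).im : ℝ) = ρ' at *
  have hp : ‖Complex.exp (Complex.I * ρ) - 1‖ ≤ 2 * δ :=
    Real.norm_exp_I_mul_ofReal_sub_one_le.trans hρu
  have hq : ‖Complex.exp (Complex.I * ρ') - 1‖ ≤ 2 * δ :=
    Real.norm_exp_I_mul_ofReal_sub_one_le.trans hρv
  have hp1 := Complex.norm_exp_I_mul_ofReal ρ
  have hq1 := Complex.norm_exp_I_mul_ofReal ρ'
  generalize Complex.exp (Complex.I * ρ) = p at *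
  generalize Complex.exp (Complex.I * ρ') = q at *
  have h1 : q • M.cw v (p • M.cw u (M.co a 0) - M.co a 0) - (p • M.cw u (M.co a 0) - M.co a 0) =
      (q * p) • (M.cw v (M.cw u (M.co a 0) - M.co a 0) - (M.cw u (M.co a 0) - M.co a 0)) +
      (q * (p - 1)) • (M.cw v (M.co a 0) - M.co a 0) +
      ((q - 1) * p) • (M.cw u (M.co a 0) - M.co a 0) + ((q - 1) * (p - 1)) • M.co a 0 := by
    simp only [map_sub, map_smul]
    module
  rw [h1]
  refine (norm_add_le _ _).trans ((add_le_add_left norm_add₃_le _).trans ?_)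
  simp only [norm_smul, norm_mul, hp1, hq1, one_mul, mul_one, M.norm_co]
  have h2 := mul_le_mul hp (hW v hv) (norm_nonneg _) (by positivity)
  have h3 := mul_le_mul hq (hW u hu) (norm_nonneg _) (by positivity)
  have h4 := mul_le_mul hq hp (norm_nonneg _) (by positivity)
  nlinarith [hC u v a δ hu hv]

theorem W2 (A : M2) : ∃ C : ℝ, ∀ (u v h : H) (a : Bool) (δ : ℝ), ‖u‖ ≤ δ → ‖v‖ ≤ δ →
    |(⟪u, h⟫_ℂ).im| ≤ δ → |(⟪v, h⟫_ℂ).im| ≤ δ →
    ‖M.cw v (M.mat A (M.cw u (M.co a h) - M.co a h)) - M.mat A (M.cw u (M.co a h) - M.co a h)‖ ≤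
      C * δ ^ 2 := by
  obtain ⟨C, hC⟩ := M.W2_core
  refine ⟨(∑ a, ∑ b, ‖A b a‖) * |C|, fun u v h a δ hu hv hu' hv' => ?_⟩
  have h1 : M.mat A (M.cw u (M.co a h) - M.co a h) =
      ∑ b, A b a • (M.cw (((sg a * sg b : ℝ) : ℂ) • u) (M.co b h) - M.co b h) := by
    rw [map_sub, M.cw_co, map_smul, M.mat_co, M.mat_co, Finset.smul_sum, ← Finset.sum_sub_distrib]
    refine Finset.sum_congr rfl fun b _ => ?_
    have h2 : sg b * (sg a * sg b) = sg a := by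
      linear_combination sg a * sg_sq b
    rw [M.cw_co, smul_sub, smul_comm, inner_smul_left, Complex.conj_ofReal, Complex.im_ofReal_mul,
      ← mul_assoc, smul_smul (sg b : ℂ), ← Complex.ofReal_mul, h2]
  rw [h1, map_sum, ← Finset.sum_sub_distrib]
  refine (norm_sum_le _ _).trans ?_
  have h3 : ∀ b, ‖M.cw v (A b a • (M.cw (((sg a * sg b : ℝ) : ℂ) • u) (M.co b h) - M.co b h)) -
      A b a • (M.cw (((sg a * sg b : ℝ) : ℂ) • u) (M.co b h) - M.co b h)‖ ≤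
      ‖A b a‖ * (|C| * δ ^ 2) := by
    intro b
    rw [map_smul, ← smul_sub, norm_smul]
    refine mul_le_mul_of_nonneg_left ((hC _ v h b δ ?_ hv ?_ hv').trans
      (mul_le_mul_of_nonneg_right (le_abs_self C) (sq_nonneg δ))) (norm_nonneg _)
    · rwa [norm_smul, Complex.norm_real, Real.norm_eq_abs, abs_mul, abs_sg, abs_sg, one_mul, one_mul]
    · rwa [inner_smul_left, Complex.conj_ofReal, Complex.im_ofReal_mul, abs_mul, abs_mul, abs_sg,
        abs_sg, one_mul, one_mul]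
  refine (Finset.sum_le_sum fun b _ => h3 b).trans ?_
  rw [← Finset.sum_mul, mul_assoc]
  refine mul_le_mul_of_nonneg_right ?_ (by positivity)
  exact Finset.single_le_sum (f := fun a => ∑ b, ‖A b a‖)
    (fun _ _ => Finset.sum_nonneg fun _ _ => norm_nonneg _) (Finset.mem_univ a)

theorem norm_inner_co (a b : Bool) (h k : H) : ‖⟪M.co a h, M.co b k⟫_ℂ‖ ≤ Real.exp (-‖h - k‖ ^ 2 / 2) := by
  rw [M.inner_co]
  split_ifs
  · rw [Complex.norm_exp, norm_sub_sq (𝕜 := ℂ)]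
    refine le_of_eq ?_
    congr 1
    simp only [Complex.sub_re, Complex.ofReal_re, RCLike.re_to_complex]
    ring
  · rw [norm_zero]
    positivity

end Mdl

end Vale.Agent.P367S
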