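import Vale.Agent.P367S.MBd

/-! Estimates for coherent vectors. Hints: `⟪co a h, cw u (co a h)⟫ = exp (2 i s im ⟪u, h⟫ - ‖u‖ ^ 2 / 2)`,
`2 - 2 exp (-t / 2) ≤ t`. `W2_zero`: the square of the norm is a sum of sixteen terms `± exp q` with
`‖q‖ ≤ C δ ^ 2`; the signs and the `± q` sum to zero; `‖exp q - 1 - q‖ ≤ ‖q‖ ^ 2`
(`Complex.norm_exp_sub_one_sub_id_le`, for `δ` small; for `δ` large the bound is trivial). `W2_core`: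
`co a h = cw g (co a 0)` with `g = -s h`, and `cw u (cw g x) = exp (i ρ) • cw g (cw u x)` with
`ρ = -2 im ⟪u, g⟫`; write `exp (i ρ) cw u - 1 = exp (i ρ) (cw u - 1) + (exp (i ρ) - 1)`. `W2`:
`mat A (cw u (co a h) - co a h) = ∑ b, A b a • (cw (s a * s b • u) (co b h) - co b h)`. -/

open scoped InnerProductSpace Topology Matrix
open Filter Asymptotics

noncomputable section

namespace Vale.Agent.P367S

namespace Mdl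

variable {H K : Type} [NormedAddCommGroup H] [InnerProductSpace ℂ H]
  [SeminormedAddCommGroup K] [InnerProductSpace ℂ K] (M : Mdl H K)

theorem SW0_rem {q : ℂ} {t : ℝ} (hq : ‖q‖ ≤ t) (ht : t ≤ 1) :
    |(Complex.exp q).re - 1 - q.re| ≤ t ^ 2 := by
  have h1 := Complex.norm_exp_sub_one_sub_id_le (hq.trans ht)
  have h2 := Complex.abs_re_le_norm (Complex.exp q - 1 - q)
  simp only [Complex.sub_re, Complex.one_re] at h2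
  exact h2.trans (h1.trans (pow_le_pow_left₀ (norm_nonneg _) hq 2))

theorem SW0_cw (u : H) (a : Bool) : M.cw u (M.co a 0) = M.co a (-((sg a : ℂ) • u)) := by
  rw [M.cw_co]
  simp

theorem SW0_norm (a : Bool) (u : H) : ‖(sg a : ℂ) • u‖ = ‖u‖ := by
  rw [norm_smul, Complex.norm_real, Real.norm_eq_abs, abs_sg, one_mul]

theorem SW0_inner (a : Bool) (u v : H) : ⟪(sg a : ℂ) • u, (sg a : ℂ) • v⟫_ℂ = ⟪u, v⟫_ℂ := by
  rw [inner_smul_left, inner_smul_right, Complex.conj_ofReal, ← mul_assoc, ← Complex.ofReal_mul,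
    sg_sq, Complex.ofReal_one, one_mul]

theorem SW0_ii (u v : H) (a : Bool) : ⟪M.cw u (M.co a 0), M.cw v (M.co a 0)⟫_ℂ =
    Complex.exp (⟪u, v⟫_ℂ - (‖u‖ ^ 2 / 2 : ℝ) - (‖v‖ ^ 2 / 2 : ℝ)) := by
  rw [SW0_cw, SW0_cw, M.inner_co, if_pos rfl, inner_neg_neg, norm_neg, norm_neg, SW0_norm, SW0_norm,
    SW0_inner]

theorem SW0_self (u h : H) (a : Bool) : ⟪M.co a h, M.cw u (M.co a h)⟫_ℂ =
    Complex.exp (Complex.I * (2 * sg a * (⟪u, h⟫_ℂ).im : ℝ) - (‖u‖ ^ 2 / 2 : ℝ)) := by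
  rw [M.cw_co, inner_smul_right, M.inner_co, if_pos rfl, ← Complex.exp_add]
  congr 1
  have h1 := norm_sub_sq (𝕜 := ℂ) h ((sg a : ℂ) • u)
  have h2 : ⟪h, h⟫_ℂ = ((‖h‖ ^ 2 : ℝ) : ℂ) := by
    rw [inner_self_eq_norm_sq_to_K]
    simp
  rw [h1, SW0_norm, inner_sub_right, h2, inner_smul_right, ← inner_conj_symm h u]
  apply Complex.ext
  · simp [-Complex.ofReal_pow, -inner_conj_symm]
    ring
  · simp [-Complex.ofReal_pow, -inner_conj_symm]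
    ring

theorem W2_zero : ∃ C : ℝ, ∀ (u v : H) (a : Bool) (δ : ℝ), ‖u‖ ≤ δ → ‖v‖ ≤ δ →
    ‖M.cw v (M.cw u (M.co a 0) - M.co a 0) - (M.cw u (M.co a 0) - M.co a 0)‖ ≤ C * δ ^ 2 := by
  refine ⟨12, fun u v a δ hu hv => ?_⟩
  by_cases hδ : 3 * δ ^ 2 ≤ 1
  swap
  · have h1 : ‖M.cw u (M.co a 0) - M.co a 0‖ ≤ 2 := by
      have := norm_sub_le (M.cw u (M.co a 0)) (M.co a 0)
      rw [LinearIsometryEquiv.norm_map, M.norm_co] at this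
      linarith
    have h2 := norm_sub_le (M.cw v (M.cw u (M.co a 0) - M.co a 0)) (M.cw u (M.co a 0) - M.co a 0)
    rw [LinearIsometryEquiv.norm_map] at h2
    linarith
  have hu2 : ‖u‖ ^ 2 ≤ δ ^ 2 := pow_le_pow_left₀ (norm_nonneg _) hu 2
  have hv2 : ‖v‖ ^ 2 ≤ δ ^ 2 := pow_le_pow_left₀ (norm_nonneg _) hv 2
  have hc : ‖⟪u, v⟫_ℂ‖ ≤ δ ^ 2 := (norm_inner_le_norm u v).trans (by
    rw [sq]
    exact mul_le_mul hu hv (norm_nonneg _) ((norm_nonneg _).trans hu))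
  have hA : ‖((‖u‖ ^ 2 / 2 : ℝ) : ℂ)‖ ≤ δ ^ 2 / 2 := by
    rw [Complex.norm_real, Real.norm_of_nonneg (by positivity)]
    linarith
  have hB : ‖((‖v‖ ^ 2 / 2 : ℝ) : ℂ)‖ ≤ δ ^ 2 / 2 := by
    rw [Complex.norm_real, Real.norm_of_nonneg (by positivity)]
    linarith
  have e1 : ⟪M.co a 0, M.cw u (M.co a 0)⟫_ℂ = Complex.exp (-((‖u‖ ^ 2 / 2 : ℝ) : ℂ)) := by
    rw [SW0_self]
    simp
  have e2 : ⟪M.co a 0, M.cw v (M.co a 0)⟫_ℂ = Complex.exp (-((‖v‖ ^ 2 / 2 : ℝ) : ℂ)) := by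
    rw [SW0_self]
    simp
  have e3 := M.SW0_ii u v a
  have e4 : ⟪M.co a 0, M.cw v (M.cw u (M.co a 0))⟫_ℂ =
      Complex.exp (-⟪v, u⟫_ℂ - (‖v‖ ^ 2 / 2 : ℝ) - (‖u‖ ^ 2 / 2 : ℝ)) := by
    rw [← LinearIsometryEquiv.symm_symm (M.cw v), ← LinearIsometryEquiv.inner_map_eq_flip, M.cw_symm,
      SW0_ii, inner_neg_left, norm_neg]
  have e5 : ⟪M.cw u (M.co a 0), M.cw v (M.cw u (M.co a 0))⟫_ℂ =
      Complex.exp (Complex.I * (2 * (⟪u, v⟫_ℂ).im : ℝ) - (‖v‖ ^ 2 / 2 : ℝ)) := by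
    rw [SW0_cw, SW0_self, inner_neg_right, inner_smul_right, ← inner_conj_symm v u]
    congr 4
    simp only [Complex.neg_im, Complex.im_ofReal_mul, Complex.conj_im]
    linear_combination (2 * (⟪u, v⟫_ℂ).im) * sg_sq a
  have hδ0 : 0 ≤ δ ^ 2 := sq_nonneg δ
  have r1 := SW0_rem (q := -((‖u‖ ^ 2 / 2 : ℝ) : ℂ)) (by rw [norm_neg]; linarith) hδ
  have r2 := SW0_rem (q := -((‖v‖ ^ 2 / 2 : ℝ) : ℂ)) (by rw [norm_neg]; linarith) hδ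
  have r3 := SW0_rem (q := ⟪u, v⟫_ℂ - (‖u‖ ^ 2 / 2 : ℝ) - (‖v‖ ^ 2 / 2 : ℝ)) (by
    linarith [norm_sub_le (⟪u, v⟫_ℂ - (‖u‖ ^ 2 / 2 : ℝ)) (‖v‖ ^ 2 / 2 : ℝ),
      norm_sub_le ⟪u, v⟫_ℂ (‖u‖ ^ 2 / 2 : ℝ)]) hδ
  have r4 := SW0_rem (q := -⟪v, u⟫_ℂ - (‖v‖ ^ 2 / 2 : ℝ) - (‖u‖ ^ 2 / 2 : ℝ)) (by
    linarith [norm_sub_le (-⟪v, u⟫_ℂ - (‖v‖ ^ 2 / 2 : ℝ)) (‖u‖ ^ 2 / 2 : ℝ),
      norm_sub_le (-⟪v, u⟫_ℂ) (‖v‖ ^ 2 / 2 : ℝ), norm_neg ⟪v, u⟫_ℂ,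
      norm_inner_symm (𝕜 := ℂ) v u]) hδ
  have r5 := SW0_rem (q := Complex.I * (2 * (⟪u, v⟫_ℂ).im : ℝ) - (‖v‖ ^ 2 / 2 : ℝ)) (by
    have h1 : ‖Complex.I * (2 * (⟪u, v⟫_ℂ).im : ℝ)‖ ≤ 2 * δ ^ 2 := by
      rw [norm_mul, Complex.norm_I, one_mul, Complex.norm_real, norm_mul, Real.norm_eq_abs,
        Real.norm_eq_abs, abs_two]
      linarith [Complex.abs_im_le_norm ⟪u, v⟫_ℂ]
    linarith [norm_sub_le (Complex.I * (2 * (⟪u, v⟫_ℂ).im : ℝ)) (‖v‖ ^ 2 / 2 : ℝ)]) hδ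
  rw [← e1] at r1
  rw [← e2] at r2
  rw [← e3] at r3
  rw [← e4] at r4
  rw [← e5] at r5
  have h6 : (⟪v, u⟫_ℂ).re = (⟪u, v⟫_ℂ).re := inner_re_symm (𝕜 := ℂ) v u
  simp only [Complex.sub_re, Complex.neg_re, Complex.ofReal_re, Complex.mul_re, Complex.I_re,
    Complex.I_im, Complex.ofReal_im, zero_mul, mul_zero, sub_zero, h6, abs_le] at r1 r2 r3 r4 r5
  refine abs_le_of_sq_le_sq' ?_ (by positivity) |>.2
  rw [norm_sub_rev, norm_sub_sq (𝕜 := ℂ), LinearIsometryEquiv.norm_map, norm_sub_rev,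
    norm_sub_sq (𝕜 := ℂ), LinearIsometryEquiv.norm_map, M.norm_co, map_sub, inner_sub_left,
    inner_sub_right, inner_sub_right]
  simp only [map_sub, RCLike.re_to_complex]
  nlinarith [r1.1, r1.2, r2.1, r2.2, r3.1, r3.2, r4.1, r4.2, r5.1, r5.2, sq_nonneg (δ ^ 2)]

end Mdl

end Vale.Agent.P367S
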